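/-
Row 168 (S0254, S0255): strongly Rayleigh laws are factors of iid.
Definitions of the sampler: see findings kind='math-proof' rownum=168.
-/
import Mathlib

set_option autoImplicit false

namespace Crest.Agent.Lib.SRF

open MeasureTheory Filter Topology
open scoped Classical

variable {E : Type*}

/-! ### Tilted finite marginals -/

/-- Partition function of the coefficients `c` on subsets of `W`, tilted by `h`. -/
noncomputable def tiltZ (c : Finset E → ℝ) (W : Finset E) (h : E → ℝ) : ℝ :=
  ∑ S ∈ W.powerset, c S * Real.exp (∑ f ∈ S, h f)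

/-- Numerator of the tilted mean of site `e`. -/
noncomputable def tiltN (c : Finset E → ℝ) (W : Finset E) (e : E) (h : E → ℝ) : ℝ :=
  ∑ S ∈ W.powerset, if e ∈ S then c S * Real.exp (∑ f ∈ S, h f) else 0

/-- Tilted mean of site `e` (probability that `e` is occupied under the tilted marginal). -/
noncomputable def tiltMean (c : Finset E → ℝ) (W : Finset E) (e : E) (h : E → ℝ) : ℝ :=
  tiltN c W e h / tiltZ c W h

/-- Numerator of the tilted pair probability. -/
noncomputable def tiltPair (c : Finset E → ℝ) (W : Finset E) (e f : E) (h : E → ℝ) : ℝ :=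
  ∑ S ∈ W.powerset, if e ∈ S ∧ f ∈ S then c S * Real.exp (∑ g ∈ S, h g) else 0

/-- Tilted covariance of sites `e`, `f`. -/
noncomputable def tiltCov (c : Finset E → ℝ) (W : Finset E) (e f : E) (h : E → ℝ) : ℝ :=
  tiltPair c W e f h / tiltZ c W h - tiltMean c W e h * tiltMean c W f h

/-- Row-sum bound for the coefficients `c` on `W`: under every tilt, for every site `e` of `W`, the sum of the
absolute covariances with the other sites is at most the variance of `e`. -/
def RowSumBound (c : Finset E → ℝ) (W : Finset E) : Prop :=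
  ∀ (h : E → ℝ) (e : E), e ∈ W →
    ∑ f ∈ W.erase e, |tiltCov c W e f h| ≤ tiltMean c W e h * (1 - tiltMean c W e h)

/-- The marginal of `ν` on `W`: mass of the cylinder "occupied exactly at `S` within `W`". Same formula as in
`Crest.ProbabilityR.StronglyRayleigh.genPoly`. -/
noncomputable def mass (ν : Measure (E → Bool)) (W S : Finset E) : ℝ :=
  (ν {ω | ∀ i ∈ W, (ω i = true ↔ i ∈ S)}).toReal

/-! ### The observation family on `[0,1]`:  densities `f₀ = 1`, `f₁ y = y + 1/2`. -/

/-- log likelihood ratio of an observation -/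
noncomputable def iota (y : ℝ) : ℝ := Real.log (y + 1 / 2)

/-- CDF of the mixture `(1-a) f₀ + a f₁`. -/
noncomputable def cdfG (a y : ℝ) : ℝ := y - (a / 2) * y * (1 - y)

/-- Inverse of `cdfG a` on `[0,1]`, written without division by `a`. -/
noncomputable def quant (a u : ℝ) : ℝ :=
  2 * u / (Real.sqrt ((1 - a / 2) ^ 2 + 4 * (a / 2) * u) + 1 - a / 2)

/-- clamp into `[0,1]` -/
noncomputable def clamp01 (a : ℝ) : ℝ := max 0 (min 1 a)

/-! ### Order of the observations, posterior mean, Picard iteration -/

/-- Order of the observations: site `f`, round `j` is before site `e`, round `k` when `j < k`, or `j = k` and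
`θ f < θ e`. -/
def before (θ : E → ℝ) (i j : E × ℕ) : Prop := i.2 < j.2 ∨ (i.2 = j.2 ∧ θ i.1 < θ j.1)

/-- The tilt at site `f` accumulated by the observations before `i`. -/
noncomputable def hPast (θ : E → ℝ) (y : E × ℕ → ℝ) (i : E × ℕ) (f : E) : ℝ :=
  ∑ j ∈ Finset.range (i.2 + 1), if before θ (f, j) i then iota (y (f, j)) else 0

/-- The posterior mean functional: `m e n h` is the tilted mean of `e` in the `n`-th window of `e`. -/
noncomputable def filterA (m : E → ℕ → (E → ℝ) → ℝ) (θ : E → ℝ) (y : E × ℕ → ℝ) (i : E × ℕ) : ℝ :=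
  limsup (fun n => clamp01 (m i.1 n (hPast θ y i))) atTop

/-- Picard iteration of `y ↦ (i ↦ quant (A y i) (U i))`. -/
noncomputable def picard (m : E → ℕ → (E → ℝ) → ℝ) (θ : E → ℝ) (U : E × ℕ → ℝ) : ℕ → E × ℕ → ℝ
  | 0 => fun _ => 1 / 2
  | t + 1 => fun i => quant (filterA m θ (picard m θ U t) i) (U i)

/-- Forces the auto-generated equation lemma `picard.eq_def` to live in this module, so that sibling
modules do not each generate their own copy (a name collision in a common import closure). -/
noncomputable def picard_eq_def_forced := @picard.eq_def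

theorem picard_zero (m : E → ℕ → (E → ℝ) → ℝ) (θ : E → ℝ) (U : E × ℕ → ℝ) :
    picard m θ U 0 = fun _ => 1 / 2 := by
  rw [picard]

theorem picard_succ (m : E → ℕ → (E → ℝ) → ℝ) (θ : E → ℝ) (U : E × ℕ → ℝ) (t : ℕ) :
    picard m θ U (t + 1) = fun i => quant (filterA m θ (picard m θ U t) i) (U i) := by
  rw [picard]

/-- The sampler: limit of the Picard iteration. -/
noncomputable def solve (m : E → ℕ → (E → ℝ) → ℝ) (θ : E → ℝ) (U : E × ℕ → ℝ) (i : E × ℕ) : ℝ :=
  limsup (fun t => picard m θ U t i) atTop

/-- The estimator: site `e` is occupied when the limsup of the averages of its observations exceeds `13/24`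
(means: `1/2` under `f₀`, `7/12` under `f₁`). -/
noncomputable def est (y : E × ℕ → ℝ) (e : E) : Bool :=
  decide ((13 / 24 : ℝ) < limsup (fun k : ℕ => (∑ j ∈ Finset.range (k + 1), y (e, j)) / ((k : ℝ) + 1)) atTop)

/-! ### The channel -/

/-- the index set -/
abbrev Idx (E : Type*) := E × ℕ

/-- iid uniform noise indexed by `ι` -/
noncomputable def unif (ι : Type*) : Measure (ι → unitInterval) :=
  Measure.infinitePi fun _ : ι => (volume : Measure unitInterval)

instance (ι : Type*) : IsProbabilityMeasure (unif ι) := by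
  unfold unif; infer_instance

/-- The joint law of the configuration and the raw noise. -/
noncomputable def jointP (ν : Measure (E → Bool)) : Measure ((E → Bool) × (E × ℕ → unitInterval)) :=
  ν.prod (unif (E × ℕ))

instance (ν : Measure (E → Bool)) [IsProbabilityMeasure ν] : IsProbabilityMeasure (jointP ν) := by
  unfold jointP; infer_instance

/-- Number `0` or `1` of a Boolean. -/
def bit (b : Bool) : ℝ := if b then 1 else 0

/-- The observations: given `X`, independent with densities `f_{X e}`. -/
noncomputable def obs (X : E → Bool) (w : E × ℕ → unitInterval) (i : E × ℕ) : ℝ :=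
  quant (bit (X i.1)) (w i)

/-- The innovation. -/
noncomputable def inn (m : E → ℕ → (E → ℝ) → ℝ) (θ : E → ℝ)
    (p : (E → Bool) × (E × ℕ → unitInterval)) (i : E × ℕ) : unitInterval :=
  Set.projIcc (0 : ℝ) 1 zero_le_one (cdfG (filterA m θ (obs p.1 p.2) i) (obs p.1 p.2 i))

/-- The standing hypotheses on the windows and the mean functional. -/
structure Windows (ν : Measure (E → Bool)) (W : E → ℕ → Finset E) (m : E → ℕ → (E → ℝ) → ℝ) : Prop where
  mono : ∀ e, Monotone (W e)
  exhaust : ∀ e f, ∃ n, f ∈ W e n
  mean_eq : ∀ e n h, m e n h = tiltMean (mass ν (W e n)) (W e n) e h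
  lip : ∀ e n (h h' : E → ℝ) (r : ℝ), (∀ f ∈ W e n, |h f - h' f| ≤ r) → |m e n h - m e n h'| ≤ r / 2

end Crest.Agent.Lib.SRF
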