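import Crest.Agent.Lib.SRF.SchwarzPick
import Crest.Prelude.Def_StronglyRayleigh

/-!
# Strongly Rayleigh coefficient families: negative correlation, covering in mean, row sums.
-/

set_option autoImplicit false

namespace Crest.Agent.SRF

open Polynomial ComplexConjugate

variable {ι : Type*} [DecidableEq ι]

/-- A strongly Rayleigh coefficient family on the subsets of `W`. -/
structure IsSRCoef (W : Finset ι) (a : Finset ι → ℝ) : Prop where
  nonneg : ∀ S ∈ W.powerset, 0 ≤ a S
  pos : 0 < ∑ S ∈ W.powerset, a S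
  stable : ∀ z : ι → ℂ, (∀ i ∈ W, 0 < (z i).im) →
    (∑ S ∈ W.powerset, ((a S : ℝ) : ℂ) * ∏ i ∈ S, z i) ≠ 0

/-- Exponential tilt of a coefficient family. -/
noncomputable def tilt (h : ι → ℝ) (a : Finset ι → ℝ) (S : Finset ι) : ℝ :=
  a S * Real.exp (∑ i ∈ S, h i)

theorem IsSRCoef.tilt {W : Finset ι} {a : Finset ι → ℝ} (ha : IsSRCoef W a) (h : ι → ℝ) :
    IsSRCoef W (tilt h a) := by
  refine ⟨fun S hS => mul_nonneg (ha.nonneg S hS) (Real.exp_pos _).le, ?_, ?_⟩
  · -- positivity
    have h1 : ∃ S ∈ W.powerset, 0 < a S := by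
      by_contra hcon
      push Not at hcon
      have : ∑ S ∈ W.powerset, a S ≤ 0 := Finset.sum_nonpos hcon
      linarith [ha.pos]
    obtain ⟨S, hS, hpos⟩ := h1
    refine Finset.sum_pos' (fun T hT => mul_nonneg (ha.nonneg T hT) (Real.exp_pos _).le)
      ⟨S, hS, mul_pos hpos (Real.exp_pos _)⟩
  · intro z hz
    have := ha.stable (fun i => ((Real.exp (h i) : ℝ) : ℂ) * z i) (by
      intro i hi
      simp only [Complex.mul_im, Complex.ofReal_re, Complex.ofReal_im, zero_mul, add_zero]
      exact mul_pos (Real.exp_pos _) (hz i hi))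
    convert this using 1
    refine Finset.sum_congr rfl fun S _ => ?_
    simp only [Crest.Agent.SRF.tilt, Complex.ofReal_mul, Real.exp_sum, Finset.prod_mul_distrib]
    push_cast
    ring

section covering

variable {W : Finset ι} {a : Finset ι → ℝ} {e : ι}

/-- The exponent `2|S| - [e ∈ S]`. -/
def dgr (e : ι) (S : Finset ι) : ℕ := 2 * S.card - (if e ∈ S then 1 else 0)

/-- The univariate polynomial `F(w) = p(w at e, w² elsewhere)`. -/
noncomputable def covPoly (W : Finset ι) (a : Finset ι → ℝ) (e : ι) : ℂ[X] :=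
  ∑ S ∈ W.powerset, C ((a S : ℝ) : ℂ) * X ^ dgr e S

theorem prod_cov (e : ι) (S : Finset ι) (w : ℂ) :
    ∏ i ∈ S, (if i = e then w else w ^ 2) = w ^ dgr e S := by
  classical
  unfold dgr
  by_cases he : e ∈ S
  · rw [if_pos he, ← Finset.mul_prod_erase S _ he]
    have h1 : ∏ i ∈ S.erase e, (if i = e then w else w ^ 2) = (w ^ 2) ^ (S.erase e).card := by
      rw [← Finset.prod_const]
      refine Finset.prod_congr rfl fun i hi => ?_
      rw [if_neg (Finset.ne_of_mem_erase hi)]
    rw [h1, Finset.card_erase_of_mem he, if_pos rfl]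
    have hc : 1 ≤ S.card := Finset.card_pos.2 ⟨e, he⟩
    rw [← pow_mul, ← pow_succ']
    congr 1
    omega
  · rw [if_neg he, Nat.sub_zero, pow_mul, ← Finset.prod_const]
    refine Finset.prod_congr rfl fun i hi => ?_
    rw [if_neg]
    rintro rfl
    exact he hi

theorem eval_covPoly (w : ℂ) :
    (covPoly W a e).eval w = ∑ S ∈ W.powerset, ((a S : ℝ) : ℂ) * w ^ dgr e S := by
  simp [covPoly, eval_finsetSum]

theorem eval_derivative_covPoly (w : ℂ) :
    (covPoly W a e).derivative.eval w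
      = ∑ S ∈ W.powerset, ((a S : ℝ) : ℂ) * ((dgr e S : ℕ) * w ^ (dgr e S - 1)) := by
  simp only [covPoly, derivative_sum, eval_finsetSum, derivative_C_mul, derivative_X_pow, eval_mul,
    eval_C, eval_pow, eval_X, eval_natCast]

theorem covPoly_ne_zero_of_re_pos (ha : IsSRCoef W a) (w : ℂ) (hw : 0 < w.re) :
    (covPoly W a e).eval w ≠ 0 := by
  rw [eval_covPoly]
  rcases lt_trichotomy w.im 0 with him | him | him
  · -- conjugate
    have hw' : 0 < (conj w).im := by simpa using him
    have hst := ha.stable (fun i => if i = e then conj w else (conj w) ^ 2) (by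
      intro i _
      by_cases hi : i = e
      · simp only [hi, if_true]; exact hw'
      · simp only [hi, if_false]
        have : ((conj w) ^ 2).im = 2 * w.re * (-w.im) := by
          simp [pow_two, Complex.mul_im]; ring
        rw [this]
        have : 0 < -w.im := by linarith
        positivity)
    intro h0
    apply hst
    have h1 := congrArg conj h0
    simp only [map_sum, map_mul, map_pow, Complex.conj_ofReal, map_zero] at h1
    rw [← h1]
    refine Finset.sum_congr rfl fun S _ => ?_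
    rw [prod_cov]
  · -- real
    have hwr : w = ((w.re : ℝ) : ℂ) := by
      apply Complex.ext <;> simp [him]
    rw [hwr]
    have : (∑ S ∈ W.powerset, ((a S : ℝ) : ℂ) * ((w.re : ℝ) : ℂ) ^ dgr e S)
        = ((∑ S ∈ W.powerset, a S * w.re ^ dgr e S : ℝ) : ℂ) := by
      push_cast; rfl
    rw [this, Complex.ofReal_ne_zero]
    have h1 : ∃ S ∈ W.powerset, 0 < a S := by
      by_contra hcon
      push Not at hcon
      have : ∑ S ∈ W.powerset, a S ≤ 0 := Finset.sum_nonpos hcon
      linarith [ha.pos]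
    obtain ⟨S, hS, hpos⟩ := h1
    apply ne_of_gt
    exact Finset.sum_pos' (fun T hT => mul_nonneg (ha.nonneg T hT) (pow_pos hw _).le)
      ⟨S, hS, mul_pos hpos (pow_pos hw _)⟩
  · have hst := ha.stable (fun i => if i = e then w else w ^ 2) (by
      intro i _
      by_cases hi : i = e
      · simp only [hi, if_true]; exact him
      · simp only [hi, if_false]
        have : (w ^ 2).im = 2 * w.re * w.im := by
          simp [pow_two, Complex.mul_im]; ring
        rw [this]
        positivity)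
    intro h0
    apply hst
    rw [← h0]
    refine Finset.sum_congr rfl fun S _ => ?_
    rw [prod_cov]

/-- Covering in mean: `N₀ Z₁ ≤ N₁ Z₀`. -/
theorem covering_mean (ha : IsSRCoef W a) :
    (∑ S ∈ W.powerset.filter (fun S => e ∉ S), a S * S.card) *
        (∑ S ∈ W.powerset.filter (fun S => e ∈ S), a S)
      ≤ (∑ S ∈ W.powerset.filter (fun S => e ∈ S), a S * S.card) *
        (∑ S ∈ W.powerset.filter (fun S => e ∉ S), a S) := by
  set Z0 := ∑ S ∈ W.powerset.filter (fun S => e ∉ S), a S with hZ0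
  set Z1 := ∑ S ∈ W.powerset.filter (fun S => e ∈ S), a S with hZ1
  set N0 := ∑ S ∈ W.powerset.filter (fun S => e ∉ S), a S * S.card with hN0
  set N1 := ∑ S ∈ W.powerset.filter (fun S => e ∈ S), a S * S.card with hN1
  have hz0 : 0 ≤ Z0 := Finset.sum_nonneg fun S hS => ha.nonneg S (Finset.mem_filter.1 hS).1
  have hz1 : 0 ≤ Z1 := Finset.sum_nonneg fun S hS => ha.nonneg S (Finset.mem_filter.1 hS).1
  have hsplit : ∀ f : Finset ι → ℂ, ∑ S ∈ W.powerset, f S
      = ∑ S ∈ W.powerset.filter (fun S => e ∉ S), f S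
        + ∑ S ∈ W.powerset.filter (fun S => e ∈ S), f S := by
    intro f
    rw [add_comm, Finset.sum_filter_add_sum_filter_not]
  have ev1 : (covPoly W a e).eval 1 = ((Z0 + Z1 : ℝ) : ℂ) := by
    rw [eval_covPoly, hsplit]
    simp [hZ0, hZ1]
  have evm1 : (covPoly W a e).eval (-1) = ((Z0 - Z1 : ℝ) : ℂ) := by
    rw [eval_covPoly, hsplit]
    have h1 : ∑ S ∈ W.powerset.filter (fun S => e ∉ S), ((a S : ℝ) : ℂ) * (-1 : ℂ) ^ dgr e S
        = ((Z0 : ℝ) : ℂ) := by
      rw [hZ0]
      push_cast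
      refine Finset.sum_congr rfl fun S hS => ?_
      have he := (Finset.mem_filter.1 hS).2
      simp [dgr, he, pow_mul]
    have h2 : ∑ S ∈ W.powerset.filter (fun S => e ∈ S), ((a S : ℝ) : ℂ) * (-1 : ℂ) ^ dgr e S
        = -((Z1 : ℝ) : ℂ) := by
      rw [hZ1]
      push_cast
      rw [← Finset.sum_neg_distrib]
      refine Finset.sum_congr rfl fun S hS => ?_
      have he := (Finset.mem_filter.1 hS).2
      have hc : 1 ≤ S.card := Finset.card_pos.2 ⟨e, he⟩
      have hd : dgr e S = 2 * (S.card - 1) + 1 := by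
        simp only [dgr, if_pos he]; omega
      rw [hd, pow_succ, pow_mul]
      simp
    rw [h1, h2]
    push_cast
    ring
  have dev1 : (covPoly W a e).derivative.eval 1 = ((2 * N0 + 2 * N1 - Z1 : ℝ) : ℂ) := by
    rw [eval_derivative_covPoly, hsplit]
    have h1 : ∑ S ∈ W.powerset.filter (fun S => e ∉ S),
        ((a S : ℝ) : ℂ) * ((dgr e S : ℕ) * (1 : ℂ) ^ (dgr e S - 1)) = ((2 * N0 : ℝ) : ℂ) := by
      rw [hN0]
      push_cast
      rw [Finset.mul_sum]
      refine Finset.sum_congr rfl fun S hS => ?_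
      have he := (Finset.mem_filter.1 hS).2
      simp [dgr, he]
      ring
    have h2 : ∑ S ∈ W.powerset.filter (fun S => e ∈ S),
        ((a S : ℝ) : ℂ) * ((dgr e S : ℕ) * (1 : ℂ) ^ (dgr e S - 1)) = ((2 * N1 - Z1 : ℝ) : ℂ) := by
      rw [hN1, hZ1]
      push_cast
      rw [Finset.mul_sum, ← Finset.sum_sub_distrib]
      refine Finset.sum_congr rfl fun S hS => ?_
      have he := (Finset.mem_filter.1 hS).2
      have hc : 1 ≤ S.card := Finset.card_pos.2 ⟨e, he⟩
      have hd : dgr e S = 2 * S.card - 1 := by simp only [dgr, if_pos he]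
      have hcast : ((dgr e S : ℕ) : ℂ) = 2 * (S.card : ℂ) - 1 := by
        rw [hd, Nat.cast_sub (by omega)]
        push_cast
        ring
      rw [hcast]
      simp
      ring
    rw [h1, h2]
    push_cast
    ring
  have devm1 : (covPoly W a e).derivative.eval (-1) = ((-(2 * N0) + 2 * N1 - Z1 : ℝ) : ℂ) := by
    rw [eval_derivative_covPoly, hsplit]
    have h1 : ∑ S ∈ W.powerset.filter (fun S => e ∉ S),
        ((a S : ℝ) : ℂ) * ((dgr e S : ℕ) * (-1 : ℂ) ^ (dgr e S - 1)) = ((-(2 * N0) : ℝ) : ℂ) := by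
      rw [hN0]
      push_cast
      rw [Finset.mul_sum, ← Finset.sum_neg_distrib]
      refine Finset.sum_congr rfl fun S hS => ?_
      have he := (Finset.mem_filter.1 hS).2
      have hd : dgr e S = 2 * S.card := by simp [dgr, he]
      rcases Nat.eq_zero_or_pos S.card with h0 | hpos
      · simp [hd, h0]
      · have hd' : dgr e S - 1 = 2 * (S.card - 1) + 1 := by omega
        rw [hd', hd, pow_succ, pow_mul]
        simp
        ring
    have h2 : ∑ S ∈ W.powerset.filter (fun S => e ∈ S),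
        ((a S : ℝ) : ℂ) * ((dgr e S : ℕ) * (-1 : ℂ) ^ (dgr e S - 1)) = ((2 * N1 - Z1 : ℝ) : ℂ) := by
      rw [hN1, hZ1]
      push_cast
      rw [Finset.mul_sum, ← Finset.sum_sub_distrib]
      refine Finset.sum_congr rfl fun S hS => ?_
      have he := (Finset.mem_filter.1 hS).2
      have hc : 1 ≤ S.card := Finset.card_pos.2 ⟨e, he⟩
      have hd : dgr e S = 2 * S.card - 1 := by simp only [dgr, if_pos he]
      have hcast : ((dgr e S : ℕ) : ℂ) = 2 * (S.card : ℂ) - 1 := by
        rw [hd, Nat.cast_sub (by omega)]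
        push_cast
        ring
      have hd' : dgr e S - 1 = 2 * (S.card - 1) := by omega
      rw [hcast, hd', pow_mul]
      simp
      ring
    rw [h1, h2]
    push_cast
    ring
  have hne : (covPoly W a e).eval 1 ≠ 0 := covPoly_ne_zero_of_re_pos ha 1 (by simp)
  have hF0 : covPoly W a e ≠ 0 := by
    intro h0
    rw [h0] at hne
    simp at hne
  have hS : SPoly (covPoly W a e) := by
    refine SPoly_of_roots hF0 fun z hz => ?_
    by_contra hcon
    exact covPoly_ne_zero_of_re_pos ha z (not_le.1 hcon) hz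
  have h1 := hS.1
  rw [ev1, evm1, dev1, devm1] at h1
  simp only [Complex.conj_ofReal] at h1
  have h2 : -((-(2 * N0) + 2 * N1 - Z1 : ℝ) : ℂ) * ((Z0 + Z1 : ℝ) : ℂ)
      - ((Z0 - Z1 : ℝ) : ℂ) * ((2 * N0 + 2 * N1 - Z1 : ℝ) : ℂ)
      = ((4 * N0 * Z1 - 4 * N1 * Z0 + 2 * Z0 * Z1 : ℝ) : ℂ) := by
    push_cast
    ring
  rw [h2, Complex.norm_real, Complex.norm_real, Complex.norm_real, Real.norm_eq_abs,
    Real.norm_eq_abs, Real.norm_eq_abs, sq_abs, sq_abs] at h1
  have h3 := le_abs_self (4 * N0 * Z1 - 4 * N1 * Z0 + 2 * Z0 * Z1)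
  nlinarith

end covering

section rayleigh

variable {W : Finset ι} {a : Finset ι → ℝ} {e f : ι}

/-- The evaluation point with `x` at `e`, `y` at `f`, and `t` elsewhere. -/
def zz (e f : ι) (x y t : ℂ) : ι → ℂ := fun g => if g = e then x else if g = f then y else t

/-- The part of the product coming from the other variables. -/
def RR (e f : ι) (S : Finset ι) (t : ℂ) : ℂ := ∏ g ∈ S, if g = e ∨ g = f then 1 else t

theorem prod_zz (hef : e ≠ f) (S : Finset ι) (x y t : ℂ) :
    ∏ g ∈ S, zz e f x y t g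
      = (if e ∈ S then x else 1) * (if f ∈ S then y else 1) * RR e f S t := by
  have h : ∀ g, zz e f x y t g = (if g = e then x else 1) * (if g = f then y else 1)
      * (if g = e ∨ g = f then 1 else t) := by
    intro g
    unfold zz
    by_cases h1 : g = e
    · subst h1; simp [hef]
    · by_cases h2 : g = f
      · subst h2; simp [h1]
      · simp [h1, h2]
  simp only [h, Finset.prod_mul_distrib, Finset.prod_ite_eq', RR]

theorem RR_one (S : Finset ι) : RR e f S 1 = 1 := by
  simp [RR]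

theorem continuous_RR (S : Finset ι) : Continuous (RR e f S) := by
  unfold RR
  refine continuous_finsetProd _ fun g _ => ?_
  show Continuous (fun t : ℂ => if g = e ∨ g = f then (1 : ℂ) else t)
  split_ifs
  · exact continuous_const
  · exact continuous_id

/-- Rayleigh: negative correlation. -/
theorem neg_corr (ha : IsSRCoef W a) (hef : e ≠ f) :
    (∑ S ∈ W.powerset.filter (fun S => e ∈ S ∧ f ∈ S), a S) * (∑ S ∈ W.powerset, a S)
      ≤ (∑ S ∈ W.powerset.filter (fun S => e ∈ S), a S)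
        * (∑ S ∈ W.powerset.filter (fun S => f ∈ S), a S) := by
  classical
  -- the four coefficient polynomials
  let cf : (Finset ι → Prop) → ℂ → ℂ := fun P t =>
    ∑ S ∈ W.powerset, if P S then ((a S : ℝ) : ℂ) * RR e f S t else 0
  let rf : (Finset ι → Prop) → ℝ := fun P => ∑ S ∈ W.powerset, if P S then a S else 0
  let P00 : Finset ι → Prop := fun S => e ∉ S ∧ f ∉ S
  let P10 : Finset ι → Prop := fun S => e ∈ S ∧ f ∉ S
  let P01 : Finset ι → Prop := fun S => e ∉ S ∧ f ∈ S
  let P11 : Finset ι → Prop := fun S => e ∈ S ∧ f ∈ S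
  let α : ℂ → ℂ := cf P00
  let β : ℂ → ℂ := cf P10
  let γ : ℂ → ℂ := cf P01
  let δ : ℂ → ℂ := cf P11
  have hP : ∀ x y t : ℂ, ∑ S ∈ W.powerset, ((a S : ℝ) : ℂ) * ∏ g ∈ S, zz e f x y t g
      = α t + x * β t + y * γ t + x * y * δ t := by
    intro x y t
    simp only [α, β, γ, δ, cf, Finset.mul_sum, ← Finset.sum_add_distrib]
    refine Finset.sum_congr rfl fun S _ => ?_
    rw [prod_zz hef]
    by_cases h1 : e ∈ S <;> by_cases h2 : f ∈ S <;> simp [h1, h2, P00, P10, P01, P11] <;> ring
  have hcont : ∀ P, Continuous (cf P) := by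
    intro P
    refine continuous_finsetSum _ fun S _ => ?_
    split_ifs
    · exact continuous_const.mul (continuous_RR S)
    · exact continuous_const
  -- real values at `t = 1`
  let a00 : ℝ := rf P00
  let a10 : ℝ := rf P10
  let a01 : ℝ := rf P01
  let a11 : ℝ := rf P11
  have hval : ∀ P, cf P 1 = ((rf P : ℝ) : ℂ) := by
    intro P
    simp only [cf, rf, RR_one, mul_one]
    rw [Complex.ofReal_sum]
    refine Finset.sum_congr rfl fun S _ => ?_
    split_ifs <;> simp
  have hnn : ∀ P, 0 ≤ rf P := by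
    intro P
    refine Finset.sum_nonneg fun S hS => ?_
    split_ifs
    · exact ha.nonneg S hS
    · exact le_rfl
  have h00 : 0 ≤ a00 := hnn P00
  have h10 : 0 ≤ a10 := hnn P10
  have h01 : 0 ≤ a01 := hnn P01
  have h11 : 0 ≤ a11 := hnn P11
  -- express the four sums in the statement
  have eZ : ∑ S ∈ W.powerset, a S = a00 + a10 + a01 + a11 := by
    simp only [a00, a10, a01, a11, rf, ← Finset.sum_add_distrib]
    refine Finset.sum_congr rfl fun S _ => ?_
    by_cases h1 : e ∈ S <;> by_cases h2 : f ∈ S <;> simp [h1, h2, P00, P10, P01, P11]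
  have eE : ∑ S ∈ W.powerset.filter (fun S => e ∈ S), a S = a10 + a11 := by
    simp only [a10, a11, rf, Finset.sum_filter, ← Finset.sum_add_distrib]
    refine Finset.sum_congr rfl fun S _ => ?_
    by_cases h1 : e ∈ S <;> by_cases h2 : f ∈ S <;> simp [h1, h2, P00, P10, P01, P11]
  have eF : ∑ S ∈ W.powerset.filter (fun S => f ∈ S), a S = a01 + a11 := by
    simp only [a01, a11, rf, Finset.sum_filter, ← Finset.sum_add_distrib]
    refine Finset.sum_congr rfl fun S _ => ?_
    by_cases h1 : e ∈ S <;> by_cases h2 : f ∈ S <;> simp [h1, h2, P00, P10, P01, P11]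
  have eEF : ∑ S ∈ W.powerset.filter (fun S => e ∈ S ∧ f ∈ S), a S = a11 := by
    simp only [a11, rf, Finset.sum_filter]
    refine Finset.sum_congr rfl fun S _ => ?_
    by_cases h1 : e ∈ S <;> by_cases h2 : f ∈ S <;> simp [h1, h2, P00, P10, P01, P11]
  rw [eZ, eE, eF, eEF]
  by_contra hcon
  have hcon' : a10 * a01 < a00 * a11 := by nlinarith
  have hd : 0 < a11 := by
    rcases h11.eq_or_lt with h | h
    · rw [← h] at hcon'
      nlinarith
    · exact h
  -- the solving map
  let den : ℂ → ℂ := fun t => γ t + Complex.I * δ t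
  let Y : ℂ → ℂ := fun t => -(α t + Complex.I * β t) / den t
  have hden1 : den 1 = ((a01 : ℝ) : ℂ) + Complex.I * ((a11 : ℝ) : ℂ) := by
    simp only [den, γ, δ, hval, a01, a11]
  have hdenne : den 1 ≠ 0 := by
    rw [hden1]
    intro h0
    have := congrArg Complex.im h0
    simp at this
    linarith
  have hcontd : Continuous den :=
    (hcont _).add (continuous_const.mul (hcont _))
  have hcontY : ContinuousAt Y 1 :=
    (((hcont _).add (continuous_const.mul (hcont _))).neg.continuousAt).div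
      hcontd.continuousAt hdenne
  have hY1 : 0 < (Y 1).im := by
    have hnorm : 0 < a01 ^ 2 + a11 ^ 2 := by positivity
    have e1 : Y 1 = ((-(a00 * a01 + a10 * a11) / (a01 ^ 2 + a11 ^ 2) : ℝ) : ℂ)
        + Complex.I * (((a00 * a11 - a10 * a01) / (a01 ^ 2 + a11 ^ 2) : ℝ) : ℂ) := by
      have hα : α 1 = ((a00 : ℝ) : ℂ) := hval P00
      have hβ : β 1 = ((a10 : ℝ) : ℂ) := hval P10
      simp only [Y]
      rw [hden1, hα, hβ, div_eq_iff (by rw [← hden1]; exact hdenne)]
      have hnc : ((a01 : ℂ) ^ 2 + (a11 : ℂ) ^ 2) ≠ 0 := by exact_mod_cast hnorm.ne'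
      push_cast
      field_simp
      ring_nf
      simp only [Complex.I_sq]
      ring
    rw [e1]
    have : (((-(a00 * a01 + a10 * a11) / (a01 ^ 2 + a11 ^ 2) : ℝ) : ℂ)
        + Complex.I * (((a00 * a11 - a10 * a01) / (a01 ^ 2 + a11 ^ 2) : ℝ) : ℂ)).im
        = (a00 * a11 - a10 * a01) / (a01 ^ 2 + a11 ^ 2) := by
      rw [Complex.add_im, Complex.ofReal_im, Complex.mul_im, Complex.I_re, Complex.I_im,
        Complex.ofReal_re, Complex.ofReal_im]
      ring
    rw [this]
    exact div_pos (by linarith) hnorm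
  -- a nearby point in the upper half plane
  have hev : ∀ᶠ t in nhds (1 : ℂ), 0 < (Y t).im ∧ den t ≠ 0 := by
    have h1 : ∀ᶠ t in nhds (1 : ℂ), 0 < (Y t).im :=
      (Complex.continuous_im.continuousAt.comp hcontY).eventually (lt_mem_nhds hY1)
    have h2 : ∀ᶠ t in nhds (1 : ℂ), den t ≠ 0 := hcontd.continuousAt.eventually_ne hdenne
    exact h1.and h2
  obtain ⟨r, hr, hball⟩ := Metric.eventually_nhds_iff.1 hev
  set t : ℂ := 1 + Complex.I * ((r / 2 : ℝ) : ℂ) with ht
  have htd : dist t 1 < r := by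
    rw [Complex.dist_eq, ht]
    simp only [add_sub_cancel_left, norm_mul, Complex.norm_I, one_mul, Complex.norm_real,
      Real.norm_eq_abs]
    rw [abs_of_pos (by positivity)]
    linarith
  obtain ⟨hYt, hdent⟩ := hball htd
  have htim : 0 < t.im := by
    simp [ht]; linarith
  have hst := ha.stable (zz e f Complex.I (Y t) t) (by
    intro g _
    unfold zz
    split_ifs
    · simp
    · exact hYt
    · exact htim)
  apply hst
  rw [hP]
  have hY : Y t * den t = -(α t + Complex.I * β t) := by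
    simp only [Y]
    field_simp
  have : α t + Complex.I * β t + Y t * γ t + Complex.I * Y t * δ t
      = (α t + Complex.I * β t) + Y t * den t := by
    simp only [den]; ring
  rw [this, hY]
  ring

end rayleigh

section rowSum

variable {W : Finset ι} {a : Finset ι → ℝ} {e : ι}

/-- The key row sum estimate at an SR coefficient family. -/
theorem cov_line_bound (ha : IsSRCoef W a) (he : e ∈ W) (v : ι → ℝ) {δ : ℝ}
    (hv : ∀ f ∈ W, |v f| ≤ δ) :
    |(∑ S ∈ W.powerset.filter (fun S => e ∈ S), a S * ∑ i ∈ S, v i) * (∑ S ∈ W.powerset, a S)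
        - (∑ S ∈ W.powerset.filter (fun S => e ∈ S), a S) * (∑ S ∈ W.powerset, a S * ∑ i ∈ S, v i)|
      ≤ δ / 2 * (∑ S ∈ W.powerset, a S) ^ 2 := by
  classical
  set Z := ∑ S ∈ W.powerset, a S with hZ
  set Pe := ∑ S ∈ W.powerset.filter (fun S => e ∈ S), a S with hPe
  let Pef : ι → ℝ := fun f => ∑ S ∈ W.powerset.filter (fun S => e ∈ S ∧ f ∈ S), a S
  let Pf : ι → ℝ := fun f => ∑ S ∈ W.powerset.filter (fun S => f ∈ S), a S
  let Cf : ι → ℝ := fun f => Pef f * Z - Pe * Pf f
  have hδ : 0 ≤ δ := (abs_nonneg _).trans (hv e he)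
  have hmem : ∀ S ∈ W.powerset, ∀ u : ι → ℝ, ∑ i ∈ S, u i = ∑ f ∈ W, if f ∈ S then u f else 0 := by
    intro S hS u
    rw [← Finset.sum_filter]
    congr 1
    ext i
    simp only [Finset.mem_filter]
    exact ⟨fun h => ⟨Finset.mem_powerset.1 hS h, h⟩, fun h => h.2⟩
  have e1 : ∑ S ∈ W.powerset.filter (fun S => e ∈ S), a S * ∑ i ∈ S, v i = ∑ f ∈ W, v f * Pef f := by
    simp only [Pef, Finset.mul_sum]
    have : ∀ f, ∑ S ∈ W.powerset.filter (fun S => e ∈ S ∧ f ∈ S), v f * a S
        = ∑ S ∈ W.powerset.filter (fun S => e ∈ S), if f ∈ S then a S * v f else 0 := by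
      intro f
      rw [← Finset.sum_filter, Finset.filter_filter]
      exact Finset.sum_congr rfl fun S _ => mul_comm _ _
    simp only [this]
    rw [Finset.sum_comm]
    exact Finset.sum_congr rfl fun S hS => hmem S (Finset.mem_filter.1 hS).1 (fun i => a S * v i)
  have e2 : ∑ S ∈ W.powerset, a S * ∑ i ∈ S, v i = ∑ f ∈ W, v f * Pf f := by
    simp only [Pf, Finset.mul_sum]
    have : ∀ f, ∑ S ∈ W.powerset.filter (fun S => f ∈ S), v f * a S
        = ∑ S ∈ W.powerset, if f ∈ S then a S * v f else 0 := by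
      intro f
      rw [← Finset.sum_filter]
      exact Finset.sum_congr rfl fun S _ => mul_comm _ _
    simp only [this]
    rw [Finset.sum_comm]
    exact Finset.sum_congr rfl fun S hS => hmem S hS (fun i => a S * v i)
  have hmain : (∑ S ∈ W.powerset.filter (fun S => e ∈ S), a S * ∑ i ∈ S, v i) * Z
      - Pe * (∑ S ∈ W.powerset, a S * ∑ i ∈ S, v i) = ∑ f ∈ W, v f * Cf f := by
    rw [e1, e2, Finset.sum_mul, Finset.mul_sum, ← Finset.sum_sub_distrib]
    refine Finset.sum_congr rfl fun f _ => ?_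
    simp only [Cf]
    ring
  rw [hmain]
  -- signs of the `Cf`
  have hCneg : ∀ f, f ≠ e → Cf f ≤ 0 := by
    intro f hf
    have := neg_corr ha (e := e) (f := f) (Ne.symm hf)
    simp only [Cf, Pef, Pf]
    linarith
  -- sum of the `Cf`
  set Z0 := ∑ S ∈ W.powerset.filter (fun S => e ∉ S), a S with hZ0
  set N0 := ∑ S ∈ W.powerset.filter (fun S => e ∉ S), a S * S.card with hN0
  set N1 := ∑ S ∈ W.powerset.filter (fun S => e ∈ S), a S * S.card with hN1
  have hZs : Z = Pe + Z0 := by
    rw [hZ, hPe, hZ0, Finset.sum_filter_add_sum_filter_not]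
  have hPe0 : 0 ≤ Pe := Finset.sum_nonneg fun S hS => ha.nonneg S (Finset.mem_filter.1 hS).1
  have hZ00 : 0 ≤ Z0 := Finset.sum_nonneg fun S hS => ha.nonneg S (Finset.mem_filter.1 hS).1
  have hsumPef : ∑ f ∈ W, Pef f = N1 := by
    have := e1
    have h1 := e1
    -- apply `e1` with the constant function is not available: recompute
    simp only [Pef, hN1]
    have : ∀ f, ∑ S ∈ W.powerset.filter (fun S => e ∈ S ∧ f ∈ S), a S
        = ∑ S ∈ W.powerset.filter (fun S => e ∈ S), if f ∈ S then a S else 0 := by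
      intro f
      rw [← Finset.sum_filter, Finset.filter_filter]
    simp only [this]
    rw [Finset.sum_comm]
    refine Finset.sum_congr rfl fun S hS => ?_
    have hS' := Finset.mem_powerset.1 (Finset.mem_filter.1 hS).1
    rw [← Finset.sum_filter, Finset.filter_mem_eq_inter, Finset.inter_eq_right.2 hS']
    simp [mul_comm]
  have hsumPf : ∑ f ∈ W, Pf f = N0 + N1 := by
    simp only [Pf, hN1, hN0]
    have : ∀ f, ∑ S ∈ W.powerset.filter (fun S => f ∈ S), a S
        = ∑ S ∈ W.powerset, if f ∈ S then a S else 0 := by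
      intro f
      rw [← Finset.sum_filter]
    simp only [this]
    rw [Finset.sum_comm, add_comm, Finset.sum_filter_add_sum_filter_not]
    refine Finset.sum_congr rfl fun S hS => ?_
    have hS' := Finset.mem_powerset.1 hS
    rw [← Finset.sum_filter, Finset.filter_mem_eq_inter, Finset.inter_eq_right.2 hS']
    simp [mul_comm]
  have hcov := covering_mean (e := e) ha
  have hsumC : 0 ≤ ∑ f ∈ W, Cf f := by
    have : ∑ f ∈ W, Cf f = N1 * Z - Pe * (N0 + N1) := by
      simp only [Cf]
      rw [Finset.sum_sub_distrib, ← Finset.mul_sum, ← Finset.sum_mul, hsumPef, hsumPf]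
    rw [this, hZs]
    nlinarith
  have hCe : Cf e = Pe * Z0 := by
    have h1 : Pef e = Pe := by
      simp only [Pef, and_self, hPe]
    have h2 : Pf e = Pe := rfl
    simp only [Cf, h1, h2, hZs]
    ring
  -- bound
  have hsplit : ∑ f ∈ W, Cf f = Cf e + ∑ f ∈ W.erase e, Cf f :=
    (Finset.add_sum_erase W Cf he).symm
  have habs : ∑ f ∈ W, |Cf f| ≤ 2 * (Pe * Z0) := by
    rw [← Finset.add_sum_erase W _ he]
    have h1 : ∑ f ∈ W.erase e, |Cf f| = -∑ f ∈ W.erase e, Cf f := by
      rw [← Finset.sum_neg_distrib]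
      refine Finset.sum_congr rfl fun f hf => ?_
      exact abs_of_nonpos (hCneg f (Finset.ne_of_mem_erase hf))
    rw [h1, hCe, abs_of_nonneg (mul_nonneg hPe0 hZ00)]
    rw [hsplit, hCe] at hsumC
    linarith
  calc |∑ f ∈ W, v f * Cf f|
      ≤ ∑ f ∈ W, |v f * Cf f| := Finset.abs_sum_le_sum_abs _ _
    _ ≤ ∑ f ∈ W, δ * |Cf f| := by
        refine Finset.sum_le_sum fun f hf => ?_
        rw [abs_mul]
        exact mul_le_mul_of_nonneg_right (hv f hf) (abs_nonneg _)
    _ = δ * ∑ f ∈ W, |Cf f| := by rw [Finset.mul_sum]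
    _ ≤ δ * (2 * (Pe * Z0)) := mul_le_mul_of_nonneg_left habs hδ
    _ ≤ δ / 2 * Z ^ 2 := by
        rw [hZs]
        have : 4 * (Pe * Z0) ≤ (Pe + Z0) ^ 2 := by nlinarith [sq_nonneg (Pe - Z0)]
        nlinarith

end rowSum

section lipschitz

variable {W : Finset ι} {a : Finset ι → ℝ} {e : ι}

/-- Partition function of the tilted family. -/
noncomputable def tiltZ (W : Finset ι) (a : Finset ι → ℝ) (h : ι → ℝ) : ℝ :=
  ∑ S ∈ W.powerset, tilt h a S

/-- Numerator of the tilted marginal of `e`. -/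
noncomputable def tiltN (W : Finset ι) (a : Finset ι → ℝ) (e : ι) (h : ι → ℝ) : ℝ :=
  ∑ S ∈ W.powerset.filter (fun S => e ∈ S), tilt h a S

/-- The tilted marginal `M(e, W, h)` of `e`. -/
noncomputable def tiltM (W : Finset ι) (a : Finset ι → ℝ) (e : ι) (h : ι → ℝ) : ℝ :=
  tiltN W a e h / tiltZ W a h

theorem tiltZ_pos (ha : IsSRCoef W a) (h : ι → ℝ) : 0 < tiltZ W a h := (ha.tilt h).pos

theorem tiltN_nonneg (ha : IsSRCoef W a) (e : ι) (h : ι → ℝ) : 0 ≤ tiltN W a e h :=
  Finset.sum_nonneg fun S hS => (ha.tilt h).nonneg S (Finset.mem_filter.1 hS).1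

theorem tiltN_le_tiltZ (ha : IsSRCoef W a) (e : ι) (h : ι → ℝ) : tiltN W a e h ≤ tiltZ W a h :=
  Finset.sum_le_sum_of_subset_of_nonneg (Finset.filter_subset _ _)
    fun S hS _ => (ha.tilt h).nonneg S hS

theorem tiltM_nonneg (ha : IsSRCoef W a) (e : ι) (h : ι → ℝ) : 0 ≤ tiltM W a e h :=
  div_nonneg (tiltN_nonneg ha e h) (tiltZ_pos ha h).le

theorem tiltM_le_one (ha : IsSRCoef W a) (e : ι) (h : ι → ℝ) : tiltM W a e h ≤ 1 :=
  (div_le_one (tiltZ_pos ha h)).2 (tiltN_le_tiltZ ha e h)

theorem hasDerivAt_tilt (h' v : ι → ℝ) (a : Finset ι → ℝ) (S : Finset ι) (s : ℝ) :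
    HasDerivAt (fun s : ℝ => tilt (fun i => h' i + s * v i) a S)
      (tilt (fun i => h' i + s * v i) a S * ∑ i ∈ S, v i) s := by
  have hinner : HasDerivAt (fun s : ℝ => ∑ i ∈ S, (h' i + s * v i)) (∑ i ∈ S, v i) s := by
    have := HasDerivAt.fun_sum (u := S) (A := fun i (s : ℝ) => h' i + s * v i) (A' := fun i => v i)
      (x := s) (fun i _ => by
        simpa using ((hasDerivAt_id s).mul_const (v i)).const_add (h' i))
    simpa using this
  have := (hinner.exp).const_mul (a S)
  simpa [tilt, mul_assoc] using this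

/-- **Lemma A**: sup-norm Lipschitz bound of the tilted marginals of an SR family. -/
theorem tiltM_lipschitz (ha : IsSRCoef W a) (he : e ∈ W) (h h' : ι → ℝ) {δ : ℝ}
    (hδ : ∀ f ∈ W, |h f - h' f| ≤ δ) :
    |tiltM W a e h - tiltM W a e h'| ≤ δ / 2 := by
  set v : ι → ℝ := fun i => h i - h' i with hv
  let H : ℝ → ι → ℝ := fun s i => h' i + s * v i
  have hH0 : H 0 = h' := by
    funext i; simp [H]
  have hH1 : H 1 = h := by
    funext i; simp [H, hv]
  let Zf : ℝ → ℝ := fun s => tiltZ W a (H s)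
  let Nf : ℝ → ℝ := fun s => tiltN W a e (H s)
  let Z' : ℝ → ℝ := fun s => ∑ S ∈ W.powerset, tilt (H s) a S * ∑ i ∈ S, v i
  let N' : ℝ → ℝ := fun s => ∑ S ∈ W.powerset.filter (fun S => e ∈ S), tilt (H s) a S * ∑ i ∈ S, v i
  have hZ : ∀ s, HasDerivAt Zf (Z' s) s := by
    intro s
    exact HasDerivAt.fun_sum (fun S _ => hasDerivAt_tilt h' v a S s)
  have hN : ∀ s, HasDerivAt Nf (N' s) s := by
    intro s
    exact HasDerivAt.fun_sum (fun S _ => hasDerivAt_tilt h' v a S s)
  have hZpos : ∀ s, 0 < Zf s := fun s => tiltZ_pos ha (H s)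
  have hM : ∀ s, HasDerivAt (fun s => Nf s / Zf s) ((N' s * Zf s - Nf s * Z' s) / Zf s ^ 2) s :=
    fun s => (hN s).div (hZ s) (hZpos s).ne'
  have hbd : ∀ s, ‖(N' s * Zf s - Nf s * Z' s) / Zf s ^ 2‖ ≤ δ / 2 := by
    intro s
    have hc := cov_line_bound (ha.tilt (H s)) he v hδ
    have hz2 : 0 < Zf s ^ 2 := pow_pos (hZpos s) 2
    rw [Real.norm_eq_abs, abs_div, abs_of_pos hz2, div_le_iff₀ hz2]
    exact hc
  have hmvt := Convex.norm_image_sub_le_of_norm_hasDerivWithin_le (f := fun s => Nf s / Zf s)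
    (s := Set.univ) (C := δ / 2) (x := 0) (y := 1)
    (fun s _ => (hM s).hasDerivWithinAt) (fun s _ => hbd s) convex_univ (Set.mem_univ _)
    (Set.mem_univ _)
  simp only [sub_zero, norm_one, mul_one, Real.norm_eq_abs] at hmvt
  have e0 : Nf 0 / Zf 0 = tiltM W a e h' := by
    simp only [Nf, Zf, hH0]; rfl
  have e1 : Nf 1 / Zf 1 = tiltM W a e h := by
    simp only [Nf, Zf, hH1]; rfl
  rw [e0, e1] at hmvt
  exact hmvt

end lipschitz

section marginal

open MeasureTheory Crest.ProbabilityR.StronglyRayleigh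

/-- The marginal coefficients of a law on configurations. -/
noncomputable def margCoef (ν : Measure (ι → Bool)) (W S : Finset ι) : ℝ :=
  (ν {ω | ∀ i ∈ W, (ω i = true ↔ i ∈ S)}).toReal

theorem measurableSet_cyl (W S : Finset ι) :
    MeasurableSet {ω : ι → Bool | ∀ i ∈ W, (ω i = true ↔ i ∈ S)} := by
  have : {ω : ι → Bool | ∀ i ∈ W, (ω i = true ↔ i ∈ S)}
      = ⋂ i ∈ W, (fun ω : ι → Bool => ω i) ⁻¹' {b | b = true ↔ i ∈ S} := by
    ext ω; simp
  rw [this]
  exact Finset.measurableSet_biInter _ fun i _ =>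
    measurable_pi_apply i (MeasurableSet.of_discrete)

/-- The cylinders over the subsets of `W` partition the configurations. -/
theorem sum_margCoef (ν : Measure (ι → Bool)) [IsProbabilityMeasure ν] (W : Finset ι) :
    ∑ S ∈ W.powerset, margCoef ν W S = 1 := by
  have hU : (⋃ S ∈ W.powerset, {ω : ι → Bool | ∀ i ∈ W, (ω i = true ↔ i ∈ S)}) = Set.univ := by
    ext ω
    simp only [Set.mem_iUnion, Set.mem_ofPred_eq, Set.mem_univ, iff_true]
    refine ⟨W.filter (fun i => ω i = true), ?_, ?_⟩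
    · simp
    · intro i hi
      simp [hi]
  have hdisj : (↑W.powerset : Set (Finset ι)).PairwiseDisjoint
      (fun S => {ω : ι → Bool | ∀ i ∈ W, (ω i = true ↔ i ∈ S)}) := by
    intro S hS T hT hne
    rw [Function.onFun, Set.disjoint_left]
    intro ω h1 h2
    apply hne
    have hS' := Finset.mem_powerset.1 hS
    have hT' := Finset.mem_powerset.1 hT
    ext i
    constructor
    · intro hi
      exact (h2 i (hS' hi)).1 ((h1 i (hS' hi)).2 hi)
    · intro hi
      exact (h1 i (hT' hi)).1 ((h2 i (hT' hi)).2 hi)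
  have hm := measure_biUnion_finset (μ := ν) hdisj (fun S _ => measurableSet_cyl W S)
  rw [hU, measure_univ] at hm
  have := congrArg ENNReal.toReal hm
  rw [ENNReal.toReal_sum (fun S _ => measure_ne_top ν _)] at this
  simpa [margCoef] using this.symm

/-- The marginal coefficients of a strongly Rayleigh probability law form an SR family. -/
theorem isSRCoef_marg {ν : Measure (ι → Bool)} [IsProbabilityMeasure ν]
    (hν : IsStronglyRayleigh ν) (W : Finset ι) : IsSRCoef W (margCoef ν W) := by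
  refine ⟨fun S _ => ENNReal.toReal_nonneg, ?_, ?_⟩
  · rw [sum_margCoef]; norm_num
  · intro z hz
    exact hν W z hz

end marginal

end Crest.Agent.SRF
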