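/- Row 168: bridge between the abstract SR row sum lemma (`RowSum.lean`) and the sampler's `tiltMean`. -/
import Crest.Agent.Lib.SRF.Defs
import Crest.Agent.Lib.SRF.RowSum

set_option autoImplicit false

namespace Crest.Agent.Lib.SRF

open MeasureTheory Filter Topology
open scoped Classical

variable {E : Type*}

/-- Stability of the multi-affine polynomial with coefficients `c` on subsets of `W`. -/
def StableCoef (c : Finset E → ℝ) (W : Finset E) : Prop :=
  ∀ z : E → ℂ, (∀ i ∈ W, 0 < (z i).im) → ∑ S ∈ W.powerset, ((c S : ℝ) : ℂ) * ∏ i ∈ S, z i ≠ 0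

theorem tiltZ_eq (c : Finset E → ℝ) (W : Finset E) (h : E → ℝ) :
    tiltZ c W h = Crest.Agent.SRF.tiltZ W c h := rfl

theorem tiltN_eq (c : Finset E → ℝ) (W : Finset E) (e : E) (h : E → ℝ) :
    tiltN c W e h = Crest.Agent.SRF.tiltN W c e h := by
  unfold tiltN Crest.Agent.SRF.tiltN Crest.Agent.SRF.tilt
  rw [Finset.sum_filter]

theorem tiltMean_eq (c : Finset E → ℝ) (W : Finset E) (e : E) (h : E → ℝ) :
    tiltMean c W e h = Crest.Agent.SRF.tiltM W c e h := by
  unfold tiltMean Crest.Agent.SRF.tiltM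
  rw [tiltZ_eq, tiltN_eq]

theorem tiltMean_of_not_mem (c : Finset E → ℝ) {W : Finset E} {e : E} (he : e ∉ W) (h : E → ℝ) :
    tiltMean c W e h = 0 := by
  unfold tiltMean tiltN
  rw [Finset.sum_eq_zero, zero_div]
  intro S hS
  rw [if_neg]
  exact fun h => he (Finset.mem_powerset.1 hS h)

/-- **Lipschitz bound of the tilted mean for a stable family.** -/
theorem tiltMean_lip_of_stable {c : Finset E → ℝ} {W : Finset E} (hc : ∀ S ∈ W.powerset, 0 ≤ c S)
    (hpos : 0 < ∑ S ∈ W.powerset, c S) (hst : StableCoef c W) (hW : W.Nonempty) (e : E)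
    (h h' : E → ℝ) (r : ℝ) (hr : ∀ f ∈ W, |h f - h' f| ≤ r) : |tiltMean c W e h - tiltMean c W e h'| ≤ r / 2 := by
  by_cases he : e ∈ W
  · rw [tiltMean_eq, tiltMean_eq]
    exact Crest.Agent.SRF.tiltM_lipschitz ⟨hc, hpos, hst⟩ he h h' hr
  · rw [tiltMean_of_not_mem c he, tiltMean_of_not_mem c he, sub_zero, abs_zero]
    obtain ⟨f, hf⟩ := hW
    have := (abs_nonneg _).trans (hr f hf)
    linarith

theorem mass_eq_margCoef (ν : Measure (E → Bool)) (W S : Finset E) :
    mass ν W S = Crest.Agent.SRF.margCoef ν W S := rfl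

/-- The marginal masses of a strongly Rayleigh probability law are a stable family: the Lipschitz
bound of `Windows`. -/
theorem mean_lip_of_SR {ν : Measure (E → Bool)} [IsProbabilityMeasure ν]
    (hν : Crest.ProbabilityR.StronglyRayleigh.IsStronglyRayleigh ν) {W : Finset E} (hW : W.Nonempty)
    (e : E) (h h' : E → ℝ) (r : ℝ) (hr : ∀ f ∈ W, |h f - h' f| ≤ r) :
    |tiltMean (mass ν W) W e h - tiltMean (mass ν W) W e h'| ≤ r / 2 := by
  have hs := Crest.Agent.SRF.isSRCoef_marg hν W
  exact tiltMean_lip_of_stable hs.nonneg hs.pos hs.stable hW e h h' r hr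

end Crest.Agent.Lib.SRF
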