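import Mathlib

set_option autoImplicit false

namespace Crest.Agent.Lib.SRF

open Finset Matrix

section CauchyBinet

variable {R E K : Type*} [Fintype R] [DecidableEq R] [Fintype E] [DecidableEq E] [CommRing K]

/-- Expansion of `det (B D Bᵀ)` over all column maps. -/
theorem det_mul_diag_mul_transpose_expand (B : Matrix R E K) (z : E → K) :
    (B * diagonal z * Bᵀ).det =
      ∑ f : R → E, (∏ x, (z (f x) * B x (f x))) * (B.submatrix id f).det := by
  classical
  have hentry : ∀ x y, (B * diagonal z * Bᵀ) x y = ∑ e, B x e * (z e * B y e) := by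
    intro x y
    simp only [Matrix.mul_apply, Matrix.diagonal_apply, Matrix.transpose_apply]
    refine Finset.sum_congr rfl fun e _ => ?_
    rw [Finset.sum_eq_single e]
    · simp [mul_assoc]
    · intro b _ hb
      simp [hb]
    · simp
  rw [Matrix.det_apply]
  have h1 : ∀ σ : Equiv.Perm R,
      (∏ i, (B * diagonal z * Bᵀ) (σ i) i) =
        ∑ f : R → E, ∏ x, (B (σ x) (f x) * (z (f x) * B x (f x))) := by
    intro σ
    simp_rw [hentry]
    rw [Finset.prod_univ_sum]
    rw [Fintype.piFinset_univ]
  simp_rw [h1]
  simp_rw [Finset.smul_sum]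
  rw [Finset.sum_comm]
  refine Finset.sum_congr rfl fun f _ => ?_
  rw [Matrix.det_apply, Finset.mul_sum]
  refine Finset.sum_congr rfl fun σ _ => ?_
  have h2 : ∏ x, (B (σ x) (f x) * (z (f x) * B x (f x))) =
      (∏ x, (z (f x) * B x (f x))) * ∏ x, B.submatrix id f (σ x) x := by
    rw [← Finset.prod_mul_distrib]
    refine Finset.prod_congr rfl fun x _ => ?_
    simp only [Matrix.submatrix_apply, id]
    ring
  rw [h2]
  simp only [zsmul_eq_mul, Units.smul_def]
  ring

/-- Cauchy–Binet in the `B D Bᵀ` form, with the minors squared packaged in `c`. -/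
theorem det_mul_diag_mul_transpose (B : Matrix R E K) (z : E → K) (c : Finset E → K)
    (hc : ∀ f : R → E, Function.Injective f → ((B.submatrix id f).det) ^ 2 = c (univ.image f)) :
    (B * diagonal z * Bᵀ).det =
      ∑ A ∈ powersetCard (Fintype.card R) (univ : Finset E), (∏ e ∈ A, z e) * c A := by
  classical
  rw [det_mul_diag_mul_transpose_expand]
  -- drop the non-injective maps
  have hdrop : ∑ f : R → E, (∏ x, (z (f x) * B x (f x))) * (B.submatrix id f).det =
      ∑ f ∈ (univ : Finset (R → E)).filter Function.Injective,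
        (∏ x, (z (f x) * B x (f x))) * (B.submatrix id f).det := by
    symm
    apply Finset.sum_filter_of_ne
    intro f _ hf
    by_contra hinj
    apply hf
    have : (B.submatrix id f).det = 0 := by
      simp only [Function.Injective, not_forall] at hinj
      obtain ⟨a, b, hab, hne⟩ := hinj
      apply Matrix.det_zero_of_column_eq (i := a) (j := b)
      · exact fun h => hne (by simpa using h)
      · intro k
        simp [hab]
    rw [this, mul_zero]
  rw [hdrop]
  -- group by image
  have hmaps : ∀ f ∈ (univ : Finset (R → E)).filter Function.Injective,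
      univ.image f ∈ powersetCard (Fintype.card R) (univ : Finset E) := by
    intro f hf
    simp only [mem_filter, mem_univ, true_and] at hf
    rw [mem_powersetCard]
    refine ⟨subset_univ _, ?_⟩
    rw [Finset.card_image_of_injective _ hf, Finset.card_univ]
  rw [← Finset.sum_fiberwise_of_maps_to hmaps]
  refine Finset.sum_congr rfl fun A hA => ?_
  rw [mem_powersetCard] at hA
  -- pick a reference map with image `A`
  obtain ⟨f₀, hf₀inj, hf₀im⟩ : ∃ f₀ : R → E, Function.Injective f₀ ∧ univ.image f₀ = A := by
    have hcard : Fintype.card R = Fintype.card A := by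
      rw [Fintype.card_coe, hA.2]
    let φ : R ≃ A := Fintype.equivOfCardEq hcard
    refine ⟨fun x => (φ x : E), ?_, ?_⟩
    · intro a b hab
      exact φ.injective (Subtype.ext hab)
    · ext e
      simp only [mem_image, mem_univ, true_and]
      constructor
      · rintro ⟨x, rfl⟩
        exact (φ x).2
      · intro he
        exact ⟨φ.symm ⟨e, he⟩, by simp⟩
  -- parametrize by permutations
  have hparam : ∑ f ∈ ((univ : Finset (R → E)).filter Function.Injective).filter
        (fun f => univ.image f = A),
        (∏ x, (z (f x) * B x (f x))) * (B.submatrix id f).det =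
      ∑ τ : Equiv.Perm R,
        (∏ x, (z (f₀ (τ x)) * B x (f₀ (τ x)))) * (B.submatrix id (f₀ ∘ τ)).det := by
    symm
    refine Finset.sum_bij (fun τ _ => f₀ ∘ τ) ?_ ?_ ?_ ?_
    · intro τ _
      simp only [mem_filter, mem_univ, true_and]
      refine ⟨hf₀inj.comp τ.injective, ?_⟩
      rw [← hf₀im]
      ext e
      simp only [mem_image, mem_univ, true_and, Function.comp]
      constructor
      · rintro ⟨x, rfl⟩; exact ⟨τ x, rfl⟩
      · rintro ⟨y, rfl⟩; exact ⟨τ.symm y, by simp⟩
    · intro τ _ τ' _ h
      ext x
      have := congrFun h x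
      simp only [Function.comp] at this
      rw [hf₀inj this]
    · intro f hf
      simp only [mem_filter, mem_univ, true_and] at hf
      obtain ⟨hinj, him⟩ := hf
      have hex : ∀ x, ∃ y, f₀ y = f x := by
        intro x
        have : f x ∈ univ.image f₀ := by
          rw [hf₀im, ← him]
          exact mem_image_of_mem _ (mem_univ x)
        simpa using this
      choose τf hτf using hex
      have hτinj : Function.Injective τf := by
        intro a b hab
        apply hinj
        rw [← hτf a, ← hτf b, hab]
      have hτbij : Function.Bijective τf := Finite.injective_iff_bijective.mp hτinj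
      refine ⟨Equiv.ofBijective τf hτbij, mem_univ _, ?_⟩
      ext x
      simp [hτf]
    · intro τ _
      simp only [Function.comp]
  have hfilter : ∑ f ∈ (univ : Finset (R → E)).filter Function.Injective with univ.image f = A,
        (∏ x, (z (f x) * B x (f x))) * (B.submatrix id f).det =
      ∑ f ∈ ((univ : Finset (R → E)).filter Function.Injective).filter
        (fun f => univ.image f = A),
        (∏ x, (z (f x) * B x (f x))) * (B.submatrix id f).det := rfl
  rw [hfilter, hparam]
  -- evaluate
  set M : Matrix R R K := B.submatrix id f₀ with hM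
  have hprodz : ∀ τ : Equiv.Perm R, ∏ x, z (f₀ (τ x)) = ∏ e ∈ A, z e := by
    intro τ
    rw [← hf₀im, Finset.prod_image (fun a _ b _ h => hf₀inj h)]
    exact Equiv.prod_comp τ (fun x => z (f₀ x))
  have hterm : ∀ τ : Equiv.Perm R,
      (∏ x, (z (f₀ (τ x)) * B x (f₀ (τ x)))) * (B.submatrix id (f₀ ∘ τ)).det =
        (∏ e ∈ A, z e) * M.det * (((Equiv.Perm.sign τ : ℤˣ) : ℤ) • ∏ x, Mᵀ (τ x) x) := by
    intro τ
    have h1 : (B.submatrix id (f₀ ∘ τ)) = M.submatrix id τ := by
      ext i j; simp [hM]
    rw [h1, Matrix.det_permute', Finset.prod_mul_distrib, hprodz]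
    have h2 : ∏ x, B x (f₀ (τ x)) = ∏ x, Mᵀ (τ x) x := by
      refine Finset.prod_congr rfl fun x _ => ?_
      simp [hM]
    rw [h2]
    simp only [zsmul_eq_mul]
    ring
  simp_rw [hterm]
  rw [← Finset.mul_sum]
  have hdet : ∑ τ : Equiv.Perm R, ((Equiv.Perm.sign τ : ℤˣ) : ℤ) • ∏ x, Mᵀ (τ x) x = M.det := by
    rw [← Matrix.det_transpose M, Matrix.det_apply']
    refine Finset.sum_congr rfl fun τ _ => ?_
    simp only [zsmul_eq_mul]
  rw [hdet]
  rw [← hf₀im, ← hc f₀ hf₀inj, hf₀im]
  ring

end CauchyBinet

end Crest.Agent.Lib.SRF
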