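/- Row 168, Mod OBS: the observation family. No probability beyond one-dimensional integrals. -/
import Crest.Agent.Lib.SRF.Defs

set_option autoImplicit false

namespace Crest.Agent.Lib.SRF

open MeasureTheory Set

theorem quant_zero (u : ℝ) : quant 0 u = u := by
  unfold quant
  have h : Real.sqrt ((1 - (0 : ℝ) / 2) ^ 2 + 4 * ((0 : ℝ) / 2) * u) = 1 := by
    norm_num
  rw [h]
  norm_num

theorem quant_one_eq (u : ℝ) : quant 1 u = 2 * u / (Real.sqrt (1 / 4 + 2 * u) + 1 / 2) := by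
  unfold quant
  have h : (1 - (1 : ℝ) / 2) ^ 2 + 4 * ((1 : ℝ) / 2) * u = 1 / 4 + 2 * u := by ring
  rw [h]
  congr 1
  ring

namespace ObsAux

theorem cdfG_eq (a y : ℝ) : cdfG a y = (1 - a / 2) * y + (a / 2) * y ^ 2 := by
  unfold cdfG; ring

/-- The quadratic equation solved by `quant`. -/
theorem quant_quad {a u : ℝ} (ha : a ∈ Icc (0 : ℝ) 1) (hu : u ∈ Icc (0 : ℝ) 1) :
    (1 - a / 2) * quant a u + (a / 2) * (quant a u) ^ 2 = u := by
  obtain ⟨ha0, ha1⟩ := ha
  obtain ⟨hu0, hu1⟩ := hu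
  set s := a / 2 with hs
  have hs0 : 0 ≤ s := by positivity
  have hs1 : s ≤ 1 / 2 := by rw [hs]; linarith
  have hin : 0 ≤ (1 - s) ^ 2 + 4 * s * u := by positivity
  set D := Real.sqrt ((1 - s) ^ 2 + 4 * s * u) with hD
  have hD0 : 0 ≤ D := Real.sqrt_nonneg _
  have hD2 : D ^ 2 = (1 - s) ^ 2 + 4 * s * u := Real.sq_sqrt hin
  have hd : 0 < D + 1 - s := by linarith
  have hy : quant a u = 2 * u / (D + 1 - s) := rfl
  set y := quant a u with hydef
  have hyd : y * (D + 1 - s) = 2 * u := by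
    rw [hy]; exact div_mul_cancel₀ _ hd.ne'
  have hne : (D + 1 - s) ^ 2 ≠ 0 := pow_ne_zero 2 hd.ne'
  apply mul_left_cancel₀ hne
  linear_combination (s * (y * (D + 1 - s) + 2 * u) + (1 - s) * (D + 1 - s)) * hyd - u * hD2

end ObsAux

open ObsAux

theorem cdfG_mem {a y : ℝ} (ha : a ∈ Icc (0 : ℝ) 1) (hy : y ∈ Icc (0 : ℝ) 1) : cdfG a y ∈ Icc (0 : ℝ) 1 := by
  obtain ⟨ha0, ha1⟩ := ha
  obtain ⟨hy0, hy1⟩ := hy
  have h1 : 0 ≤ y * (1 - y) := mul_nonneg hy0 (by linarith)
  constructor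
  · unfold cdfG
    have : (a / 2) * y * (1 - y) ≤ 1 / 2 * y * (1 - y) := by
      have e : (a / 2) * y * (1 - y) = (a / 2) * (y * (1 - y)) := by ring
      have e' : 1 / 2 * y * (1 - y) = 1 / 2 * (y * (1 - y)) := by ring
      rw [e, e']
      exact mul_le_mul_of_nonneg_right (by linarith) h1
    nlinarith
  · unfold cdfG
    have : 0 ≤ (a / 2) * y * (1 - y) := by
      have e : (a / 2) * y * (1 - y) = (a / 2) * (y * (1 - y)) := by ring
      rw [e]
      positivity
    linarith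

theorem quant_mem {a u : ℝ} (ha : a ∈ Icc (0 : ℝ) 1) (hu : u ∈ Icc (0 : ℝ) 1) : quant a u ∈ Icc (0 : ℝ) 1 := by
  have hq := quant_quad ha hu
  obtain ⟨ha0, ha1⟩ := ha
  obtain ⟨hu0, hu1⟩ := hu
  have hs0 : 0 ≤ a / 2 := by positivity
  have hs1 : a / 2 ≤ 1 / 2 := by linarith
  have h0 : 0 ≤ quant a u := by
    unfold quant
    have h1 : 0 ≤ Real.sqrt ((1 - a / 2) ^ 2 + 4 * (a / 2) * u) := Real.sqrt_nonneg _
    apply div_nonneg (by linarith)
    linarith
  refine ⟨h0, ?_⟩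
  by_contra hcon
  push Not at hcon
  have : (1 - a / 2) * 1 < (1 - a / 2) * quant a u :=
    mul_lt_mul_of_pos_left hcon (by linarith)
  have h2 : (a / 2) * 1 ≤ (a / 2) * (quant a u) ^ 2 := by
    refine mul_le_mul_of_nonneg_left ?_ hs0
    nlinarith
  linarith

theorem cdfG_quant {a u : ℝ} (ha : a ∈ Icc (0 : ℝ) 1) (hu : u ∈ Icc (0 : ℝ) 1) : cdfG a (quant a u) = u := by
  rw [cdfG_eq]
  exact quant_quad ha hu

theorem quant_cdfG {a y : ℝ} (ha : a ∈ Icc (0 : ℝ) 1) (hy : y ∈ Icc (0 : ℝ) 1) : quant a (cdfG a y) = y := by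
  obtain ⟨ha0, ha1⟩ := ha
  obtain ⟨hy0, hy1⟩ := hy
  have hs0 : 0 ≤ a / 2 := by positivity
  have hs1 : a / 2 ≤ 1 / 2 := by linarith
  unfold quant
  rw [cdfG_eq]
  have h : (1 - a / 2) ^ 2 + 4 * (a / 2) * ((1 - a / 2) * y + (a / 2) * y ^ 2)
      = (1 - a / 2 + 2 * (a / 2) * y) ^ 2 := by ring
  have hnn : 0 ≤ 1 - a / 2 + 2 * (a / 2) * y := by
    have : 0 ≤ 2 * (a / 2) * y := by positivity
    linarith
  rw [h, Real.sqrt_sq hnn]
  have hp : 0 < 1 - a / 2 + (a / 2) * y := by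
    have : 0 ≤ (a / 2) * y := by positivity
    linarith
  have hdenom : 1 - a / 2 + 2 * (a / 2) * y + 1 - a / 2 = 2 * (1 - a / 2 + (a / 2) * y) := by ring
  rw [hdenom]
  rw [div_eq_iff (by positivity)]
  ring

/-- `G a y - G a y' = (y-y')(1-s+s(y+y'))` with factor at least `1/2`, and `|G a y - G a' y| ≤ |a-a'|/8`. -/
theorem quant_lip {a a' u : ℝ} (ha : a ∈ Icc (0 : ℝ) 1) (ha' : a' ∈ Icc (0 : ℝ) 1) (hu : u ∈ Icc (0 : ℝ) 1) :
    |quant a u - quant a' u| ≤ |a - a'| / 4 := by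
  have hq := quant_quad ha hu
  have hq' := quant_quad ha' hu
  obtain ⟨hy0, hy1⟩ := quant_mem ha hu
  obtain ⟨hz0, hz1⟩ := quant_mem ha' hu
  obtain ⟨ha0, ha1⟩ := ha
  set y := quant a u with hy
  set z := quant a' u with hz
  set F := 1 - a / 2 + (a / 2) * (y + z) with hF
  have hF1 : 1 / 2 ≤ F := by
    have : 0 ≤ (a / 2) * (y + z) := by positivity
    rw [hF]; linarith
  have hid : (y - z) * F = ((a - a') / 2) * (z * (1 - z)) := by
    rw [hF]
    linear_combination hq - hq'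
  have hzz : |z * (1 - z)| ≤ 1 / 4 := by
    rw [abs_of_nonneg (mul_nonneg hz0 (by linarith))]
    nlinarith [sq_nonneg (z - 1 / 2)]
  have h1 : |y - z| * F = |a - a'| / 2 * |z * (1 - z)| := by
    have : |(y - z) * F| = |((a - a') / 2) * (z * (1 - z))| := by rw [hid]
    rw [abs_mul, abs_mul, abs_of_pos (by linarith : 0 < F), abs_div] at this
    simpa using this
  have h2 : |y - z| * (1 / 2) ≤ |y - z| * F := mul_le_mul_of_nonneg_left hF1 (abs_nonneg _)
  have h3 : |a - a'| / 2 * |z * (1 - z)| ≤ |a - a'| / 2 * (1 / 4) :=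
    mul_le_mul_of_nonneg_left hzz (by positivity)
  linarith

namespace ObsAux

theorem log_sub_le {x x' : ℝ} (hx : 0 < x) (hx' : 0 < x') :
    Real.log x - Real.log x' ≤ (x - x') / x' := by
  have h := Real.log_le_sub_one_of_pos (div_pos hx hx')
  rw [Real.log_div hx.ne' hx'.ne'] at h
  have e : x / x' - 1 = (x - x') / x' := by field_simp
  linarith

end ObsAux

theorem iota_lip {y y' : ℝ} (hy : y ∈ Icc (0 : ℝ) 1) (hy' : y' ∈ Icc (0 : ℝ) 1) :
    |iota y - iota y'| ≤ 2 * |y - y'| := by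
  have hx : 0 < y + 1 / 2 := by linarith [hy.1]
  have hx' : 0 < y' + 1 / 2 := by linarith [hy'.1]
  have key : ∀ {p q : ℝ}, 0 ≤ p → 0 ≤ q → Real.log (p + 1 / 2) - Real.log (q + 1 / 2) ≤ 2 * |p - q| := by
    intro p q hp hq
    have hp' : 0 < p + 1 / 2 := by linarith
    have hq' : 0 < q + 1 / 2 := by linarith
    have h1 := log_sub_le hp' hq'
    have h2 : (p + 1 / 2 - (q + 1 / 2)) / (q + 1 / 2) ≤ 2 * |p - q| := by
      rw [div_le_iff₀ hq']
      have h3 : p - q ≤ |p - q| := le_abs_self _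
      have h4 : 0 ≤ |p - q| := abs_nonneg _
      nlinarith
    linarith
  unfold iota
  rw [abs_le]
  constructor
  · have := key hy'.1 hy.1
    rw [abs_sub_comm] at this
    linarith
  · exact key hy.1 hy'.1

theorem iota_inv_lip {y y' : ℝ} (hy : y ∈ Icc (0 : ℝ) 1) (hy' : y' ∈ Icc (0 : ℝ) 1) :
    |y - y'| ≤ (3 / 2) * |iota y - iota y'| := by
  have key : ∀ {p q : ℝ}, p ∈ Icc (0 : ℝ) 1 → q ∈ Icc (0 : ℝ) 1 →
      p - q ≤ (3 / 2) * |iota p - iota q| := by
    intro p q hp hq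
    have hp' : 0 < p + 1 / 2 := by linarith [hp.1]
    have hq' : 0 < q + 1 / 2 := by linarith [hq.1]
    have h1 := log_sub_le hq' hp'
    -- `log q' - log p' ≤ (q - p) / p'`
    have h2 : iota p - iota q ≤ |iota p - iota q| := le_abs_self _
    unfold iota at h2
    by_cases hpq : p - q ≤ 0
    · have : 0 ≤ |iota p - iota q| := abs_nonneg _
      linarith
    · push Not at hpq
      have h3 : (p - q) * (2 / 3) ≤ (p + 1 / 2 - (q + 1 / 2)) / (p + 1 / 2) * 1 := by
        rw [mul_one, le_div_iff₀ hp']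
        nlinarith [hp.2]
      have h4 : (q + 1 / 2 - (p + 1 / 2)) / (p + 1 / 2) = -((p + 1 / 2 - (q + 1 / 2)) / (p + 1 / 2)) := by
        ring
      have h5 : |iota p - iota q| = |Real.log (p + 1 / 2) - Real.log (q + 1 / 2)| := rfl
      rw [h5]
      rw [h4] at h1
      linarith
  rcases le_total y y' with h | h
  · rw [abs_sub_comm y y', abs_of_nonneg (by linarith), abs_sub_comm (iota y)]
    exact key hy' hy
  · rw [abs_of_nonneg (by linarith)]
    exact key hy hy'

/-- `iota` on `[0,1]` has values in `[log(1/2), log(3/2)]`; in particular the following crude bound. -/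
theorem iota_abs_le {y : ℝ} (hy : y ∈ Icc (0 : ℝ) 1) : |iota y| ≤ 1 := by
  unfold iota
  have hx : 0 < y + 1 / 2 := by linarith [hy.1]
  rw [abs_le]
  constructor
  · have h1 : Real.log (1 / 2) ≤ Real.log (y + 1 / 2) :=
      Real.log_le_log (by norm_num) (by linarith [hy.1])
    have h2 : Real.log (1 / 2) = -Real.log 2 := by
      rw [one_div, Real.log_inv]
    have h3 := Real.log_two_lt_d9
    linarith
  · have := Real.log_le_sub_one_of_pos hx
    linarith [hy.2]

theorem measurable_quant : Measurable (fun p : ℝ × ℝ => quant p.1 p.2) := by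
  unfold quant
  fun_prop

theorem measurable_cdfG : Measurable (fun p : ℝ × ℝ => cdfG p.1 p.2) := by
  unfold cdfG
  fun_prop

theorem measurable_iota : Measurable iota := by
  unfold iota
  fun_prop

theorem measurable_clamp01 : Measurable clamp01 := by
  unfold clamp01
  fun_prop

theorem clamp01_mem (a : ℝ) : clamp01 a ∈ Icc (0 : ℝ) 1 := by
  unfold clamp01
  constructor
  · exact le_max_left _ _
  · exact max_le zero_le_one (min_le_left _ _)

theorem clamp01_lip (a b : ℝ) : |clamp01 a - clamp01 b| ≤ |a - b| := by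
  unfold clamp01
  rw [max_comm 0, max_comm 0]
  refine le_trans (abs_max_sub_max_le_abs _ _ _) ?_
  rw [min_comm 1 a, min_comm 1 b]
  exact abs_min_sub_min_le_max _ _ _ _ |>.trans (by simp)

theorem clamp01_of_mem {a : ℝ} (ha : a ∈ Icc (0 : ℝ) 1) : clamp01 a = a := by
  unfold clamp01
  rw [min_eq_right ha.2, max_eq_right ha.1]

namespace ObsAux

theorem integral_unit (F : ℝ → ℝ) : ∫ w : unitInterval, F (w : ℝ) = ∫ x in Icc (0 : ℝ) 1, F x :=
  integral_subtype_comap measurableSet_Icc F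

theorem cdfG_image {a : ℝ} (ha : a ∈ Icc (0 : ℝ) 1) : cdfG a '' Icc (0 : ℝ) 1 = Icc (0 : ℝ) 1 := by
  ext u
  constructor
  · rintro ⟨y, hy, rfl⟩
    exact cdfG_mem ha hy
  · intro hu
    exact ⟨quant a u, quant_mem ha hu, cdfG_quant ha hu⟩

theorem cdfG_injOn {a : ℝ} (ha : a ∈ Icc (0 : ℝ) 1) : InjOn (cdfG a) (Icc (0 : ℝ) 1) := by
  intro x hx y hy hxy
  rw [← quant_cdfG ha hx, hxy, quant_cdfG ha hy]

theorem cdfG_hasDeriv (a x : ℝ) : HasDerivAt (cdfG a) (1 - a / 2 + a * x) x := by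
  have h : cdfG a = fun y => (1 - a / 2) * y + (a / 2) * y ^ 2 := funext (cdfG_eq a)
  rw [h]
  have h1 : HasDerivAt (fun y : ℝ => (1 - a / 2) * y) (1 - a / 2) x := by
    simpa using (hasDerivAt_id x).const_mul (1 - a / 2)
  have h2 : HasDerivAt (fun y : ℝ => (a / 2) * y ^ 2) ((a / 2) * (2 * x)) x := by
    simpa using (hasDerivAt_pow 2 x).const_mul (a / 2)
  exact (h1.fun_add h2).congr_deriv (by ring)

/-- Change of variables for `cdfG a` on the unit interval. -/
theorem change_var {a : ℝ} (ha : a ∈ Icc (0 : ℝ) 1) (g : ℝ → ℝ) :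
    ∫ x in Icc (0 : ℝ) 1, g x = ∫ x in Icc (0 : ℝ) 1, (1 - a / 2 + a * x) * g (cdfG a x) := by
  have key := integral_image_eq_integral_abs_deriv_smul (f := cdfG a)
    (f' := fun x => 1 - a / 2 + a * x) (s := Icc (0 : ℝ) 1) measurableSet_Icc
    (fun x _ => (cdfG_hasDeriv a x).hasDerivWithinAt) (cdfG_injOn ha) g
  rw [cdfG_image ha] at key
  rw [key]
  refine setIntegral_congr_fun measurableSet_Icc fun x hx => ?_
  have hpos : 0 ≤ 1 - a / 2 + a * x := by
    have h0 : 0 ≤ a * x := mul_nonneg ha.1 hx.1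
    linarith [ha.2]
  simp only [smul_eq_mul]
  rw [abs_of_nonneg hpos]

theorem integral_id_unit : ∫ x in Icc (0 : ℝ) 1, x = 1 / 2 := by
  rw [integral_Icc_eq_integral_Ioc, ← intervalIntegral.integral_of_le zero_le_one]
  simp

theorem integral_sq_add_unit : ∫ x in Icc (0 : ℝ) 1, x * (x + 1 / 2) = 7 / 12 := by
  rw [integral_Icc_eq_integral_Ioc, ← intervalIntegral.integral_of_le zero_le_one]
  have : ∀ x : ℝ, x * (x + 1 / 2) = x ^ 2 + 1 / 2 * x := fun x => by ring
  simp_rw [this]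
  rw [intervalIntegral.integral_add (by apply Continuous.intervalIntegrable; fun_prop)
    (by apply Continuous.intervalIntegrable; fun_prop)]
  rw [intervalIntegral.integral_const_mul]
  simp
  norm_num

end ObsAux

/-- Law of an observation when `X e = 1`: change of variables `w = F₁ y`. -/
theorem integral_quant_one {ψ : ℝ → ℝ} (hψ : Measurable ψ) (hb : ∃ C, ∀ x, |ψ x| ≤ C) :
    ∫ w : unitInterval, ψ (quant 1 (w : ℝ)) = ∫ w : unitInterval, ψ (w : ℝ) * ((w : ℝ) + 1 / 2) := by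
  have ha : (1 : ℝ) ∈ Icc (0 : ℝ) 1 := ⟨zero_le_one, le_refl _⟩
  rw [integral_unit (fun x => ψ (quant 1 x)), integral_unit (fun x => ψ x * (x + 1 / 2))]
  rw [change_var ha (fun x => ψ (quant 1 x))]
  refine setIntegral_congr_fun measurableSet_Icc fun x hx => ?_
  rw [quant_cdfG ha hx]
  ring

/-- The mixture of the two observation laws, pushed by its own CDF, is uniform. -/
theorem integral_mix {a : ℝ} (ha : a ∈ Icc (0 : ℝ) 1) {ψ : ℝ → ℝ} (hψ : Measurable ψ)
    (hb : ∃ C, ∀ x, |ψ x| ≤ C) :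
    (1 - a) * (∫ w : unitInterval, ψ (cdfG a (w : ℝ)))
        + a * (∫ w : unitInterval, ψ (cdfG a (w : ℝ)) * ((w : ℝ) + 1 / 2))
      = ∫ w : unitInterval, ψ (w : ℝ) := by
  obtain ⟨C, hC⟩ := hb
  rw [integral_unit (fun x => ψ (cdfG a x)), integral_unit (fun x => ψ (cdfG a x) * (x + 1 / 2)),
    integral_unit ψ, change_var ha ψ]
  have hm1 : Measurable fun x => ψ (cdfG a x) := by
    refine hψ.comp ?_
    have : Measurable (fun x : ℝ => ((a, x) : ℝ × ℝ)) := by fun_prop
    exact measurable_cdfG.comp this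
  have hint1 : IntegrableOn (fun x => ψ (cdfG a x)) (Icc (0 : ℝ) 1) := by
    refine Integrable.of_bound hm1.aestronglyMeasurable C ?_
    exact Filter.Eventually.of_forall fun x => by simpa using hC _
  have hint2 : IntegrableOn (fun x => ψ (cdfG a x) * (x + 1 / 2)) (Icc (0 : ℝ) 1) := by
    have hm2 : Measurable fun x => ψ (cdfG a x) * (x + 1 / 2) := hm1.mul (by fun_prop)
    refine Measure.integrableOn_of_bounded (M := C * (3 / 2)) (by simp) hm2.aestronglyMeasurable ?_
    rw [ae_restrict_iff' measurableSet_Icc]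
    refine Filter.Eventually.of_forall fun x hx => ?_
    rw [norm_mul]
    have h1 : ‖ψ (cdfG a x)‖ ≤ C := by simpa using hC _
    have h2 : ‖x + 1 / 2‖ ≤ 3 / 2 := by
      rw [Real.norm_eq_abs, abs_of_nonneg (by linarith [hx.1])]
      linarith [hx.2]
    have hC0 : 0 ≤ C := le_trans (abs_nonneg _) (hC 0)
    exact mul_le_mul h1 h2 (norm_nonneg _) hC0
  rw [← integral_const_mul, ← integral_const_mul, ← integral_add (hint1.const_mul _) (hint2.const_mul _)]
  refine setIntegral_congr_fun measurableSet_Icc fun x _ => ?_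
  ring

/-- Means of the two observation laws. -/
theorem integral_quant_zero_id : ∫ w : unitInterval, quant 0 (w : ℝ) = 1 / 2 := by
  simp only [quant_zero]
  rw [integral_unit (fun x => x)]
  exact integral_id_unit

theorem integral_quant_one_id : ∫ w : unitInterval, quant 1 (w : ℝ) = 7 / 12 := by
  have ha : (1 : ℝ) ∈ Icc (0 : ℝ) 1 := ⟨zero_le_one, le_refl _⟩
  rw [integral_unit (fun x => quant 1 x), change_var ha (fun x => quant 1 x), ← integral_sq_add_unit]
  refine setIntegral_congr_fun measurableSet_Icc fun x hx => ?_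
  rw [quant_cdfG ha hx]
  ring

end Crest.Agent.Lib.SRF
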