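/- Row 168, Mod MEAS: joint measurability and equivariance of the sampler, in a parameter. -/
import Crest.Agent.Lib.SRF.Obs

set_option autoImplicit false

namespace Crest.Agent.Lib.SRF

open MeasureTheory Set Filter
open scoped Classical

variable {E : Type*} {P : Type*} [MeasurableSpace P]

/-- The set of orders for which `(f, j)` is before `i` is measurable. -/
private theorem measurableSet_before (f : E) (j : ℕ) (i : E × ℕ) :
    MeasurableSet {θ : E → ℝ | before θ (f, j) i} := by
  have h : {θ : E → ℝ | before θ (f, j) i} =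
      {θ : E → ℝ | j < i.2} ∪ ({θ : E → ℝ | j = i.2} ∩ {θ : E → ℝ | θ f < θ i.1}) := by
    ext θ; simp [before]
  rw [h]
  refine (MeasurableSet.const _).union ((MeasurableSet.const _).inter ?_)
  exact measurableSet_lt (measurable_pi_apply f) (measurable_pi_apply i.1)

/-- Joint measurability of `hPast`. -/
private theorem measurable_hPast {R : Type*} [MeasurableSpace R] (θ : R → E → ℝ) (y : R → E × ℕ → ℝ)
    (hθ : Measurable θ) (hy : Measurable y) (i : E × ℕ) (f : E) :
    Measurable (fun r => hPast (θ r) (y r) i f) := by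
  unfold hPast
  refine Finset.measurable_sum _ fun j _ => ?_
  refine Measurable.ite ?_ ?_ measurable_const
  · exact hθ (measurableSet_before f j i)
  · exact measurable_iota.comp ((measurable_pi_apply (f, j)).comp hy)

/-- Joint measurability of `filterA`. -/
private theorem measurable_filterA {R : Type*} [MeasurableSpace R] (m : P → E → ℕ → (E → ℝ) → ℝ)
    (hm : ∀ e n, Measurable (fun q : P × (E → ℝ) => m q.1 e n q.2))
    (p : R → P) (θ : R → E → ℝ) (y : R → E × ℕ → ℝ)
    (hp : Measurable p) (hθ : Measurable θ) (hy : Measurable y) (i : E × ℕ) :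
    Measurable (fun r => filterA (m (p r)) (θ r) (y r) i) := by
  unfold filterA
  refine Measurable.limsup fun n => ?_
  refine measurable_clamp01.comp ?_
  have h1 : Measurable (fun r => (p r, hPast (θ r) (y r) i)) :=
    hp.prodMk (measurable_pi_lambda _ fun f => measurable_hPast θ y hθ hy i f)
  exact (hm i.1 n).comp h1

/-- Joint measurability of the Picard iterates in (parameter, order, noise). -/
theorem measurable_picard (m : P → E → ℕ → (E → ℝ) → ℝ)
    (hm : ∀ e n, Measurable (fun q : P × (E → ℝ) => m q.1 e n q.2)) (t : ℕ) (i : E × ℕ) :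
    Measurable (fun q : P × (E → ℝ) × (E × ℕ → ℝ) => picard (m q.1) q.2.1 q.2.2 t i) := by
  induction t generalizing i with
  | zero => exact measurable_const
  | succ t ih =>
    have hp : Measurable (fun q : P × (E → ℝ) × (E × ℕ → ℝ) => q.1) := measurable_fst
    have hθ : Measurable (fun q : P × (E → ℝ) × (E × ℕ → ℝ) => q.2.1) :=
      measurable_fst.comp measurable_snd
    have hU : Measurable (fun q : P × (E → ℝ) × (E × ℕ → ℝ) => q.2.2 i) :=
      (measurable_pi_apply i).comp (measurable_snd.comp measurable_snd)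
    have hy : Measurable (fun q : P × (E → ℝ) × (E × ℕ → ℝ) =>
        picard (m q.1) q.2.1 q.2.2 t) := measurable_pi_lambda _ ih
    have hA := measurable_filterA m hm (fun q : P × (E → ℝ) × (E × ℕ → ℝ) => q.1)
      (fun q => q.2.1) (fun q => picard (m q.1) q.2.1 q.2.2 t) hp hθ hy i
    have h1 := measurable_quant.comp (hA.prodMk hU)
    exact h1

theorem measurable_solve (m : P → E → ℕ → (E → ℝ) → ℝ)
    (hm : ∀ e n, Measurable (fun q : P × (E → ℝ) => m q.1 e n q.2)) (i : E × ℕ) :
    Measurable (fun q : P × (E → ℝ) × (E × ℕ → ℝ) => solve (m q.1) q.2.1 q.2.2 i) := by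
  unfold solve
  exact Measurable.limsup fun t => measurable_picard m hm t i

theorem measurable_est (e : E) : Measurable (fun y : E × ℕ → ℝ => est y e) := by
  have h1 : Measurable (fun y : E × ℕ → ℝ =>
      limsup (fun k : ℕ => (∑ j ∈ Finset.range (k + 1), y (e, j)) / ((k : ℝ) + 1)) atTop) := by
    refine Measurable.limsup fun k => ?_
    refine Measurable.div_const ?_ _
    exact Finset.measurable_sum _ fun j _ => measurable_pi_apply _
  refine measurable_to_bool ?_
  have h2 : (fun y : E × ℕ → ℝ => est y e) ⁻¹' {true} =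
      {y : E × ℕ → ℝ | (13 / 24 : ℝ) <
        limsup (fun k : ℕ => (∑ j ∈ Finset.range (k + 1), y (e, j)) / ((k : ℝ) + 1)) atTop} := by
    ext y; simp [est]
  rw [h2]
  exact measurableSet_lt measurable_const h1

/-- Measurability of the tilted mean in the tilt. -/
theorem measurable_tiltMean (c : Finset E → ℝ) (W : Finset E) (e : E) : Measurable (tiltMean c W e) := by
  unfold tiltMean tiltN tiltZ
  refine Measurable.div ?_ ?_
  · refine Finset.measurable_sum _ fun S _ => ?_
    by_cases he : e ∈ S
    · simp only [he, if_true]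
      exact measurable_const.mul (Real.measurable_exp.comp
        (Finset.measurable_sum _ fun f _ => measurable_pi_apply f))
    · simp only [he, if_false]; exact measurable_const
  · refine Finset.measurable_sum _ fun S _ => ?_
    exact measurable_const.mul (Real.measurable_exp.comp
      (Finset.measurable_sum _ fun f _ => measurable_pi_apply f))

/-- Measurability of the tilted mean in parameter and tilt. -/
theorem measurable_tiltMean_param (c : P → Finset E → ℝ) (hc : ∀ S, Measurable fun p => c p S)
    (W : Finset E) (e : E) : Measurable (fun q : P × (E → ℝ) => tiltMean (c q.1) W e q.2) := by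
  unfold tiltMean tiltN tiltZ
  have hexp : ∀ S : Finset E, Measurable (fun q : P × (E → ℝ) => Real.exp (∑ f ∈ S, q.2 f)) :=
    fun S => Real.measurable_exp.comp
      (Finset.measurable_sum _ fun f _ => (measurable_pi_apply f).comp measurable_snd)
  refine Measurable.div ?_ ?_
  · refine Finset.measurable_sum _ fun S _ => ?_
    by_cases he : e ∈ S
    · simp only [he, if_true]
      exact ((hc S).comp measurable_fst).mul (hexp S)
    · simp only [he, if_false]; exact measurable_const
  · refine Finset.measurable_sum _ fun S _ => ?_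
    exact ((hc S).comp measurable_fst).mul (hexp S)

/-- `hPast` under a relabelling of the sites. -/
private theorem hPast_equiv (σ : E ≃ E) (θ : E → ℝ) (y y' : E × ℕ → ℝ)
    (hy : ∀ e k, y' (σ e, k) = y (e, k)) (e : E) (k : ℕ) :
    hPast (θ ∘ σ.symm) y' (σ e, k) = (hPast θ y (e, k)) ∘ σ.symm := by
  funext f
  obtain ⟨f₀, rfl⟩ := σ.surjective f
  simp only [hPast, Function.comp_apply, Equiv.symm_apply_apply]
  refine Finset.sum_congr rfl fun j _ => ?_
  have h : before (θ ∘ σ.symm) (σ f₀, j) (σ e, k) ↔ before θ (f₀, j) (e, k) := by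
    simp [before]
  simp only [h, hy]

private theorem filterA_equiv (σ : E ≃ E) (m m' : E → ℕ → (E → ℝ) → ℝ)
    (hm : ∀ e n h, m' (σ e) n (h ∘ σ.symm) = m e n h) (θ : E → ℝ) (y y' : E × ℕ → ℝ)
    (hy : ∀ e k, y' (σ e, k) = y (e, k)) (e : E) (k : ℕ) :
    filterA m' (θ ∘ σ.symm) y' (σ e, k) = filterA m θ y (e, k) := by
  unfold filterA
  simp only [hPast_equiv σ θ y y' hy e k, hm]

/-- Equivariance under a bijection of the sites: if `m' (σ e) n (h ∘ σ.symm) = m e n h` for all `e n h`, then the
Picard iterates for `m'` with relabelled data are the relabelled iterates for `m`. -/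
theorem picard_equiv (σ : E ≃ E) (m m' : E → ℕ → (E → ℝ) → ℝ)
    (hm : ∀ e n h, m' (σ e) n (h ∘ σ.symm) = m e n h) (θ : E → ℝ) (U : E × ℕ → ℝ) (t : ℕ) (e : E) (k : ℕ) :
    picard m' (θ ∘ σ.symm) (fun i => U (σ.symm i.1, i.2)) t (σ e, k) = picard m θ U t (e, k) := by
  induction t generalizing e k with
  | zero => rfl
  | succ t ih =>
    simp only [picard]
    rw [filterA_equiv σ m m' hm θ (picard m θ U t)
      (picard m' (θ ∘ σ.symm) (fun i => U (σ.symm i.1, i.2)) t) (fun e k => ih e k) e k]
    simp

theorem solve_equiv (σ : E ≃ E) (m m' : E → ℕ → (E → ℝ) → ℝ)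
    (hm : ∀ e n h, m' (σ e) n (h ∘ σ.symm) = m e n h) (θ : E → ℝ) (U : E × ℕ → ℝ) (e : E) (k : ℕ) :
    solve m' (θ ∘ σ.symm) (fun i => U (σ.symm i.1, i.2)) (σ e, k) = solve m θ U (e, k) := by
  unfold solve
  simp only [picard_equiv σ m m' hm θ U]

theorem est_equiv (σ : E ≃ E) (y y' : E × ℕ → ℝ) (hy : ∀ e k, y' (σ e, k) = y (e, k)) (e : E) :
    est y' (σ e) = est y e := by
  unfold est
  simp only [hy]

end Crest.Agent.Lib.SRF
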