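/- Row 168, Mod CH: finite Bayes formula and Levy upward theorem for the non-adaptive channel. -/
import Crest.Agent.Lib.SRF.Obs
import Crest.Agent.Lib.SRF.Measur
import Crest.Agent.Lib.IsingFIID.Labels

set_option autoImplicit false

namespace Crest.Agent.Lib.SRF

open MeasureTheory Set Filter
open scoped Classical

variable {E : Type*}

/-- bounded measurable functions are integrable for finite measures -/
theorem integrable_of_bdd {α : Type*} [MeasurableSpace α] {μ : Measure α} [IsFiniteMeasure μ] {F : α → ℝ}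
    (hF : Measurable F) (hb : ∃ C, ∀ x, |F x| ≤ C) : Integrable F μ := by
  obtain ⟨C, hC⟩ := hb
  exact Integrable.of_bound hF.aestronglyMeasurable C (Eventually.of_forall fun x => by simpa using hC x)

/-- One-coordinate Fubini on the product noise. -/
theorem integral_update {ι : Type*} [DecidableEq ι] (i₀ : ι) {F : (ι → unitInterval) → ℝ} (hF : Measurable F)
    (hb : ∃ C, ∀ w, |F w| ≤ C) :
    ∫ w, F w ∂(unif ι) = ∫ w, (∫ a : unitInterval, F (Function.update w i₀ a)) ∂(unif ι) := by
  have hmp := Crest.Agent.Lib.IsingFIID.measurePreserving_update_infinitePi (ι := ι)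
    (volume : Measure unitInterval) i₀
  have h1 : ∫ w, F w ∂(unif ι)
      = ∫ p, F (Function.update p.1 i₀ p.2) ∂((unif ι).prod (volume : Measure unitInterval)) := by
    unfold unif
    conv_lhs => rw [← hmp.map_eq]
    rw [integral_map hmp.measurable.aemeasurable hF.aestronglyMeasurable]
  rw [h1, integral_prod]
  refine integrable_of_bdd (hF.comp hmp.measurable) ?_
  obtain ⟨C, hC⟩ := hb
  exact ⟨C, fun x => hC _⟩

theorem measurable_bit : Measurable bit := measurable_of_countable _

theorem measurable_quant_bit (b : Bool) : Measurable (fun a : unitInterval => quant (bit b) (a : ℝ)) :=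
  measurable_quant.comp (measurable_const.prodMk measurable_subtype_coe)

/-- Real coordinates of the raw noise. -/
theorem measurable_coe_noise : Measurable (fun (w : E × ℕ → unitInterval) (i : E × ℕ) => (w i : ℝ)) :=
  measurable_pi_lambda _ fun i => measurable_subtype_coe.comp (measurable_pi_apply i)

theorem measurable_mix (x : E → Bool) (O : Finset (E × ℕ)) :
    Measurable (fun (w : E × ℕ → unitInterval) (i : E × ℕ) =>
      if i ∈ O then quant (bit (x i.1)) (w i) else (w i : ℝ)) := by
  refine measurable_pi_lambda _ fun i => ?_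
  by_cases hi : i ∈ O
  · simp only [hi, if_true]
    exact (measurable_quant_bit (x i.1)).comp (measurable_pi_apply i)
  · simp only [hi, if_false]
    exact measurable_subtype_coe.comp (measurable_pi_apply i)

/-- One coordinate of the change of variables. -/
theorem integral_quant_rho (b : Bool) {ψ : ℝ → ℝ} (hψ : Measurable ψ) (hb : ∃ C, ∀ x, |ψ x| ≤ C) :
    ∫ a : unitInterval, ψ (quant (bit b) (a : ℝ))
      = ∫ a : unitInterval, ψ (a : ℝ) * (if b then ((a : ℝ) + 1 / 2) else 1) := by
  cases b
  · simp [bit, quant_zero]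
  · simpa [bit] using integral_quant_one hψ hb

/-- Change of variables in finitely many noise coordinates: if `x` is a family of bits and `O` a finite index set,
changing `w i` into `quant (bit (x i.1)) (w i)` for `i ∈ O` amounts to the density
`∏_{i ∈ O, x i.1 = true} (w i + 1/2)`. For any bounded measurable `φ`. -/
theorem integral_change_noise (x : E → Bool) (O : Finset (E × ℕ)) {φ : (E × ℕ → ℝ) → ℝ} (hφ : Measurable φ)
    (hb : ∃ C, ∀ y, |φ y| ≤ C) :
    ∫ w, φ (fun i => if i ∈ O then quant (bit (x i.1)) (w i) else (w i : ℝ)) ∂(unif (E × ℕ))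
      = ∫ w, φ (fun i => (w i : ℝ)) * ∏ i ∈ O, (if x i.1 then ((w i : ℝ) + 1 / 2) else 1) ∂(unif (E × ℕ)) := by
  induction O using Finset.induction_on generalizing φ with
  | empty => simp
  | insert i₀ O hi₀ ih =>
    obtain ⟨C, hC⟩ := hb
    -- the bounded weight
    let ρ : ℝ → ℝ := fun t => if x i₀.1 then clamp01 t + 1 / 2 else 1
    have hρm : Measurable ρ := by
      by_cases h : x i₀.1 = true
      · simp only [ρ, h, if_true]; exact measurable_clamp01.add_const _
      · simp only [ρ, h]; simp
    have hρb : ∀ t, |ρ t| ≤ 2 := by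
      intro t
      have := clamp01_mem t
      by_cases h : x i₀.1 = true
      · simp only [ρ, h, if_true]
        rw [abs_le]; constructor <;> linarith [this.1, this.2]
      · simp [ρ, h]
    have hρc : ∀ a : unitInterval, ρ (a : ℝ) = (if x i₀.1 then ((a : ℝ) + 1 / 2) else 1) := by
      intro a
      by_cases h : x i₀.1 = true
      · simp only [ρ, h, if_true]; rw [clamp01_of_mem a.2]
      · simp [ρ, h]
    let φ' : (E × ℕ → ℝ) → ℝ := fun y => φ y * ρ (y i₀)
    have hφ' : Measurable φ' := hφ.mul (hρm.comp (measurable_pi_apply i₀))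
    have hφ'b : ∃ C, ∀ y, |φ' y| ≤ C := ⟨C * 2, fun y => by
      simp only [φ', abs_mul]
      exact mul_le_mul (hC y) (hρb _) (abs_nonneg _) ((abs_nonneg _).trans (hC y))⟩
    have IH := ih hφ' hφ'b
    -- the two one-coordinate integrals
    let mix : (E × ℕ → unitInterval) → E × ℕ → ℝ :=
      fun w i => if i ∈ O then quant (bit (x i.1)) (w i) else (w i : ℝ)
    have hmix : Measurable mix := measurable_mix x O
    have hF : Measurable (fun w : E × ℕ → unitInterval =>
        φ (fun i => if i ∈ insert i₀ O then quant (bit (x i.1)) (w i) else (w i : ℝ))) :=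
      hφ.comp (measurable_mix x _)
    have hG : Measurable (fun w : E × ℕ → unitInterval => φ' (mix w)) := hφ'.comp hmix
    rw [integral_update i₀ hF ⟨C, fun _ => hC _⟩]
    have hinner : ∀ w : E × ℕ → unitInterval,
        ∫ a : unitInterval, φ (fun i => if i ∈ insert i₀ O
            then quant (bit (x i.1)) ((Function.update w i₀ a) i) else ((Function.update w i₀ a) i : ℝ))
          = ∫ a : unitInterval, φ' (mix (Function.update w i₀ a)) := by
      intro w
      let φ₁ : ℝ → ℝ := fun t => φ (Function.update (mix w) i₀ t)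
      have hφ₁ : Measurable φ₁ := hφ.comp (measurable_update' (a := i₀) |>.comp
        (measurable_const.prodMk measurable_id))
      have e1 : ∀ a : unitInterval,
          φ (fun i => if i ∈ insert i₀ O
            then quant (bit (x i.1)) ((Function.update w i₀ a) i) else ((Function.update w i₀ a) i : ℝ))
            = φ₁ (quant (bit (x i₀.1)) (a : ℝ)) := by
        intro a
        simp only [φ₁]
        congr 1
        funext i
        by_cases hi : i = i₀
        · subst hi
          simp
        · rw [Function.update_of_ne hi]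
          simp only [Finset.mem_insert, hi, false_or, Function.update_of_ne hi, mix]
      have e2 : ∀ a : unitInterval, φ' (mix (Function.update w i₀ a))
          = φ₁ (a : ℝ) * (if x i₀.1 then ((a : ℝ) + 1 / 2) else 1) := by
        intro a
        simp only [φ', φ₁]
        have hmixu : mix (Function.update w i₀ a) = Function.update (mix w) i₀ (a : ℝ) := by
          funext i
          by_cases hi : i = i₀
          · subst hi
            simp [mix, hi₀]
          · rw [Function.update_of_ne hi]
            simp only [mix, Function.update_of_ne hi]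
        rw [hmixu, Function.update_self, hρc]
      simp_rw [e1, e2]
      exact integral_quant_rho (x i₀.1) hφ₁ ⟨C, fun _ => hC _⟩
    refine (integral_congr_ae (Eventually.of_forall hinner)).trans ?_
    obtain ⟨C', hC'⟩ := hφ'b
    rw [← integral_update i₀ hG ⟨C', fun _ => hC' _⟩]
    refine IH.trans ?_
    refine integral_congr_ae (Eventually.of_forall fun w => ?_)
    simp only [φ', Finset.prod_insert hi₀, hρc, mul_assoc]

/-! ### Cylinders -/

/-- the occupied part of `X` in `W` -/
noncomputable def occ (W : Finset E) (X : E → Bool) : Finset E := W.filter (fun f => X f = true)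

theorem occ_mem_powerset (W : Finset E) (X : E → Bool) : occ W X ∈ W.powerset :=
  Finset.mem_powerset.2 (Finset.filter_subset _ _)

theorem occ_eq_iff {W S : Finset E} (hS : S ∈ W.powerset) (X : E → Bool) :
    occ W X = S ↔ ∀ i ∈ W, (X i = true ↔ i ∈ S) := by
  rw [Finset.mem_powerset] at hS
  constructor
  · rintro rfl i hi
    simp [occ, hi]
  · intro h
    ext i
    simp only [occ, Finset.mem_filter]
    constructor
    · rintro ⟨hi, hx⟩
      exact (h i hi).1 hx
    · intro hi
      exact ⟨hS hi, (h i (hS hi)).2 hi⟩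

theorem measurableSet_cyl' (W S : Finset E) : MeasurableSet {ω : E → Bool | ∀ i ∈ W, (ω i = true ↔ i ∈ S)} := by
  have : {ω : E → Bool | ∀ i ∈ W, (ω i = true ↔ i ∈ S)} = ⋂ i ∈ W, {ω | ω i = true ↔ i ∈ S} := by
    ext ω; simp
  rw [this]
  refine Finset.measurableSet_biInter _ fun i _ => ?_
  have hm : Measurable (fun ω : E → Bool => ω i) := measurable_pi_apply i
  by_cases hi : i ∈ S
  · simp only [hi, iff_true]
    exact hm (measurableSet_singleton true)
  · simp only [hi, iff_false]
    exact (hm (measurableSet_singleton true)).compl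

theorem occ_comp_eq_sum (W : Finset E) (F : Finset E → ℝ) (X : E → Bool) :
    F (occ W X) = ∑ S ∈ W.powerset,
      Set.indicator {ω : E → Bool | ∀ i ∈ W, (ω i = true ↔ i ∈ S)} (fun _ => F S) X := by
  rw [Finset.sum_eq_single (occ W X)]
  · rw [Set.indicator_of_mem]
    exact (occ_eq_iff (occ_mem_powerset W X) X).1 rfl
  · intro S hS hne
    rw [Set.indicator_of_notMem]
    intro hX
    exact hne ((occ_eq_iff hS X).2 hX).symm
  · intro h
    exact absurd (occ_mem_powerset W X) h

theorem measurable_occ_comp (W : Finset E) (F : Finset E → ℝ) : Measurable (fun X : E → Bool => F (occ W X)) := by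
  simp_rw [occ_comp_eq_sum W F]
  refine Finset.measurable_sum _ fun S _ => ?_
  exact measurable_const.indicator (measurableSet_cyl' W S)

theorem bdd_occ_comp (W : Finset E) (F : Finset E → ℝ) : ∃ C, ∀ X : E → Bool, |F (occ W X)| ≤ C := by
  refine ⟨∑ S ∈ W.powerset, |F S|, fun X => ?_⟩
  exact Finset.single_le_sum (f := fun S => |F S|) (fun _ _ => abs_nonneg _) (occ_mem_powerset W X)

theorem integral_occ (ν : Measure (E → Bool)) [IsProbabilityMeasure ν] (W : Finset E) (F : Finset E → ℝ) :
    ∫ X, F (occ W X) ∂ν = ∑ S ∈ W.powerset, mass ν W S * F S := by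
  simp_rw [occ_comp_eq_sum W F]
  rw [integral_finsetSum]
  · refine Finset.sum_congr rfl fun S _ => ?_
    rw [integral_indicator_const _ (measurableSet_cyl' W S)]
    simp [mass, Measure.real]
  · intro S _
    refine (integrable_const (F S)).indicator (measurableSet_cyl' W S)

theorem mass_nonneg (ν : Measure (E → Bool)) (W S : Finset E) : 0 ≤ mass ν W S := ENNReal.toReal_nonneg

theorem sum_mass (ν : Measure (E → Bool)) [IsProbabilityMeasure ν] (W : Finset E) :
    ∑ S ∈ W.powerset, mass ν W S = 1 := by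
  have := integral_occ ν W (fun _ => 1)
  simpa using this.symm

theorem tiltZ_mass_pos (ν : Measure (E → Bool)) [IsProbabilityMeasure ν] (W : Finset E) (h : E → ℝ) :
    0 < tiltZ (mass ν W) W h := by
  unfold tiltZ
  have hs := sum_mass ν W
  obtain ⟨S, hS, hpos⟩ : ∃ S ∈ W.powerset, 0 < mass ν W S := by
    by_contra hcon
    push Not at hcon
    have : ∑ S ∈ W.powerset, mass ν W S ≤ 0 := Finset.sum_nonpos hcon
    linarith
  refine Finset.sum_pos' (fun S _ => mul_nonneg (mass_nonneg _ _ _) (Real.exp_pos _).le) ⟨S, hS, ?_⟩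
  exact mul_pos hpos (Real.exp_pos _)

theorem tiltN_mass_nonneg (ν : Measure (E → Bool)) (W : Finset E) (e : E) (h : E → ℝ) :
    0 ≤ tiltN (mass ν W) W e h := by
  unfold tiltN
  refine Finset.sum_nonneg fun S _ => ?_
  split_ifs
  · exact mul_nonneg (mass_nonneg _ _ _) (Real.exp_pos _).le
  · exact le_rfl

theorem tiltN_mass_le (ν : Measure (E → Bool)) (W : Finset E) (e : E) (h : E → ℝ) :
    tiltN (mass ν W) W e h ≤ tiltZ (mass ν W) W h := by
  unfold tiltN tiltZ
  refine Finset.sum_le_sum fun S _ => ?_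
  split_ifs
  · exact le_rfl
  · exact mul_nonneg (mass_nonneg _ _ _) (Real.exp_pos _).le

theorem tiltMean_mass_mem (ν : Measure (E → Bool)) [IsProbabilityMeasure ν] (W : Finset E) (e : E) (h : E → ℝ) :
    tiltMean (mass ν W) W e h ∈ Icc (0 : ℝ) 1 := by
  unfold tiltMean
  have hZ := tiltZ_mass_pos ν W h
  refine ⟨div_nonneg (tiltN_mass_nonneg ν W e h) hZ.le, ?_⟩
  rw [div_le_one hZ]
  exact tiltN_mass_le ν W e h

/-- tilted means only see the tilt on the window -/
theorem tiltZ_congr (c : Finset E → ℝ) (W : Finset E) {h h' : E → ℝ} (hh : ∀ f ∈ W, h f = h' f) :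
    tiltZ c W h = tiltZ c W h' := by
  unfold tiltZ
  refine Finset.sum_congr rfl fun S hS => ?_
  rw [Finset.sum_congr rfl fun f hf => hh f (Finset.mem_powerset.1 hS hf)]

theorem tiltN_congr (c : Finset E → ℝ) (W : Finset E) (e : E) {h h' : E → ℝ} (hh : ∀ f ∈ W, h f = h' f) :
    tiltN c W e h = tiltN c W e h' := by
  unfold tiltN
  refine Finset.sum_congr rfl fun S hS => ?_
  rw [Finset.sum_congr rfl fun f hf => hh f (Finset.mem_powerset.1 hS hf)]

theorem tiltMean_congr (c : Finset E → ℝ) (W : Finset E) (e : E) {h h' : E → ℝ} (hh : ∀ f ∈ W, h f = h' f) :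
    tiltMean c W e h = tiltMean c W e h' := by
  unfold tiltMean
  rw [tiltN_congr c W e hh, tiltZ_congr c W hh]

/-! ### The tilt and the density -/

theorem measurable_hPast (θ : E → ℝ) (i : E × ℕ) (f : E) : Measurable (fun y : E × ℕ → ℝ => hPast θ y i f) := by
  unfold hPast
  refine Finset.measurable_sum _ fun j _ => ?_
  by_cases hb : before θ (f, j) i
  · simp only [hb, if_true]
    exact measurable_iota.comp (measurable_pi_apply _)
  · simp only [hb, if_false]
    exact measurable_const

theorem measurable_hPast' (θ : E → ℝ) (i : E × ℕ) : Measurable (fun y : E × ℕ → ℝ => hPast θ y i) :=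
  measurable_pi_lambda _ fun f => measurable_hPast θ i f

/-- The finitely many past observations in the window `W`. -/
noncomputable def pastIn (θ : E → ℝ) (i : E × ℕ) (W : Finset E) : Finset (E × ℕ) :=
  (W ×ˢ Finset.range (i.2 + 1)).filter (fun j => before θ j i)

theorem mem_pastIn {θ : E → ℝ} {i j : E × ℕ} {W : Finset E} :
    j ∈ pastIn θ i W ↔ j.1 ∈ W ∧ before θ j i := by
  unfold pastIn
  simp only [Finset.mem_filter, Finset.mem_product, Finset.mem_range]
  constructor
  · rintro ⟨⟨h1, _⟩, h3⟩
    exact ⟨h1, h3⟩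
  · rintro ⟨h1, h3⟩
    refine ⟨⟨h1, ?_⟩, h3⟩
    rcases h3 with h | ⟨h, _⟩ <;> omega

theorem hPast_congr {θ : E → ℝ} {i : E × ℕ} {W : Finset E} {y y' : E × ℕ → ℝ}
    (h : ∀ j ∈ pastIn θ i W, y j = y' j) {f : E} (hf : f ∈ W) : hPast θ y i f = hPast θ y' i f := by
  unfold hPast
  refine Finset.sum_congr rfl fun j _ => ?_
  by_cases hb : before θ (f, j) i
  · simp only [hb, if_true]
    rw [h (f, j) (mem_pastIn.2 ⟨hf, hb⟩)]
  · simp only [hb, if_false]

/-- The density of the change of variables is the exponential of the tilt. -/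
theorem prod_rho_eq (θ : E → ℝ) (i : E × ℕ) (W : Finset E) (X : E → Bool) (w : E × ℕ → unitInterval) :
    ∏ j ∈ pastIn θ i W, (if X j.1 then ((w j : ℝ) + 1 / 2) else 1)
      = Real.exp (∑ f ∈ occ W X, hPast θ (fun j => (w j : ℝ)) i f) := by
  unfold pastIn occ
  rw [Finset.prod_filter, Finset.prod_product, Real.exp_sum, Finset.prod_filter]
  refine Finset.prod_congr rfl fun f _ => ?_
  by_cases hX : X f = true
  · simp only [hX, if_true]
    unfold hPast
    rw [Real.exp_sum]
    refine Finset.prod_congr rfl fun j _ => ?_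
    by_cases hb : before θ (f, j) i
    · simp only [hb, if_true]
      unfold iota
      rw [Real.exp_log]
      have := (w (f, j)).2.1
      positivity
    · simp [hb]
  · simp [hX]

theorem abs_hPast_le (θ : E → ℝ) (i : E × ℕ) (w : E × ℕ → unitInterval) (f : E) :
    |hPast θ (fun j => (w j : ℝ)) i f| ≤ i.2 + 1 := by
  unfold hPast
  refine (Finset.abs_sum_le_sum_abs _ _).trans ?_
  have : ∀ j ∈ Finset.range (i.2 + 1), |if before θ (f, j) i then iota (w (f, j)) else 0| ≤ 1 := by
    intro j _
    split_ifs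
    · exact iota_abs_le (w (f, j)).2
    · simp
  refine (Finset.sum_le_sum this).trans ?_
  simp

theorem exp_tilt_bdd (θ : E → ℝ) (i : E × ℕ) (S : Finset E) :
    ∃ C, ∀ w : E × ℕ → unitInterval, |Real.exp (∑ f ∈ S, hPast θ (fun j => (w j : ℝ)) i f)| ≤ C := by
  refine ⟨Real.exp (S.card * (i.2 + 1)), fun w => ?_⟩
  rw [abs_of_pos (Real.exp_pos _), Real.exp_le_exp]
  have : ∀ f ∈ S, hPast θ (fun j => (w j : ℝ)) i f ≤ i.2 + 1 := fun f _ =>
    (le_abs_self _).trans (abs_hPast_le θ i w f)
  refine (Finset.sum_le_sum this).trans ?_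
  rw [Finset.sum_const, nsmul_eq_mul]

theorem measurable_exp_tilt (θ : E → ℝ) (i : E × ℕ) (S : Finset E) :
    Measurable (fun w : E × ℕ → unitInterval => Real.exp (∑ f ∈ S, hPast θ (fun j => (w j : ℝ)) i f)) := by
  refine Real.measurable_exp.comp (Finset.measurable_sum _ fun f _ => ?_)
  exact (measurable_hPast θ i f).comp measurable_coe_noise

/-! ### Bayes -/

theorem measurable_obs : Measurable (fun p : (E → Bool) × (E × ℕ → unitInterval) => obs p.1 p.2) := by
  refine measurable_pi_lambda _ fun i => ?_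
  unfold obs
  have h1 : Measurable (fun p : (E → Bool) × (E × ℕ → unitInterval) => bit (p.1 i.1)) :=
    measurable_bit.comp ((measurable_pi_apply i.1).comp measurable_fst)
  have h2 : Measurable (fun p : (E → Bool) × (E × ℕ → unitInterval) => ((p.2 i : unitInterval) : ℝ)) :=
    measurable_subtype_coe.comp ((measurable_pi_apply i).comp measurable_snd)
  exact measurable_quant.comp (h1.prodMk h2)

/-- Finite Bayes formula. -/
theorem bayes (ν : Measure (E → Bool)) [IsProbabilityMeasure ν] (W : Finset E) (θ : E → ℝ) (i : E × ℕ)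
    (g : Finset E → ℝ) {Φ : (E × ℕ → ℝ) → ℝ} (hΦ : Measurable Φ) (hb : ∃ C, ∀ y, |Φ y| ≤ C)
    (hdep : ∀ y y' : E × ℕ → ℝ, (∀ j ∈ pastIn θ i W, y j = y' j) → Φ y = Φ y') :
    ∫ p, g (occ W p.1) * Φ (obs p.1 p.2) ∂(jointP ν)
      = ∫ w, Φ (fun j => (w j : ℝ)) * ∑ S ∈ W.powerset, mass ν W S *
          (g S * Real.exp (∑ f ∈ S, hPast θ (fun j => (w j : ℝ)) i f)) ∂(unif (E × ℕ)) := by
  have hint : Integrable (fun p : (E → Bool) × (E × ℕ → unitInterval) => g (occ W p.1) * Φ (obs p.1 p.2))
      (ν.prod (unif (E × ℕ))) := by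
    obtain ⟨C, hC⟩ := hb
    obtain ⟨D, hD⟩ := bdd_occ_comp W g
    refine integrable_of_bdd (((measurable_occ_comp W g).comp measurable_fst).mul (hΦ.comp measurable_obs))
      ⟨D * C, fun p => ?_⟩
    rw [abs_mul]
    exact mul_le_mul (hD _) (hC _) (abs_nonneg _) ((abs_nonneg _).trans (hD p.1))
  unfold jointP
  rw [integral_prod _ hint]
  have hinner : ∀ X : E → Bool, ∫ w, g (occ W X) * Φ (obs X w) ∂(unif (E × ℕ))
      = (fun S => g S * ∫ w, Φ (fun j => (w j : ℝ)) *
          Real.exp (∑ f ∈ S, hPast θ (fun j => (w j : ℝ)) i f) ∂(unif (E × ℕ))) (occ W X) := by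
    intro X
    simp only []
    rw [integral_const_mul]
    congr 1
    have h1 : ∀ w, Φ (obs X w)
        = Φ (fun k => if k ∈ pastIn θ i W then quant (bit (X k.1)) (w k) else (w k : ℝ)) := by
      intro w
      apply hdep
      intro j hj
      simp [obs, hj]
    simp_rw [h1]
    rw [integral_change_noise X _ hΦ hb]
    simp_rw [prod_rho_eq]
  simp_rw [hinner]
  refine (integral_occ ν W (fun S => g S * ∫ w, Φ (fun j => (w j : ℝ)) *
    Real.exp (∑ f ∈ S, hPast θ (fun j => (w j : ℝ)) i f) ∂(unif (E × ℕ)))).trans ?_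
  simp_rw [Finset.mul_sum]
  rw [integral_finsetSum]
  · refine Finset.sum_congr rfl fun S _ => ?_
    have : ∀ w : E × ℕ → unitInterval, Φ (fun j => (w j : ℝ)) * (mass ν W S * (g S *
        Real.exp (∑ f ∈ S, hPast θ (fun j => (w j : ℝ)) i f)))
        = mass ν W S * (g S * (Φ (fun j => (w j : ℝ)) *
          Real.exp (∑ f ∈ S, hPast θ (fun j => (w j : ℝ)) i f))) := fun w => by ring
    simp_rw [this]
    rw [integral_const_mul, integral_const_mul]
  · intro S _
    obtain ⟨C, hC⟩ := hb
    obtain ⟨D, hD⟩ := exp_tilt_bdd θ i S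
    have hm : Measurable (fun w : E × ℕ → unitInterval => Φ (fun j => (w j : ℝ)) * (mass ν W S * (g S *
        Real.exp (∑ f ∈ S, hPast θ (fun j => (w j : ℝ)) i f)))) :=
      (hΦ.comp measurable_coe_noise).mul
        (measurable_const.mul (measurable_const.mul (measurable_exp_tilt θ i S)))
    refine integrable_of_bdd hm ⟨C * (|mass ν W S| * (|g S| * D)), fun w => ?_⟩
    rw [abs_mul, abs_mul, abs_mul]
    have h0 : 0 ≤ |Real.exp (∑ f ∈ S, hPast θ (fun j => (w j : ℝ)) i f)| := abs_nonneg _
    have h1 := hC (fun j => (w j : ℝ))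
    have h2 := hD w
    gcongr
    exact (abs_nonneg _).trans h1

/-- Bayes for the mean: the tilted mean is the conditional expectation given the observations in the window. -/
theorem bayes_mean (ν : Measure (E → Bool)) [IsProbabilityMeasure ν] (W : Finset E) (θ : E → ℝ) (i : E × ℕ)
    (he : i.1 ∈ W) {Φ : (E × ℕ → ℝ) → ℝ} (hΦ : Measurable Φ) (hb : ∃ C, ∀ y, |Φ y| ≤ C)
    (hdep : ∀ y y' : E × ℕ → ℝ, (∀ j ∈ pastIn θ i W, y j = y' j) → Φ y = Φ y') :
    ∫ p, bit (p.1 i.1) * Φ (obs p.1 p.2) ∂(jointP ν)
      = ∫ p, tiltMean (mass ν W) W i.1 (hPast θ (obs p.1 p.2) i) * Φ (obs p.1 p.2) ∂(jointP ν) := by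
  let g : Finset E → ℝ := fun S => if i.1 ∈ S then 1 else 0
  have hg : ∀ X : E → Bool, bit (X i.1) = g (occ W X) := by
    intro X
    simp [bit, g, occ, he]
  have L := bayes ν W θ i g hΦ hb hdep
  let Φ₁ : (E × ℕ → ℝ) → ℝ := fun y => tiltMean (mass ν W) W i.1 (hPast θ y i) * Φ y
  have hΦ₁ : Measurable Φ₁ := ((measurable_tiltMean _ _ _).comp (measurable_hPast' θ i)).mul hΦ
  have hM : ∀ h : E → ℝ, |tiltMean (mass ν W) W i.1 h| ≤ 1 := fun h => by
    have := tiltMean_mass_mem ν W i.1 h
    rw [abs_of_nonneg this.1]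
    exact this.2
  have hb₁ : ∃ C, ∀ y, |Φ₁ y| ≤ C := by
    obtain ⟨C, hC⟩ := hb
    refine ⟨C, fun y => ?_⟩
    simp only [Φ₁, abs_mul]
    calc _ ≤ 1 * |Φ y| := by gcongr; exact hM _
      _ ≤ C := by simpa using hC y
  have hdep₁ : ∀ y y' : E × ℕ → ℝ, (∀ j ∈ pastIn θ i W, y j = y' j) → Φ₁ y = Φ₁ y' := by
    intro y y' h
    simp only [Φ₁]
    rw [hdep y y' h, tiltMean_congr _ _ _ (fun f hf => hPast_congr h hf)]
  have R := bayes ν W θ i (fun _ => 1) hΦ₁ hb₁ hdep₁
  simp_rw [hg]
  rw [L]
  have e1 : ∫ p, tiltMean (mass ν W) W i.1 (hPast θ (obs p.1 p.2) i) * Φ (obs p.1 p.2) ∂(jointP ν)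
      = ∫ p, (fun _ => (1 : ℝ)) (occ W p.1) * Φ₁ (obs p.1 p.2) ∂(jointP ν) := by
    simp [Φ₁]
  rw [e1, R]
  refine integral_congr_ae (Eventually.of_forall fun w => ?_)
  have hZ := tiltZ_mass_pos ν W (hPast θ (fun j => (w j : ℝ)) i)
  have hN : ∑ S ∈ W.powerset, mass ν W S * (g S * Real.exp (∑ f ∈ S, hPast θ (fun j => (w j : ℝ)) i f))
      = tiltN (mass ν W) W i.1 (hPast θ (fun j => (w j : ℝ)) i) := by
    unfold tiltN
    refine Finset.sum_congr rfl fun S _ => ?_
    by_cases h : i.1 ∈ S <;> simp [g, h]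
  have hZ' : ∑ S ∈ W.powerset, mass ν W S * (1 * Real.exp (∑ f ∈ S, hPast θ (fun j => (w j : ℝ)) i f))
      = tiltZ (mass ν W) W (hPast θ (fun j => (w j : ℝ)) i) := by
    unfold tiltZ
    refine Finset.sum_congr rfl fun S _ => ?_
    ring
  simp only [Φ₁]
  rw [hN, hZ']
  unfold tiltMean
  field_simp

/-! ### Levy -/

/-- The joint space. -/
abbrev JSp (E : Type*) := (E → Bool) × (E × ℕ → unitInterval)

/-- restriction of observations to a set of indices -/
noncomputable def restr (O : Set (E × ℕ)) (y : E × ℕ → ℝ) : E × ℕ → ℝ := fun j => if j ∈ O then y j else 0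

theorem measurable_restr (O : Set (E × ℕ)) : Measurable (restr O) := by
  refine measurable_pi_lambda _ fun j => ?_
  unfold restr
  by_cases hj : j ∈ O
  · simp only [hj, if_true]; exact measurable_pi_apply j
  · simp only [hj, if_false]; exact measurable_const

set_option warn.classDefReducibility false in
/-- The sigma algebra of the observations in `O`. -/
noncomputable def sigO (O : Set (E × ℕ)) : MeasurableSpace (JSp E) :=
  MeasurableSpace.comap (fun p : JSp E => restr O (obs p.1 p.2)) inferInstance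

theorem measurable_sigO (O : Set (E × ℕ)) : Measurable[sigO O] (fun p : JSp E => restr O (obs p.1 p.2)) :=
  comap_measurable _

theorem sigO_le (O : Set (E × ℕ)) : sigO O ≤ (inferInstance : MeasurableSpace (JSp E)) :=
  ((measurable_restr O).comp measurable_obs).comap_le

theorem sigO_mono {O O' : Set (E × ℕ)} (h : O ⊆ O') : sigO O ≤ sigO O' := by
  have e : (fun p : JSp E => restr O (obs p.1 p.2))
      = restr O ∘ (fun p : JSp E => restr O' (obs p.1 p.2)) := by
    funext p j
    simp only [restr, Function.comp]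
    by_cases hj : j ∈ O
    · simp [hj, h hj]
    · simp [hj]
  unfold sigO
  rw [e, ← MeasurableSpace.comap_comp]
  exact MeasurableSpace.comap_mono (measurable_restr O).comap_le

/-- The tilted mean in a window is the conditional expectation given the observations in the window. -/
theorem condExp_eq (ν : Measure (E → Bool)) [IsProbabilityMeasure ν] (W : Finset E) (θ : E → ℝ) (i : E × ℕ)
    (he : i.1 ∈ W) :
    (fun p : JSp E => tiltMean (mass ν W) W i.1 (hPast θ (obs p.1 p.2) i))
      =ᵐ[jointP ν] (jointP ν)[fun p : JSp E => bit (p.1 i.1) | sigO (pastIn θ i W : Set (E × ℕ))] := by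
  have hA : Measurable (fun y : E × ℕ → ℝ => tiltMean (mass ν W) W i.1 (hPast θ y i)) :=
    (measurable_tiltMean _ _ _).comp (measurable_hPast' θ i)
  have hAm : Measurable (fun p : JSp E => tiltMean (mass ν W) W i.1 (hPast θ (obs p.1 p.2) i)) :=
    hA.comp measurable_obs
  have hAb : ∃ C, ∀ p : JSp E, |tiltMean (mass ν W) W i.1 (hPast θ (obs p.1 p.2) i)| ≤ C := ⟨1, fun p => by
    have := tiltMean_mass_mem ν W i.1 (hPast θ (obs p.1 p.2) i)
    rw [abs_of_nonneg this.1]
    exact this.2⟩
  have hY : Measurable (fun p : JSp E => bit (p.1 i.1)) :=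
    measurable_bit.comp ((measurable_pi_apply i.1).comp measurable_fst)
  have hYb : ∃ C, ∀ p : JSp E, |bit (p.1 i.1)| ≤ C := ⟨1, fun p => by
    unfold bit; split_ifs <;> simp⟩
  refine ae_eq_condExp_of_forall_setIntegral_eq (sigO_le _) (integrable_of_bdd hY hYb)
    (fun s _ _ => (integrable_of_bdd hAm hAb).integrableOn) ?_ ?_
  · rintro s ⟨B, hB, rfl⟩ -
    let O : Set (E × ℕ) := (pastIn θ i W : Set (E × ℕ))
    let Φ : (E × ℕ → ℝ) → ℝ := fun y => B.indicator (fun _ => 1) (restr O y)
    have hΦ : Measurable Φ := (measurable_const.indicator hB).comp (measurable_restr O)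
    have hΦb : ∃ C, ∀ y, |Φ y| ≤ C := ⟨1, fun y => by
      simp only [Φ, Set.indicator]; split_ifs <;> simp⟩
    have hdep : ∀ y y' : E × ℕ → ℝ, (∀ j ∈ pastIn θ i W, y j = y' j) → Φ y = Φ y' := by
      intro y y' h
      simp only [Φ]
      congr 1
      funext j
      simp only [restr]
      by_cases hj : j ∈ O
      · simp only [hj, if_true]; exact h j hj
      · simp [hj]
    have key := bayes_mean ν W θ i he hΦ hΦb hdep
    have hs : MeasurableSet ((fun p : JSp E => restr O (obs p.1 p.2)) ⁻¹' B) :=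
      ((measurable_restr O).comp measurable_obs) hB
    rw [← integral_indicator hs, ← integral_indicator hs]
    have e1 : ∀ (f : JSp E → ℝ) (p : JSp E),
        ((fun p : JSp E => restr O (obs p.1 p.2)) ⁻¹' B).indicator f p = f p * Φ (obs p.1 p.2) := by
      intro f p
      simp only [Φ, Set.indicator, Set.mem_preimage]
      split_ifs <;> simp
    simp_rw [e1]
    exact key.symm
  · have : (fun p : JSp E => tiltMean (mass ν W) W i.1 (hPast θ (obs p.1 p.2) i))
        = (fun y : E × ℕ → ℝ => tiltMean (mass ν W) W i.1 (hPast θ y i)) ∘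
          (fun p : JSp E => restr (pastIn θ i W : Set (E × ℕ)) (obs p.1 p.2)) := by
      funext p
      simp only [Function.comp]
      refine tiltMean_congr _ _ _ fun f hf => hPast_congr (fun j hj => ?_) hf
      simp [restr, hj]
    rw [this]
    exact (hA.comp (measurable_sigO _)).stronglyMeasurable.aestronglyMeasurable

/-- The key integrated identity: the posterior mean `filterA` is the conditional expectation of `X e` given the
past observations. `Ψ` is any bounded measurable function of the observations that depends only on the observations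
before `i`. Proof: let `O n` be the observations before `i` at sites of `W e n`: finite, increasing, exhausting the
past. Bayes (`integral_change_noise`): `∫ bit (X e) * Φ (obs) = ∫ tiltMean (mass ν (W e n)) (W e n) e (hPast) * Φ (obs)`
for `Φ` depending on `O n` only, i.e. the `n`-th term of `filterA` is the conditional expectation given the observations
in `O n`; the Levy upward theorem `MeasureTheory.tendsto_ae_condExp` gives the a.e. limit. -/
theorem past_identity [Countable E] {ν : Measure (E → Bool)} [IsProbabilityMeasure ν] {W : E → ℕ → Finset E}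
    {m : E → ℕ → (E → ℝ) → ℝ} (hW : Windows ν W m) (θ : E → ℝ) (i : E × ℕ)
    {Ψ : (E × ℕ → ℝ) → ℝ} (hΨ : Measurable Ψ) (hb : ∃ C, ∀ y, |Ψ y| ≤ C)
    (hdep : ∀ y y' : E × ℕ → ℝ, (∀ j, before θ j i → y j = y' j) → Ψ y = Ψ y') :
    ∫ p, bit (p.1 i.1) * Ψ (obs p.1 p.2) ∂(jointP ν)
      = ∫ p, filterA m θ (obs p.1 p.2) i * Ψ (obs p.1 p.2) ∂(jointP ν) := by
  let O : ℕ → Set (E × ℕ) := fun n => (pastIn θ i (W i.1 n) : Set (E × ℕ))
  have hOmono : Monotone O := by
    intro n n' hn j hj
    have hj' := mem_pastIn.1 (Finset.mem_coe.1 hj)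
    exact Finset.mem_coe.2 (mem_pastIn.2 ⟨hW.mono i.1 hn hj'.1, hj'.2⟩)
  let ℱ : Filtration ℕ (inferInstance : MeasurableSpace (JSp E)) :=
    ⟨fun n => sigO (O n), fun _ _ h => sigO_mono (hOmono h), fun n => sigO_le (O n)⟩
  let Y : JSp E → ℝ := fun p => bit (p.1 i.1)
  have hY : Measurable Y := measurable_bit.comp ((measurable_pi_apply i.1).comp measurable_fst)
  have hYb : ∃ C, ∀ p : JSp E, |Y p| ≤ C := ⟨1, fun p => by
    simp only [Y, bit]; split_ifs <;> simp⟩
  have hlev := tendsto_ae_condExp (μ := jointP ν) (ℱ := ℱ) Y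
  obtain ⟨n₀, hn₀⟩ := hW.exhaust i.1 i.1
  have hae : ∀ᵐ p ∂(jointP ν), ∀ n, n₀ ≤ n →
      tiltMean (mass ν (W i.1 n)) (W i.1 n) i.1 (hPast θ (obs p.1 p.2) i) = ((jointP ν)[Y | ℱ n]) p := by
    rw [ae_all_iff]
    intro n
    by_cases hn : n₀ ≤ n
    · filter_upwards [condExp_eq ν (W i.1 n) θ i (hW.mono i.1 hn hn₀)] with p hp _
      exact hp
    · exact Eventually.of_forall fun p h => absurd h hn
  have hlim : ∀ᵐ p ∂(jointP ν), filterA m θ (obs p.1 p.2) i = ((jointP ν)[Y | ⨆ n, ℱ n]) p := by
    filter_upwards [hlev, hae] with p h1 h2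
    unfold filterA
    refine Tendsto.limsup_eq (h1.congr' ?_)
    filter_upwards [eventually_ge_atTop n₀] with n hn
    rw [← h2 n hn, hW.mean_eq, clamp01_of_mem (tiltMean_mass_mem ν _ _ _)]
  -- the function of the past is measurable for the limit sigma algebra
  let f : JSp E → ℝ := fun p => Ψ (obs p.1 p.2)
  have hfm : Measurable f := hΨ.comp measurable_obs
  have hfb : ∃ C, ∀ p, |f p| ≤ C := by
    obtain ⟨C, hC⟩ := hb
    exact ⟨C, fun p => hC _⟩
  let Past : Set (E × ℕ) := {j | before θ j i}
  have hcoord : ∀ j, Measurable[⨆ n, ℱ n] (fun p : JSp E => restr Past (obs p.1 p.2) j) := by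
    intro j
    by_cases hj : j ∈ Past
    · obtain ⟨n, hn⟩ := hW.exhaust i.1 j.1
      have hjO : j ∈ O n := Finset.mem_coe.2 (mem_pastIn.2 ⟨hn, hj⟩)
      have e : (fun p : JSp E => restr Past (obs p.1 p.2) j)
          = (fun p : JSp E => restr (O n) (obs p.1 p.2) j) := by
        funext p
        simp [restr, hj, hjO]
      rw [e]
      have h1 : Measurable[ℱ n] (fun p : JSp E => restr (O n) (obs p.1 p.2) j) :=
        (measurable_pi_apply j).comp (measurable_sigO (O n))
      exact h1.mono (le_iSup (fun n => ℱ n) n) le_rfl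
    · have e : (fun p : JSp E => restr Past (obs p.1 p.2) j) = fun _ => 0 := by
        funext p
        simp [restr, hj]
      rw [e]
      exact measurable_const
  have hfm' : StronglyMeasurable[⨆ n, ℱ n] f := by
    have e : f = Ψ ∘ (fun p : JSp E => restr Past (obs p.1 p.2)) := by
      funext p
      simp only [f, Function.comp]
      apply hdep
      intro j hj
      have : j ∈ Past := hj
      simp [restr, this]
    rw [e]
    refine Measurable.stronglyMeasurable (hΨ.comp ?_)
    exact @measurable_pi_lambda _ _ _ (⨆ n, ℱ n) _ _ hcoord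
  have hle : (⨆ n, ℱ n) ≤ (inferInstance : MeasurableSpace (JSp E)) := iSup_le fun n => ℱ.le n
  have hYfi : Integrable (Y * f) (jointP ν) := by
    obtain ⟨C, hC⟩ := hYb
    obtain ⟨D, hD⟩ := hfb
    refine integrable_of_bdd (hY.mul hfm) ⟨C * D, fun p => ?_⟩
    simp only [Pi.mul_apply, abs_mul]
    exact mul_le_mul (hC _) (hD _) (abs_nonneg _) ((abs_nonneg _).trans (hC p))
  have hpull := condExp_mul_of_stronglyMeasurable_right hfm' hYfi (integrable_of_bdd hY hYb)
  calc ∫ p, bit (p.1 i.1) * Ψ (obs p.1 p.2) ∂(jointP ν)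
      = ∫ p, (Y * f) p ∂(jointP ν) := rfl
    _ = ∫ p, ((jointP ν)[Y * f | ⨆ n, ℱ n]) p ∂(jointP ν) := (integral_condExp hle).symm
    _ = ∫ p, ((jointP ν)[Y | ⨆ n, ℱ n] * f) p ∂(jointP ν) := integral_congr_ae hpull
    _ = ∫ p, filterA m θ (obs p.1 p.2) i * Ψ (obs p.1 p.2) ∂(jointP ν) := by
        refine integral_congr_ae ?_
        filter_upwards [hlim] with p hp
        simp only [Pi.mul_apply, f]
        rw [hp]

end Crest.Agent.Lib.SRF
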