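/- Row 168, Mod EST: the estimator recovers the configuration (strong law on the noise of each site). -/
import Crest.Agent.Lib.SRF.Obs

set_option autoImplicit false

namespace Crest.Agent.Lib.SRF

open MeasureTheory Set Filter ProbabilityTheory

variable {E : Type*}

/-- Strong law for a bounded function of the noise along one site. -/
theorem est_aux_slln (e : E) {g : unitInterval → ℝ} (hg : Measurable g) {C : ℝ}
    (hC : ∀ u, |g u| ≤ C) :
    ∀ᵐ w ∂(unif (E × ℕ)),
      Tendsto (fun k : ℕ => (∑ j ∈ Finset.range (k + 1), g (w (e, j))) / ((k : ℝ) + 1)) atTop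
        (nhds (∫ u : unitInterval, g u)) := by
  set X : ℕ → (E × ℕ → unitInterval) → ℝ := fun j w => g (w (e, j)) with hX
  have hind : iIndepFun (fun (i : E × ℕ) (ω : E × ℕ → unitInterval) => g (ω i)) (unif (E × ℕ)) :=
    iIndepFun_infinitePi (X := fun _ => g) (fun _ => hg)
  have hinj : Function.Injective (fun j : ℕ => (e, j)) := fun a b h => (Prod.ext_iff.1 h).2
  have hind2 : iIndepFun X (unif (E × ℕ)) := hind.precomp hinj
  have hmX : ∀ j, Measurable (X j) := fun j =>
    hg.comp (measurable_pi_apply (e, j))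
  have hmap : ∀ j, (unif (E × ℕ)).map (X j) = (volume : Measure unitInterval).map g := fun j => by
    have : X j = g ∘ (fun w : E × ℕ → unitInterval => w (e, j)) := rfl
    rw [this, ← Measure.map_map hg (measurable_pi_apply (e, j))]
    unfold unif
    rw [Measure.infinitePi_map_eval]
  have hident : ∀ j, IdentDistrib (X j) (X 0) (unif (E × ℕ)) (unif (E × ℕ)) := fun j =>
    ⟨(hmX j).aemeasurable, (hmX 0).aemeasurable, by rw [hmap j, hmap 0]⟩
  have hint : Integrable (X 0) (unif (E × ℕ)) :=
    Integrable.of_bound (hmX 0).aestronglyMeasurable C (Eventually.of_forall fun w => by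
      rw [Real.norm_eq_abs]; exact hC _)
  have hmean : ∫ w, X 0 w ∂(unif (E × ℕ)) = ∫ u : unitInterval, g u := by
    have h1 : ∫ y, y ∂((unif (E × ℕ)).map (X 0)) = ∫ w, X 0 w ∂(unif (E × ℕ)) :=
      integral_map (hmX 0).aemeasurable aestronglyMeasurable_id
    rw [← h1, hmap 0]
    exact integral_map hg.aemeasurable aestronglyMeasurable_id
  have hsl := strong_law_ae_real X hint (fun i j hij => hind2.indepFun hij) hident
  rw [hmean] at hsl
  filter_upwards [hsl] with w hw
  have h2 := hw.comp (tendsto_add_atTop_nat 1)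
  refine h2.congr fun k => ?_
  simp only [Function.comp_apply, hX]
  push_cast
  rfl

private theorem est_aux_measurable (a : ℝ) :
    Measurable (fun u : unitInterval => quant a (u : ℝ)) :=
  measurable_quant.comp (measurable_const.prodMk measurable_subtype_coe)

private theorem est_aux_bound {a : ℝ} (ha : a ∈ Icc (0 : ℝ) 1) (u : unitInterval) :
    |quant a (u : ℝ)| ≤ 1 := by
  have h := quant_mem ha u.2
  rw [abs_of_nonneg h.1]
  exact h.2

/-- For almost every raw noise, for every site `e` and both bits `x`, the averages of `quant x (w (e,j))` converge to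
`1/2` resp. `7/12`. Strong law `ProbabilityTheory.strong_law_ae_real`. -/
theorem ae_avg_quant [Countable E] :
    ∀ᵐ w ∂(unif (E × ℕ)), ∀ e : E,
      Tendsto (fun k : ℕ => (∑ j ∈ Finset.range (k + 1), quant 0 (w (e, j))) / ((k : ℝ) + 1)) atTop (nhds (1 / 2)) ∧
      Tendsto (fun k : ℕ => (∑ j ∈ Finset.range (k + 1), quant 1 (w (e, j))) / ((k : ℝ) + 1)) atTop (nhds (7 / 12)) := by
  rw [ae_all_iff]
  intro e
  have h0 := est_aux_slln e (est_aux_measurable 0)
    (est_aux_bound (a := 0) (by simp))
  have h1 := est_aux_slln e (est_aux_measurable 1)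
    (est_aux_bound (a := 1) (by simp))
  rw [integral_quant_zero_id] at h0
  rw [integral_quant_one_id] at h1
  filter_upwards [h0, h1] with w hw0 hw1
  exact ⟨hw0, hw1⟩

theorem est_obs [Countable E] (ν : Measure (E → Bool)) [IsProbabilityMeasure ν] :
    ∀ᵐ p ∂(jointP ν), est (obs p.1 p.2) = p.1 := by
  have h := ae_avg_quant (E := E)
  have h2 : ∀ᵐ p ∂(jointP ν), ∀ e : E,
      Tendsto (fun k : ℕ => (∑ j ∈ Finset.range (k + 1), quant 0 (p.2 (e, j))) / ((k : ℝ) + 1)) atTop (nhds (1 / 2)) ∧
      Tendsto (fun k : ℕ => (∑ j ∈ Finset.range (k + 1), quant 1 (p.2 (e, j))) / ((k : ℝ) + 1)) atTop (nhds (7 / 12)) :=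
    Measure.quasiMeasurePreserving_snd.ae h
  filter_upwards [h2] with p hp
  funext e
  unfold est
  have hobs : ∀ j, obs p.1 p.2 (e, j) = quant (bit (p.1 e)) (p.2 (e, j)) := fun j => rfl
  simp only [hobs]
  cases hx : p.1 e with
  | false =>
    have hl := (hp e).1.limsup_eq
    have hb : bit false = 0 := by simp [bit]
    rw [hb, hl]
    simp only [decide_eq_false_iff_not, not_lt]
    norm_num
  | true =>
    have hl := (hp e).2.limsup_eq
    have hb : bit true = 1 := by simp [bit]
    rw [hb, hl]
    simp only [decide_eq_true_eq]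
    norm_num

end Crest.Agent.Lib.SRF
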