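/- Row 168, Mod FIX: the deterministic contraction. Fixed points of `y ↦ quant (A y i) (U i)` are the limit of
the Picard iteration. Only uses `Windows.lip`. -/
import Crest.Agent.Lib.SRF.Obs

set_option autoImplicit false

namespace Crest.Agent.Lib.SRF

open MeasureTheory Set Filter
open scoped Classical

variable {E : Type*}

private theorem clamp_bdd_above (a : ℕ → ℝ) :
    IsBoundedUnder (· ≤ ·) atTop (fun n => clamp01 (a n)) :=
  isBoundedUnder_of ⟨1, fun n => (clamp01_mem (a n)).2⟩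

private theorem clamp_bdd_below (a : ℕ → ℝ) :
    IsBoundedUnder (· ≥ ·) atTop (fun n => clamp01 (a n)) :=
  isBoundedUnder_of ⟨0, fun n => (clamp01_mem (a n)).1⟩

theorem filterA_mem (m : E → ℕ → (E → ℝ) → ℝ) (θ : E → ℝ) (y : E × ℕ → ℝ) (i : E × ℕ) :
    filterA m θ y i ∈ Icc (0 : ℝ) 1 := by
  unfold filterA
  constructor
  · exact le_limsup_of_frequently_le
      (Frequently.of_forall fun n => (clamp01_mem _).1) (clamp_bdd_above _)
  · exact limsup_le_of_le (clamp_bdd_below _).isCoboundedUnder_le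
      (Eventually.of_forall fun n => (clamp01_mem _).2)

/-- Sup-norm Lipschitz bound of the posterior mean, for all `y`, `y'` (no almost sure statement). -/
theorem filterA_lip {ν : Measure (E → Bool)} {W : E → ℕ → Finset E} {m : E → ℕ → (E → ℝ) → ℝ}
    (hW : Windows ν W m) (θ : E → ℝ) (y y' : E × ℕ → ℝ) (i : E × ℕ) (r : ℝ)
    (hr : ∀ f, |hPast θ y i f - hPast θ y' i f| ≤ r) :
    |filterA m θ y i - filterA m θ y' i| ≤ r / 2 := by
  have key : ∀ n, |clamp01 (m i.1 n (hPast θ y i)) - clamp01 (m i.1 n (hPast θ y' i))| ≤ r / 2 :=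
    fun n => (clamp01_lip _ _).trans (hW.lip i.1 n _ _ r fun f _ => hr f)
  have one_side : ∀ a b : ℕ → ℝ, (∀ n, |clamp01 (a n) - clamp01 (b n)| ≤ r / 2) →
      limsup (fun n => clamp01 (a n)) atTop ≤ limsup (fun n => clamp01 (b n)) atTop + r / 2 := by
    intro a b hab
    rw [← limsup_add_const atTop (fun n => clamp01 (b n)) (r / 2) (clamp_bdd_above _)
      (clamp_bdd_below _).isCoboundedUnder_le]
    refine limsup_le_limsup (Eventually.of_forall fun n => ?_) (clamp_bdd_below _).isCoboundedUnder_le ?_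
    · have := abs_le.1 (hab n)
      simp only
      linarith [this.2]
    · have hb := fun n => (clamp01_mem (b n)).2
      exact isBoundedUnder_of ⟨1 + r / 2, fun n => by
        simpa using add_le_add_left (hb n) (r / 2)⟩
  have h1 := one_side _ _ key
  have h2 := one_side _ _ (fun n => by rw [abs_sub_comm]; exact key n)
  unfold filterA
  rw [abs_le]
  constructor <;> linarith

private theorem picard_mem (m : E → ℕ → (E → ℝ) → ℝ) (θ : E → ℝ) (U : E × ℕ → ℝ)
    (hU : ∀ i, U i ∈ Icc (0 : ℝ) 1) (t : ℕ) (i : E × ℕ) : picard m θ U t i ∈ Icc (0 : ℝ) 1 := by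
  cases t with
  | zero =>
    simp only [picard]
    norm_num
  | succ t =>
    simp only [picard]
    exact quant_mem (filterA_mem _ _ _ _) (hU i)

private theorem sum_pow_two_le (k : ℕ) :
    ∑ j ∈ Finset.range (k + 1), (2 : ℝ) ^ j ≤ 2 ^ (k + 1) := by
  induction k with
  | zero => norm_num
  | succ k ih =>
    rw [Finset.sum_range_succ, pow_succ (2 : ℝ) (k + 1)]
    have : (0 : ℝ) ≤ 2 ^ (k + 1) := by positivity
    linarith

/-- The main estimate: `|iota (picard t i) - iota (y i)| ≤ 2 * 2^k * (1/2)^t` for `i = (e, k)`. -/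
private theorem picard_iota_bound {ν : Measure (E → Bool)} {W : E → ℕ → Finset E}
    {m : E → ℕ → (E → ℝ) → ℝ} (hW : Windows ν W m) (θ : E → ℝ) (U y : E × ℕ → ℝ)
    (hU : ∀ i, U i ∈ Icc (0 : ℝ) 1) (hy : ∀ i, y i ∈ Icc (0 : ℝ) 1)
    (hfix : ∀ i, y i = quant (filterA m θ y i) (U i)) (t : ℕ) :
    ∀ i : E × ℕ, |iota (picard m θ U t i) - iota (y i)| ≤ 2 * 2 ^ i.2 * (1 / 2) ^ t := by
  induction t with
  | zero =>
    intro i
    have h1 : |iota (picard m θ U 0 i)| ≤ 1 := iota_abs_le (picard_mem m θ U hU 0 i)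
    have h2 : |iota (y i)| ≤ 1 := iota_abs_le (hy i)
    have h3 : |iota (picard m θ U 0 i) - iota (y i)| ≤ 2 := by
      rw [abs_le] at h1 h2 ⊢
      constructor <;> linarith [h1.1, h1.2, h2.1, h2.2]
    have h4 : (1 : ℝ) ≤ 2 ^ i.2 := one_le_pow₀ (by norm_num)
    simp only [pow_zero, mul_one]
    linarith
  | succ t ih =>
    intro i
    have hA := filterA_mem m θ (picard m θ U t) i
    have hA' := filterA_mem m θ y i
    have hr : ∀ f, |hPast θ (picard m θ U t) i f - hPast θ y i f| ≤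
        2 * 2 ^ (i.2 + 1) * (1 / 2) ^ t := by
      intro f
      unfold hPast
      rw [← Finset.sum_sub_distrib]
      refine (Finset.abs_sum_le_sum_abs _ _).trans ?_
      have hterm : ∀ j ∈ Finset.range (i.2 + 1),
          |(if before θ (f, j) i then iota (picard m θ U t (f, j)) else 0) -
              (if before θ (f, j) i then iota (y (f, j)) else 0)| ≤
            2 * (2 : ℝ) ^ j * (1 / 2) ^ t := by
        intro j _
        split_ifs
        · exact ih (f, j)
        · simp only [sub_self, abs_zero]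
          positivity
      refine (Finset.sum_le_sum hterm).trans ?_
      have hs : ∑ j ∈ Finset.range (i.2 + 1), (2 * (2 : ℝ) ^ j * (1 / 2) ^ t) =
          (2 * (∑ j ∈ Finset.range (i.2 + 1), (2 : ℝ) ^ j)) * (1 / 2) ^ t := by
        rw [Finset.mul_sum, Finset.sum_mul]
      rw [hs]
      have := sum_pow_two_le i.2
      have hpos : (0 : ℝ) ≤ (1 / 2) ^ t := by positivity
      gcongr
    have h1 := filterA_lip hW θ (picard m θ U t) y i _ hr
    have h2 := quant_lip hA hA' (hU i)
    have hq1 : picard m θ U (t + 1) i = quant (filterA m θ (picard m θ U t) i) (U i) := by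
      simp only [picard]
    have hq2 : picard m θ U (t + 1) i ∈ Icc (0 : ℝ) 1 := picard_mem m θ U hU _ i
    have h3 := iota_lip hq2 (hy i)
    have hd : |picard m θ U (t + 1) i - y i| ≤ (2 * 2 ^ (i.2 + 1) * (1 / 2) ^ t / 2) / 4 := by
      rw [hq1, hfix i]
      refine h2.trans ?_
      linarith [h1]
    have hE : (2 : ℝ) * 2 ^ i.2 * (1 / 2) ^ (t + 1) = (2 * 2 ^ (i.2 + 1) * (1 / 2) ^ t / 2) / 4 * 2 := by
      rw [pow_succ (2 : ℝ) i.2, pow_succ (1 / 2 : ℝ) t]
      ring
    rw [hE]
    linarith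

/-- The fixed point is the Picard limit: `|iota (picard t i) - iota (y i)| ≤ 2 * 2^k * 2^(-t)` for `i=(e,k)`, by
induction on `t`: sum over rounds `j ≤ k` gives `|hPast ...| ≤ 2 * 2^(k+1) * 2^(-t)`; `filterA_lip`, `quant_lip`,
`iota_lip` give the factor `1/4`. -/
theorem solve_eq_of_fixed {ν : Measure (E → Bool)} {W : E → ℕ → Finset E} {m : E → ℕ → (E → ℝ) → ℝ}
    (hW : Windows ν W m) (θ : E → ℝ) (U y : E × ℕ → ℝ)
    (hU : ∀ i, U i ∈ Icc (0 : ℝ) 1) (hy : ∀ i, y i ∈ Icc (0 : ℝ) 1)
    (hfix : ∀ i, y i = quant (filterA m θ y i) (U i)) :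
    solve m θ U = y := by
  funext i
  have hlim : Tendsto (fun t => picard m θ U t i) atTop (nhds (y i)) := by
    rw [tendsto_iff_dist_tendsto_zero]
    have hgeom : Tendsto (fun t : ℕ => (3 / 2 : ℝ) * (2 * 2 ^ i.2 * (1 / 2) ^ t)) atTop (nhds 0) := by
      have := (tendsto_pow_atTop_nhds_zero_of_lt_one (r := (1 / 2 : ℝ)) (by norm_num) (by norm_num))
      simpa using (this.const_mul (2 * 2 ^ i.2)).const_mul (3 / 2 : ℝ)
    refine squeeze_zero (fun t => dist_nonneg) (fun t => ?_) hgeom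
    rw [Real.dist_eq]
    refine (iota_inv_lip (picard_mem m θ U hU t i) (hy i)).trans ?_
    have := picard_iota_bound hW θ U y hU hy hfix t i
    gcongr
  exact hlim.limsup_eq

end Crest.Agent.Lib.SRF
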