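/- Row 168, Mod INN: the innovations are iid uniform. -/
import Crest.Agent.Lib.SRF.Channel
import Crest.Agent.Lib.SRF.Fixed

set_option autoImplicit false

namespace Crest.Agent.Lib.SRF

open MeasureTheory Set Filter
open scoped Classical

variable {E : Type*}

/-- `filterA` and `inn` are functions of the observations before the index. -/
theorem filterA_dep (m : E → ℕ → (E → ℝ) → ℝ) (θ : E → ℝ) (i : E × ℕ) (y y' : E × ℕ → ℝ)
    (h : ∀ j, before θ j i → y j = y' j) : filterA m θ y i = filterA m θ y' i := by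
  unfold filterA
  have : hPast θ y i = hPast θ y' i := by
    funext f
    unfold hPast
    refine Finset.sum_congr rfl fun j _ => ?_
    by_cases hb : before θ (f, j) i
    · simp only [hb, if_true]
      rw [h _ hb]
    · simp only [hb, if_false]
  rw [this]

theorem measurable_filterA_y (m : E → ℕ → (E → ℝ) → ℝ) (hm : ∀ e n, Measurable (m e n)) (θ : E → ℝ) (i : E × ℕ) :
    Measurable (fun y : E × ℕ → ℝ => filterA m θ y i) := by
  unfold filterA
  refine Measurable.limsup fun n => ?_
  exact measurable_clamp01.comp ((hm i.1 n).comp (measurable_hPast' θ i))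

/-- the innovation as a function of the observations -/
noncomputable def innY (m : E → ℕ → (E → ℝ) → ℝ) (θ : E → ℝ) (y : E × ℕ → ℝ) (i : E × ℕ) : unitInterval :=
  Set.projIcc (0 : ℝ) 1 zero_le_one (cdfG (filterA m θ y i) (y i))

theorem inn_eq_innY (m : E → ℕ → (E → ℝ) → ℝ) (θ : E → ℝ) (p : JSp E) (i : E × ℕ) :
    inn m θ p i = innY m θ (obs p.1 p.2) i := rfl

theorem measurable_innY (m : E → ℕ → (E → ℝ) → ℝ) (hm : ∀ e n, Measurable (m e n)) (θ : E → ℝ) (i : E × ℕ) :
    Measurable (fun y : E × ℕ → ℝ => innY m θ y i) := by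
  unfold innY
  have h3 : Measurable (fun y : E × ℕ → ℝ => cdfG (filterA m θ y i) (y i)) :=
    measurable_cdfG.comp ((measurable_filterA_y m hm θ i).prodMk (measurable_pi_apply i))
  exact (continuous_projIcc.measurable).comp h3

theorem measurable_inn (m : E → ℕ → (E → ℝ) → ℝ) (hm : ∀ e n, Measurable (m e n)) (θ : E → ℝ) :
    Measurable (inn (E := E) m θ) :=
  measurable_pi_lambda _ fun i => (measurable_innY m hm θ i).comp measurable_obs

theorem before_trans {θ : E → ℝ} {a b c : E × ℕ} (h1 : before θ a b) (h2 : before θ b c) : before θ a c := by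
  unfold before at *
  rcases h1 with h1 | ⟨h1, h1'⟩ <;> rcases h2 with h2 | ⟨h2, h2'⟩
  · left; omega
  · left; omega
  · left; omega
  · right; exact ⟨h1.trans h2, h1'.trans h2'⟩

theorem before_irrefl (θ : E → ℝ) (a : E × ℕ) : ¬ before θ a a := by
  unfold before
  rintro (h | ⟨_, h⟩)
  · exact lt_irrefl _ h
  · exact lt_irrefl _ h

theorem innY_dep (m : E → ℕ → (E → ℝ) → ℝ) (θ : E → ℝ) (i : E × ℕ) (y y' : E × ℕ → ℝ)
    (h : ∀ j, before θ j i → y j = y' j) (j : E × ℕ) (hj : before θ j i) : innY m θ y j = innY m θ y' j := by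
  unfold innY
  rw [filterA_dep m θ j y y' (fun l hl => h l (before_trans hl hj)), h j hj]

/-! ### The one-index computation -/

/-- indicator of a measurable set of `[0,1]`, as a function on the reals -/
noncomputable def psiT (t : Set unitInterval) (u : ℝ) : ℝ :=
  t.indicator (fun _ => (1 : ℝ)) (Set.projIcc (0 : ℝ) 1 zero_le_one u)

theorem measurable_psiT {t : Set unitInterval} (ht : MeasurableSet t) : Measurable (psiT t) :=
  (measurable_const.indicator ht).comp continuous_projIcc.measurable

theorem psiT_bdd (t : Set unitInterval) (u : ℝ) : |psiT t u| ≤ 1 := by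
  unfold psiT Set.indicator
  split_ifs <;> simp

theorem psiT_coe (t : Set unitInterval) (a : unitInterval) :
    psiT t (a : ℝ) = t.indicator (fun _ => (1 : ℝ)) a := by
  unfold psiT
  rw [Set.projIcc_val]

theorem integral_psiT {t : Set unitInterval} (ht : MeasurableSet t) :
    ∫ w : unitInterval, psiT t (w : ℝ) = (volume t).toReal := by
  simp_rw [psiT_coe]
  rw [integral_indicator_const _ ht]
  simp [Measure.real]

/-- integrated `ψ ∘ G_A`, no weight -/
noncomputable def H0 (t : Set unitInterval) (A : ℝ) : ℝ := ∫ w : unitInterval, psiT t (cdfG A (w : ℝ))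

/-- integrated `ψ ∘ G_A`, weight `w + 1/2` -/
noncomputable def H1 (t : Set unitInterval) (A : ℝ) : ℝ :=
  ∫ w : unitInterval, psiT t (cdfG A (w : ℝ)) * ((w : ℝ) + 1 / 2)

theorem measurable_H0 {t : Set unitInterval} (ht : MeasurableSet t) : Measurable (H0 t) := by
  unfold H0
  have : Measurable (Function.uncurry fun (A : ℝ) (w : unitInterval) => psiT t (cdfG A (w : ℝ))) :=
    (measurable_psiT ht).comp (measurable_cdfG.comp
      (measurable_fst.prodMk (measurable_subtype_coe.comp measurable_snd)))
  exact (this.stronglyMeasurable.integral_prod_right).measurable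

theorem measurable_H1 {t : Set unitInterval} (ht : MeasurableSet t) : Measurable (H1 t) := by
  unfold H1
  have : Measurable (Function.uncurry fun (A : ℝ) (w : unitInterval) =>
      psiT t (cdfG A (w : ℝ)) * ((w : ℝ) + 1 / 2)) :=
    ((measurable_psiT ht).comp (measurable_cdfG.comp
      (measurable_fst.prodMk (measurable_subtype_coe.comp measurable_snd)))).mul
      ((measurable_subtype_coe.comp measurable_snd).add_const _)
  exact (this.stronglyMeasurable.integral_prod_right).measurable

theorem abs_H0_le (t : Set unitInterval) (A : ℝ) : |H0 t A| ≤ 1 := by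
  unfold H0
  rw [← Real.norm_eq_abs]
  refine (norm_integral_le_of_norm_le_const (C := 1) (Eventually.of_forall fun w => ?_)).trans ?_
  · simpa using psiT_bdd t _
  · simp

theorem abs_H1_le (t : Set unitInterval) (A : ℝ) : |H1 t A| ≤ 2 := by
  unfold H1
  rw [← Real.norm_eq_abs]
  refine (norm_integral_le_of_norm_le_const (C := 2) (Eventually.of_forall fun w => ?_)).trans ?_
  · have h1 := psiT_bdd t (cdfG A (w : ℝ))
    have h2 : |(w : ℝ) + 1 / 2| ≤ 2 := by
      have := w.2.1
      have := w.2.2
      rw [abs_le]; constructor <;> linarith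
    rw [Real.norm_eq_abs, abs_mul]
    calc _ ≤ 1 * 2 := mul_le_mul h1 h2 (abs_nonneg _) zero_le_one
      _ = 2 := by norm_num
  · simp

theorem integral_quant_H {t : Set unitInterval} (ht : MeasurableSet t) (x : Bool) (A : ℝ) :
    ∫ b : unitInterval, psiT t (cdfG A (quant (bit x) (b : ℝ)))
      = H0 t A + bit x * (H1 t A - H0 t A) := by
  have hψ : Measurable (fun u : ℝ => psiT t (cdfG A u)) :=
    (measurable_psiT ht).comp (measurable_cdfG.comp (measurable_const.prodMk measurable_id))
  have := integral_quant_rho x hψ ⟨1, fun _ => psiT_bdd t _⟩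
  rw [this]
  cases x
  · simp [bit, H0]
  · simp [bit, H1]

theorem mix_H {t : Set unitInterval} (ht : MeasurableSet t) {A : ℝ} (hA : A ∈ Icc (0 : ℝ) 1) :
    H0 t A + A * (H1 t A - H0 t A) = (volume t).toReal := by
  have := integral_mix hA (measurable_psiT ht) ⟨1, fun _ => psiT_bdd t _⟩
  rw [integral_psiT ht] at this
  unfold H0 H1
  linarith

theorem obs_update_ne (X : E → Bool) (w : E × ℕ → unitInterval) (a : E × ℕ) (b : unitInterval) (j : E × ℕ)
    (hj : j ≠ a) : obs X (Function.update w a b) j = obs X w j := by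
  unfold obs
  rw [Function.update_of_ne hj]

/-- Integrating out the noise of the last index. -/
theorem step_inn [Countable E] {ν : Measure (E → Bool)} [IsProbabilityMeasure ν] {W : E → ℕ → Finset E}
    {m : E → ℕ → (E → ℝ) → ℝ} (hW : Windows ν W m) (θ : E → ℝ) (a : E × ℕ)
    {t : Set unitInterval} (ht : MeasurableSet t)
    {Ψ : (E × ℕ → ℝ) → ℝ} (hΨ : Measurable Ψ) (hb : ∃ C, ∀ y, |Ψ y| ≤ C)
    (hdep : ∀ y y' : E × ℕ → ℝ, (∀ j, before θ j a → y j = y' j) → Ψ y = Ψ y') :
    ∫ p, Ψ (obs p.1 p.2) * psiT t (cdfG (filterA m θ (obs p.1 p.2) a) (obs p.1 p.2 a)) ∂(jointP ν)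
      = (∫ p, Ψ (obs p.1 p.2) ∂(jointP ν)) * (volume t).toReal := by
  have hm : ∀ e n, Measurable (m e n) := fun e n => by
    have : m e n = tiltMean (mass ν (W e n)) (W e n) e := funext fun h => hW.mean_eq e n h
    rw [this]
    exact measurable_tiltMean _ _ _
  obtain ⟨C, hC⟩ := hb
  have hC0 : 0 ≤ C := (abs_nonneg _).trans (hC 0)
  have hA := measurable_filterA_y m hm θ a
  let Ψ' : (E × ℕ → ℝ) → ℝ := fun y => Ψ y * (H1 t (filterA m θ y a) - H0 t (filterA m θ y a))
  have hΨ' : Measurable Ψ' :=
    hΨ.mul (((measurable_H1 ht).comp hA).sub ((measurable_H0 ht).comp hA))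
  have hΨ'b : ∃ C, ∀ y, |Ψ' y| ≤ C := ⟨C * 3, fun y => by
    simp only [Ψ', abs_mul]
    refine mul_le_mul (hC y) ?_ (abs_nonneg _) hC0
    refine (abs_sub _ _).trans ?_
    have := abs_H0_le t (filterA m θ y a)
    have := abs_H1_le t (filterA m θ y a)
    linarith⟩
  have hΨ'dep : ∀ y y' : E × ℕ → ℝ, (∀ j, before θ j a → y j = y' j) → Ψ' y = Ψ' y' := by
    intro y y' h
    simp only [Ψ']
    rw [hdep y y' h, filterA_dep m θ a y y' h]
  have hpast := past_identity hW θ a hΨ' hΨ'b hΨ'dep
  -- the integrand `F`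
  have hF : Measurable (fun y : E × ℕ → ℝ => Ψ y * psiT t (cdfG (filterA m θ y a) (y a))) :=
    hΨ.mul ((measurable_psiT ht).comp (measurable_cdfG.comp (hA.prodMk (measurable_pi_apply a))))
  have hFb : ∀ y : E × ℕ → ℝ, |Ψ y * psiT t (cdfG (filterA m θ y a) (y a))| ≤ C := fun y => by
    rw [abs_mul]
    calc _ ≤ C * 1 := mul_le_mul (hC y) (psiT_bdd _ _) (abs_nonneg _) hC0
      _ = C := mul_one C
  -- the integrated integrand `G`
  let G : JSp E → ℝ := fun p => Ψ (obs p.1 p.2) * H0 t (filterA m θ (obs p.1 p.2) a)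
      + bit (p.1 a.1) * Ψ' (obs p.1 p.2)
  have hG1 : Measurable (fun y : E × ℕ → ℝ => Ψ y * H0 t (filterA m θ y a)) :=
    hΨ.mul ((measurable_H0 ht).comp hA)
  have hG1b : ∀ y : E × ℕ → ℝ, |Ψ y * H0 t (filterA m θ y a)| ≤ C := fun y => by
    rw [abs_mul]
    calc _ ≤ C * 1 := mul_le_mul (hC y) (abs_H0_le _ _) (abs_nonneg _) hC0
      _ = C := mul_one C
  have hbit : Measurable (fun p : JSp E => bit (p.1 a.1)) :=
    measurable_bit.comp ((measurable_pi_apply a.1).comp measurable_fst)
  have hbitb : ∀ p : JSp E, |bit (p.1 a.1)| ≤ 1 := fun p => by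
    unfold bit; split_ifs <;> simp
  have hG1i : Integrable (fun p : JSp E => Ψ (obs p.1 p.2) * H0 t (filterA m θ (obs p.1 p.2) a)) (jointP ν) :=
    integrable_of_bdd (hG1.comp measurable_obs) ⟨C, fun p => hG1b _⟩
  obtain ⟨C', hC'⟩ := hΨ'b
  have hC'0 : 0 ≤ C' := (abs_nonneg _).trans (hC' 0)
  have hG2i : Integrable (fun p : JSp E => bit (p.1 a.1) * Ψ' (obs p.1 p.2)) (jointP ν) := by
    refine integrable_of_bdd (hbit.mul (hΨ'.comp measurable_obs)) ⟨1 * C', fun p => ?_⟩
    rw [abs_mul]
    exact mul_le_mul (hbitb p) (hC' _) (abs_nonneg _) zero_le_one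
  have hG2i' : Integrable (fun p : JSp E => filterA m θ (obs p.1 p.2) a * Ψ' (obs p.1 p.2)) (jointP ν) := by
    refine integrable_of_bdd ((hA.comp measurable_obs).mul (hΨ'.comp measurable_obs)) ⟨1 * C', fun p => ?_⟩
    rw [abs_mul]
    have h1 := filterA_mem m θ (obs p.1 p.2) a
    have h2 : |filterA m θ (obs p.1 p.2) a| ≤ 1 := by
      rw [abs_of_nonneg h1.1]; exact h1.2
    exact mul_le_mul h2 (hC' _) (abs_nonneg _) zero_le_one
  have hGi : Integrable G (jointP ν) := hG1i.add hG2i
  have hFi : Integrable (fun p : JSp E => Ψ (obs p.1 p.2) *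
      psiT t (cdfG (filterA m θ (obs p.1 p.2) a) (obs p.1 p.2 a))) (jointP ν) :=
    integrable_of_bdd (hF.comp measurable_obs) ⟨C, fun p => hFb _⟩
  -- the inner integral
  have hinner : ∀ X : E → Bool,
      ∫ w, Ψ (obs X w) * psiT t (cdfG (filterA m θ (obs X w) a) (obs X w a)) ∂(unif (E × ℕ))
        = ∫ w, G (X, w) ∂(unif (E × ℕ)) := by
    intro X
    have hobs : Measurable (fun w : E × ℕ → unitInterval => obs X w) :=
      measurable_obs.comp (measurable_const.prodMk measurable_id)
    have hFw : Measurable (fun w : E × ℕ → unitInterval =>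
        Ψ (obs X w) * psiT t (cdfG (filterA m θ (obs X w) a) (obs X w a))) := hF.comp hobs
    rw [integral_update a hFw ⟨C, fun w => hFb _⟩]
    refine integral_congr_ae (Eventually.of_forall fun w => ?_)
    have hagree : ∀ (b : unitInterval) (j : E × ℕ), before θ j a →
        obs X (Function.update w a b) j = obs X w j := fun b j hj =>
      obs_update_ne X w a b j (fun h => before_irrefl θ a (h ▸ hj))
    have h1 : ∀ b : unitInterval,
        Ψ (obs X (Function.update w a b)) * psiT t (cdfG (filterA m θ (obs X (Function.update w a b)) a)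
          (obs X (Function.update w a b) a))
        = Ψ (obs X w) * psiT t (cdfG (filterA m θ (obs X w) a) (quant (bit (X a.1)) (b : ℝ))) := by
      intro b
      rw [hdep _ _ (hagree b), filterA_dep m θ a _ _ (hagree b)]
      simp [obs]
    simp_rw [h1]
    rw [integral_const_mul, integral_quant_H ht]
    simp only [G, Ψ']
    ring
  have hmain : ∫ p, Ψ (obs p.1 p.2) * psiT t (cdfG (filterA m θ (obs p.1 p.2) a) (obs p.1 p.2 a)) ∂(jointP ν)
      = ∫ p, G p ∂(jointP ν) := by
    unfold jointP at hFi hGi ⊢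
    rw [integral_prod _ hFi, integral_prod _ hGi]
    exact integral_congr_ae (Eventually.of_forall hinner)
  rw [hmain]
  simp only [G]
  rw [integral_add hG1i hG2i, hpast, ← integral_add hG1i hG2i', ← integral_mul_const]
  refine integral_congr_ae (Eventually.of_forall fun p => ?_)
  have := mix_H ht (filterA_mem m θ (obs p.1 p.2) a)
  simp only [Ψ']
  rw [← this]
  ring

/-- The finite product formula. -/
theorem integral_prod_inn [Countable E] {ν : Measure (E → Bool)} [IsProbabilityMeasure ν] {W : E → ℕ → Finset E}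
    {m : E → ℕ → (E → ℝ) → ℝ} (hW : Windows ν W m) (θ : E → ℝ) (hθ : Function.Injective θ)
    (t : E × ℕ → Set unitInterval) (ht : ∀ i, MeasurableSet (t i)) (J : Finset (E × ℕ)) :
    ∫ p, ∏ j ∈ J, (t j).indicator (fun _ => (1 : ℝ)) (inn m θ p j) ∂(jointP ν) = ∏ j ∈ J, (volume (t j)).toReal := by
  have hm : ∀ e n, Measurable (m e n) := fun e n => by
    have : m e n = tiltMean (mass ν (W e n)) (W e n) e := funext fun h => hW.mean_eq e n h
    rw [this]
    exact measurable_tiltMean _ _ _
  induction J using Finset.induction_on_max_value (fun j : E × ℕ => toLex (j.2, θ j.1)) with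
  | empty => simp
  | insert a s has hmax ih =>
    have hbefore : ∀ x ∈ s, before θ x a := by
      intro x hx
      have h := hmax x hx
      rw [Prod.Lex.toLex_le_toLex] at h
      rcases h with h | ⟨h1, h2⟩
      · exact Or.inl h
      · refine Or.inr ⟨h1, lt_of_le_of_ne h2 fun h3 => ?_⟩
        have : x = a := Prod.ext (hθ h3) h1
        exact has (this ▸ hx)
    let Ψ : (E × ℕ → ℝ) → ℝ := fun y => ∏ j ∈ s, (t j).indicator (fun _ => (1 : ℝ)) (innY m θ y j)
    have hΨ : Measurable Ψ := Finset.measurable_prod _ fun j _ =>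
      (measurable_const.indicator (ht j)).comp (measurable_innY m hm θ j)
    have hΨb : ∃ C, ∀ y, |Ψ y| ≤ C := ⟨1, fun y => by
      simp only [Ψ, Finset.abs_prod]
      refine Finset.prod_le_one (fun _ _ => abs_nonneg _) fun j _ => ?_
      unfold Set.indicator
      split_ifs <;> simp⟩
    have hΨdep : ∀ y y' : E × ℕ → ℝ, (∀ j, before θ j a → y j = y' j) → Ψ y = Ψ y' := by
      intro y y' h
      simp only [Ψ]
      refine Finset.prod_congr rfl fun j hj => ?_
      rw [innY_dep m θ a y y' h j (hbefore j hj)]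
    have key := step_inn hW θ a (ht a) hΨ hΨb hΨdep
    have e1 : ∀ p : JSp E, ∏ j ∈ insert a s, (t j).indicator (fun _ => (1 : ℝ)) (inn m θ p j)
        = Ψ (obs p.1 p.2) * psiT (t a) (cdfG (filterA m θ (obs p.1 p.2) a) (obs p.1 p.2 a)) := by
      intro p
      rw [Finset.prod_insert has, mul_comm]
      rfl
    simp_rw [e1]
    rw [key, Finset.prod_insert has, mul_comm]
    congr 1

/-- The innovations are iid uniform. Use `Measure.eq_infinitePi`: for a finite set `J` of indices and measurable
`t j`, induct on `J` removing the last index `i` of `J` in the total order `before θ` (`θ` injective). The product of the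
indicators over `J \ {i}` is a function `Ψ` of the observations before `i`. Integrate out `w i` (independent, see
`measurePreserving_update_infinitePi` in `Crest.Agent.Lib.IsingFIID.Labels`), then use `past_identity` with
`Ψ * H₁ (A)` and `Ψ * H₀ (A)`, `H₀ a = ∫ 1_t (G a (quant 0 w)) dw`, `H₁ a = ∫ 1_t (G a (quant 1 w)) dw`, and finally
`integral_mix`: `(1-a) H₀ a + a H₁ a = vol t`. -/
theorem map_inn [Countable E] {ν : Measure (E → Bool)} [IsProbabilityMeasure ν] {W : E → ℕ → Finset E}
    {m : E → ℕ → (E → ℝ) → ℝ} (hW : Windows ν W m) (θ : E → ℝ) (hθ : Function.Injective θ) :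
    (jointP ν).map (inn m θ) = unif (E × ℕ) := by
  have hm : ∀ e n, Measurable (m e n) := fun e n => by
    have : m e n = tiltMean (mass ν (W e n)) (W e n) e := funext fun h => hW.mean_eq e n h
    rw [this]
    exact measurable_tiltMean _ _ _
  have hinn := measurable_inn m hm θ
  refine Measure.eq_infinitePi _ fun s t ht => ?_
  have hpi : MeasurableSet ((s : Set (E × ℕ)).pi t) :=
    MeasurableSet.pi s.countable_toSet fun i _ => ht i
  rw [Measure.map_apply hinn hpi]
  have hs := hinn hpi
  have hI := integral_prod_inn hW θ hθ t ht s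
  have e1 : ∀ p : JSp E, ∏ j ∈ s, (t j).indicator (fun _ => (1 : ℝ)) (inn m θ p j)
      = (inn m θ ⁻¹' ((s : Set (E × ℕ)).pi t)).indicator (fun _ => (1 : ℝ)) p := by
    intro p
    by_cases hp : p ∈ inn m θ ⁻¹' ((s : Set (E × ℕ)).pi t)
    · rw [Set.indicator_of_mem hp]
      refine Finset.prod_eq_one fun j hj => ?_
      exact Set.indicator_of_mem (hp j hj) _
    · rw [Set.indicator_of_notMem hp]
      simp only [Set.mem_preimage, Set.mem_pi, Finset.mem_coe, not_forall] at hp
      obtain ⟨j, hj, hj'⟩ := hp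
      exact Finset.prod_eq_zero hj (Set.indicator_of_notMem hj' _)
  simp_rw [e1] at hI
  rw [integral_indicator_const _ hs] at hI
  simp only [smul_eq_mul, mul_one, Measure.real] at hI
  have hfin : ∏ j ∈ s, volume (t j) ≠ ⊤ :=
    ENNReal.prod_ne_top fun j _ => measure_ne_top _ _
  rw [← ENNReal.toReal_eq_toReal_iff' (measure_ne_top _ _) hfin, hI, ENNReal.toReal_prod]

end Crest.Agent.Lib.SRF
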