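/- Row 168, Mod CORE: law of the sampler. -/
import Crest.Agent.Lib.SRF.Fixed
import Crest.Agent.Lib.SRF.Innov
import Crest.Agent.Lib.SRF.Est

set_option autoImplicit false

namespace Crest.Agent.Lib.SRF

open MeasureTheory Set Filter

variable {E : Type*}

/-- the sampler as a function of the noise -/
noncomputable def sampler (m : E → ℕ → (E → ℝ) → ℝ) (θ : E → ℝ) (U : E × ℕ → unitInterval) : E → Bool :=
  est (solve m θ (fun i => (U i : ℝ)))

/-- Measurability of `m` in the tilt follows from `Windows`. -/
theorem Windows.measurable_m {ν : Measure (E → Bool)} {W : E → ℕ → Finset E} {m : E → ℕ → (E → ℝ) → ℝ}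
    (hW : Windows ν W m) (e : E) (n : ℕ) : Measurable (m e n) := by
  have : m e n = tiltMean (mass ν (W e n)) (W e n) e := funext fun h => hW.mean_eq e n h
  rw [this]; exact measurable_tiltMean _ _ _

theorem measurable_sampler (m : E → ℕ → (E → ℝ) → ℝ) (hm : ∀ e n, Measurable (m e n)) (θ : E → ℝ) :
    Measurable (sampler m θ) := by
  refine measurable_pi_lambda _ fun e => ?_
  have h1 : Measurable (fun U : E × ℕ → unitInterval => solve m θ (fun i => (U i : ℝ))) := by
    refine measurable_pi_lambda _ fun i => ?_
    have := measurable_solve (P := Unit) (fun _ => m)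
      (fun e n => (hm e n).comp measurable_snd) i
    have h2 : Measurable (fun U : E × ℕ → unitInterval =>
        (((), θ, fun i => ((U i : unitInterval) : ℝ)) : Unit × (E → ℝ) × (E × ℕ → ℝ))) := by
      refine measurable_const.prodMk (measurable_const.prodMk ?_)
      exact measurable_pi_lambda _ fun j => measurable_subtype_coe.comp (measurable_pi_apply j)
    have h3 := this.comp h2
    exact h3
  have h4 := (measurable_est e).comp h1
  exact h4

/-- **Law of the sampler**: for every injective order `θ`, the sampler pushes iid uniform noise to `ν`. -/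
theorem core_law [Countable E] {ν : Measure (E → Bool)} [IsProbabilityMeasure ν] {W : E → ℕ → Finset E}
    {m : E → ℕ → (E → ℝ) → ℝ} (hW : Windows ν W m) (θ : E → ℝ) (hθ : Function.Injective θ) :
    (unif (E × ℕ)).map (sampler m θ) = ν := by
  have hm := hW.measurable_m
  have hs := measurable_sampler m hm θ
  have hi := measurable_inn m hm θ
  rw [← map_inn hW θ hθ, Measure.map_map hs hi]
  -- on the joint space, the sampler of the innovation is the observation estimator
  have key : ∀ p : (E → Bool) × (E × ℕ → unitInterval),
      sampler m θ (inn m θ p) = est (obs p.1 p.2) := by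
    intro p
    have hy : ∀ i, obs p.1 p.2 i ∈ Icc (0 : ℝ) 1 := fun i => by
      refine quant_mem ?_ (p.2 i).2
      by_cases h : p.1 i.1 <;> simp [bit, h]
    have hA : ∀ i, filterA m θ (obs p.1 p.2) i ∈ Icc (0 : ℝ) 1 := fun i => filterA_mem _ _ _ _
    have hinn : ∀ i, ((inn m θ p i : unitInterval) : ℝ) =
        cdfG (filterA m θ (obs p.1 p.2) i) (obs p.1 p.2 i) := fun i => by
      unfold inn
      rw [Set.projIcc_of_mem _ (cdfG_mem (hA i) (hy i))]
    have hfix : solve m θ (fun i => (inn m θ p i : ℝ)) = obs p.1 p.2 := by
      refine solve_eq_of_fixed hW θ _ _ (fun i => (inn m θ p i).2) hy fun i => ?_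
      rw [hinn i, quant_cdfG (hA i) (hy i)]
    unfold sampler
    rw [hfix]
  have : (sampler m θ ∘ inn m θ) = fun p => est (obs p.1 p.2) := funext key
  rw [this]
  have hae := est_obs (E := E) ν
  have h3 : (jointP ν).map (fun p => est (obs p.1 p.2)) = (jointP ν).map Prod.fst :=
    Measure.map_congr hae
  rw [h3]
  unfold jointP
  simp

end Crest.Agent.Lib.SRF
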