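/- Row 168, S0255 assembly: one uniform label per site decodes to an order label and a noise field. -/
import Crest.Agent.Lib.SRF.Defs
import Crest.Agent.Lib.IsingFIID.Labels

set_option autoImplicit false

namespace Crest.Agent.Lib.SRF

open MeasureTheory

namespace Decode

variable {A : Type*}

/-- split a field on `A × Option ℕ` into its `none` part and its `some` part -/
def splitOpt (x : A × Option ℕ → unitInterval) : (A → unitInterval) × (A × ℕ → unitInterval) :=
  (fun a => x (a, none), fun i => x (i.1, some i.2))

/-- inverse of `splitOpt` -/
def mergeOpt (p : (A → unitInterval) × (A × ℕ → unitInterval)) : A × Option ℕ → unitInterval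
  | (a, none) => p.1 a
  | (a, some k) => p.2 (a, k)

theorem measurable_splitOpt : Measurable (splitOpt (A := A)) := by
  refine Measurable.prodMk ?_ ?_
  · exact measurable_pi_lambda _ fun a => measurable_pi_apply _
  · exact measurable_pi_lambda _ fun i => measurable_pi_apply _

theorem measurable_mergeOpt : Measurable (mergeOpt (A := A)) := by
  refine measurable_pi_lambda _ ?_
  rintro ⟨a, _ | k⟩
  · exact (measurable_pi_apply a).comp measurable_fst
  · exact (measurable_pi_apply (a, k)).comp measurable_snd

theorem map_mergeOpt :
    ((unif A).prod (unif (A × ℕ))).map (mergeOpt (A := A)) = unif (A × Option ℕ) := by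
  classical
  refine Measure.eq_infinitePi _ fun s t ht => ?_
  have hpi : MeasurableSet ((s : Set (A × Option ℕ)).pi t) :=
    MeasurableSet.pi s.countable_toSet fun i _ => ht i
  let f₁ : A → A × Option ℕ := fun a => (a, none)
  let f₂ : A × ℕ → A × Option ℕ := fun i => (i.1, some i.2)
  have hf₁ : Function.Injective f₁ := fun a b h => (Prod.ext_iff.1 h).1
  have hf₂ : Function.Injective f₂ := fun a b h => by
    have h1 := Prod.ext_iff.1 h
    exact Prod.ext h1.1 (Option.some.inj h1.2)
  let s₁ : Finset A := s.preimage f₁ hf₁.injOn
  let s₂ : Finset (A × ℕ) := s.preimage f₂ hf₂.injOn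
  have hset : (mergeOpt (A := A)) ⁻¹' ((s : Set (A × Option ℕ)).pi t)
      = ((s₁ : Set A).pi fun a => t (f₁ a)) ×ˢ ((s₂ : Set (A × ℕ)).pi fun i => t (f₂ i)) := by
    ext ⟨a, b⟩
    simp only [Set.mem_preimage, Set.mem_pi, Finset.mem_coe, Set.mem_prod]
    constructor
    · intro h
      refine ⟨fun x hx => h (f₁ x) (Finset.mem_preimage.1 hx), fun i hi => ?_⟩
      exact h (f₂ i) (Finset.mem_preimage.1 hi)
    · rintro ⟨h1, h2⟩ ⟨x, _ | k⟩ hp
      · exact h1 x (Finset.mem_preimage (f := f₁).2 hp)
      · exact h2 (x, k) (Finset.mem_preimage (f := f₂).2 hp)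
  rw [Measure.map_apply measurable_mergeOpt hpi, hset, Measure.prod_prod]
  unfold unif
  rw [Measure.infinitePi_pi _ (fun i _ => ht _), Measure.infinitePi_pi _ (fun i _ => ht _)]
  have e1 := Finset.prod_preimage' f₁ s hf₁.injOn (fun p => (volume : Measure unitInterval) (t p))
  have e2 := Finset.prod_preimage' f₂ s hf₂.injOn (fun p => (volume : Measure unitInterval) (t p))
  rw [e1, e2]
  rw [← Finset.prod_filter_mul_prod_filter_not s (fun p => p ∈ Set.range f₁)]
  congr 1
  refine Finset.prod_congr ?_ fun _ _ => rfl
  ext ⟨a, o⟩
  simp only [Finset.mem_filter, Set.mem_range]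
  refine and_congr_right fun _ => ?_
  cases o with
  | none =>
    constructor
    · rintro ⟨i, hi⟩
      simp [f₂] at hi
    · intro h
      exact absurd ⟨a, rfl⟩ h
  | some k =>
    constructor
    · rintro - ⟨a', ha'⟩
      simp [f₁] at ha'
    · rintro -
      exact ⟨(a, k), rfl⟩

theorem measurePreserving_splitOpt :
    MeasurePreserving (splitOpt (A := A)) (unif (A × Option ℕ)) ((unif A).prod (unif (A × ℕ))) := by
  refine ⟨measurable_splitOpt, ?_⟩
  rw [← map_mergeOpt, Measure.map_map measurable_splitOpt measurable_mergeOpt]
  have : splitOpt (A := A) ∘ mergeOpt (A := A) = id := rfl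
  rw [this, Measure.map_id]

theorem exists_dec : ∃ d : unitInterval → (Option ℕ → unitInterval),
    MeasurePreserving d (volume : Measure unitInterval) (unif (Option ℕ)) := by
  obtain ⟨f, hf, hm⟩ := Measure.exists_measurable_map_eq (Y := Option ℕ → unitInterval)
    (unif (Option ℕ))
  exact ⟨f, hf, hm⟩

/-- one uniform label decodes to countably many independent uniform labels -/
noncomputable def dec : unitInterval → (Option ℕ → unitInterval) := exists_dec.choose

theorem measurePreserving_dec :
    MeasurePreserving dec (volume : Measure unitInterval) (unif (Option ℕ)) :=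
  exists_dec.choose_spec

/-- decoding of a label field to an order and a noise field -/
noncomputable def decode (u : A → unitInterval) : (A → unitInterval) × (A × ℕ → unitInterval) :=
  splitOpt fun p => dec (u p.1) p.2

theorem measurePreserving_flat :
    MeasurePreserving (fun (u : A → unitInterval) (p : A × Option ℕ) => dec (u p.1) p.2)
      (unif A) (unif (A × Option ℕ)) := by
  have hd := measurePreserving_dec
  have hm1 : Measurable (fun (u : A → unitInterval) (v : A) => dec (u v)) :=
    measurable_pi_lambda _ fun v => hd.measurable.comp (measurable_pi_apply v)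
  have h1 : (unif A).map (fun (u : A → unitInterval) (v : A) => dec (u v))
      = Measure.infinitePi (fun _ : A => unif (Option ℕ)) := by
    have := Measure.infinitePi_map_pi (fun _ : A => (volume : Measure unitInterval))
      (f := fun _ => dec) (fun _ => hd.measurable)
    simp only [hd.map_eq] at this
    exact this
  have h2 := Measure.infinitePi_map_curry_symm
    (fun (_ : A) (_ : Option ℕ) => (volume : Measure unitInterval))
  have hcomp : (fun (u : A → unitInterval) (p : A × Option ℕ) => dec (u p.1) p.2)
      = (MeasurableEquiv.curry A (Option ℕ) unitInterval).symm ∘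
        (fun (u : A → unitInterval) (v : A) => dec (u v)) := rfl
  have hm2 := (MeasurableEquiv.curry A (Option ℕ) unitInterval).symm.measurable
  refine ⟨by rw [hcomp]; exact hm2.comp hm1, ?_⟩
  rw [hcomp, ← Measure.map_map hm2 hm1, h1]
  exact h2

theorem measurePreserving_decode :
    MeasurePreserving (decode (A := A)) (unif A) ((unif A).prod (unif (A × ℕ))) :=
  measurePreserving_splitOpt.comp measurePreserving_flat

theorem measurable_decode : Measurable (decode (A := A)) :=
  measurePreserving_decode.measurable

/-- a.s. the labels are distinct -/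
theorem ae_ne {v w : A} (hne : v ≠ w) : ∀ᵐ a ∂(unif A), a v ≠ a w := by
  classical
  have hmp : MeasurePreserving (fun p : (A → unitInterval) × unitInterval => Function.update p.1 v p.2)
      ((unif A).prod (volume : Measure unitInterval)) (unif A) :=
    Crest.Agent.Lib.IsingFIID.measurePreserving_update_infinitePi (ι := A)
      (volume : Measure unitInterval) v
  have hset : MeasurableSet {a : A → unitInterval | a v = a w} :=
    measurableSet_eq_fun (measurable_pi_apply v) (measurable_pi_apply w)
  have h1 : (unif A) {a : A → unitInterval | a v = a w} = 0 := by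
    rw [← hmp.map_eq, Measure.map_apply hmp.measurable hset]
    have hset' : MeasurableSet ((fun p : (A → unitInterval) × unitInterval =>
        Function.update p.1 v p.2) ⁻¹' {a : A → unitInterval | a v = a w}) := hmp.measurable hset
    rw [Measure.measure_prod_null hset']
    refine Filter.Eventually.of_forall fun x => ?_
    have : Prod.mk x ⁻¹' ((fun p : (A → unitInterval) × unitInterval =>
        Function.update p.1 v p.2) ⁻¹' {a : A → unitInterval | a v = a w}) ⊆ {x w} := by
      intro c hc
      simp only [Set.mem_preimage, Set.mem_ofPred_eq, Function.update_self,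
        Function.update_of_ne hne.symm] at hc
      exact hc
    exact measure_mono_null this (measure_singleton _)
  rw [ae_iff]
  simpa using h1

theorem ae_injective [Countable A] :
    ∀ᵐ a ∂(unif A), Function.Injective (fun v => ((a v : unitInterval) : ℝ)) := by
  have h : ∀ᵐ a ∂(unif A), ∀ v w : A, v ≠ w → a v ≠ a w := by
    rw [ae_all_iff]; intro v
    rw [ae_all_iff]; intro w
    by_cases hne : v = w
    · exact Filter.Eventually.of_forall fun a h => absurd hne h
    · filter_upwards [ae_ne hne] with a ha _ using ha
  filter_upwards [h] with a ha v w hvw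
  by_contra hne
  exact ha v w hne (Subtype.ext hvw)

end Decode

end Crest.Agent.Lib.SRF
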