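/- Row 168, S0255 assembly: windows on a countable group; left shift equivariance of the tilted means. -/
import Crest.Agent.Lib.SRF.Bridge
import Crest.Prelude.Def_StronglyRayleigh

set_option autoImplicit false

namespace Crest.Agent.Lib.SRF

open MeasureTheory Crest.ProbabilityR.StronglyRayleigh
open scoped Classical

namespace GroupWin

variable {Γ : Type*} [Group Γ]

/-- base windows -/
noncomputable def W0 (f : ℕ → Γ) (n : ℕ) : Finset Γ := (Finset.range (n + 1)).image f

/-- the windows around `e`: left translates of the base windows -/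
noncomputable def gW (f : ℕ → Γ) (e : Γ) (n : ℕ) : Finset Γ := (W0 f n).image (e * ·)

/-- the tilted mean of `e` in its `n`-th window -/
noncomputable def gm (ν : Measure (Γ → Bool)) (f : ℕ → Γ) (e : Γ) (n : ℕ) (h : Γ → ℝ) : ℝ :=
  tiltMean (mass ν (gW f e n)) (gW f e n) e h

theorem gW_nonempty (f : ℕ → Γ) (e : Γ) (n : ℕ) : (gW f e n).Nonempty := by
  refine ⟨e * f 0, Finset.mem_image.2 ⟨f 0, Finset.mem_image.2 ⟨0, ?_, rfl⟩, rfl⟩⟩
  simp

theorem gWindows {ν : Measure (Γ → Bool)} [IsProbabilityMeasure ν] (hsr : IsStronglyRayleigh ν)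
    {f : ℕ → Γ} (hf : Function.Surjective f) : Windows ν (gW f) (gm ν f) where
  mono := by
    intro e n n' hn
    refine Finset.image_subset_image (Finset.image_subset_image ?_)
    intro k hk
    simp only [Finset.mem_range] at hk ⊢
    omega
  exhaust := by
    intro e x
    obtain ⟨k, hk⟩ := hf (e⁻¹ * x)
    refine ⟨k, Finset.mem_image.2 ⟨f k, Finset.mem_image.2 ⟨k, ?_, rfl⟩, ?_⟩⟩
    · simp
    · simp [hk]
  mean_eq := fun _ _ _ => rfl
  lip := fun e n h h' r hr => mean_lip_of_SR hsr (gW_nonempty f e n) e h h' r hr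

theorem measurableSet_cylW (W S : Finset Γ) :
    MeasurableSet {ω : Γ → Bool | ∀ i ∈ W, (ω i = true ↔ i ∈ S)} :=
  Crest.Agent.SRF.measurableSet_cyl W S

/-- The mass of a translated cylinder. -/
theorem mass_image {ν : Measure (Γ → Bool)} (hinv : IsShiftInvariant ν) (g : Γ) (W S : Finset Γ) :
    mass ν (W.image (g * ·)) (S.image (g * ·)) = mass ν W S := by
  unfold mass
  have hset : {ω : Γ → Bool | ∀ i ∈ W.image (g * ·), (ω i = true ↔ i ∈ S.image (g * ·))}
      = leftShift g⁻¹ ⁻¹' {ω : Γ → Bool | ∀ i ∈ W, (ω i = true ↔ i ∈ S)} := by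
    ext ω
    simp only [Set.mem_ofPred_eq, Set.mem_preimage, leftShift, inv_inv]
    constructor
    · intro h i hi
      have := h (g * i) (Finset.mem_image_of_mem _ hi)
      simpa using this
    · intro h i hi
      obtain ⟨j, hj, rfl⟩ := Finset.mem_image.1 hi
      have := h j hj
      simpa using this
  rw [hset, hinv g⁻¹ _ (measurableSet_cylW W S)]

theorem sum_image_shift (g : Γ) (S : Finset Γ) (h : Γ → ℝ) :
    ∑ x ∈ S.image (g * ·), h (g⁻¹ * x) = ∑ x ∈ S, h x := by
  rw [Finset.sum_image (fun a _ b _ hab => mul_left_cancel hab)]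
  simp

theorem image_image_inv (g : Γ) (S : Finset Γ) : (S.image (g * ·)).image (g⁻¹ * ·) = S := by
  ext x; simp

theorem image_inv_image (g : Γ) (S : Finset Γ) : (S.image (g⁻¹ * ·)).image (g * ·) = S := by
  ext x; simp

/-- Reindexing the subsets of a translated window. -/
theorem sum_powerset_image (g : Γ) (W : Finset Γ) (F : Finset Γ → ℝ) :
    ∑ S ∈ (W.image (g * ·)).powerset, F S = ∑ S ∈ W.powerset, F (S.image (g * ·)) := by
  symm
  refine Finset.sum_nbij' (fun S => S.image (g * ·)) (fun S => S.image (g⁻¹ * ·)) ?_ ?_ ?_ ?_ ?_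
  · intro S hS
    simp only [Finset.mem_powerset] at hS ⊢
    exact Finset.image_subset_image hS
  · intro S hS
    simp only [Finset.mem_powerset] at hS ⊢
    have := Finset.image_subset_image (f := (g⁻¹ * ·)) hS
    rwa [image_image_inv] at this
  · intro S _
    exact image_image_inv g S
  · intro S _
    exact image_inv_image g S
  · intro S _
    rfl

theorem tiltMean_image {ν : Measure (Γ → Bool)} (hinv : IsShiftInvariant ν) (g : Γ) (W : Finset Γ)
    (e : Γ) (h : Γ → ℝ) :
    tiltMean (mass ν (W.image (g * ·))) (W.image (g * ·)) (g * e) (fun x => h (g⁻¹ * x))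
      = tiltMean (mass ν W) W e h := by
  unfold tiltMean tiltN tiltZ
  rw [sum_powerset_image, sum_powerset_image]
  congr 1
  · refine Finset.sum_congr rfl fun S _ => ?_
    have hmem : (g * e ∈ S.image (g * ·)) ↔ e ∈ S := by simp
    simp only [hmem, mass_image hinv, sum_image_shift]
  · refine Finset.sum_congr rfl fun S _ => ?_
    simp only [mass_image hinv, sum_image_shift]

theorem gW_mul (f : ℕ → Γ) (g e : Γ) (n : ℕ) : gW f (g * e) n = (gW f e n).image (g * ·) := by
  unfold gW
  rw [Finset.image_image]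
  refine Finset.image_congr ?_
  intro x _
  simp [mul_assoc]

/-- **Equivariance of the mean functional.** -/
theorem gm_equiv {ν : Measure (Γ → Bool)} (hinv : IsShiftInvariant ν) (f : ℕ → Γ) (g e : Γ) (n : ℕ)
    (h : Γ → ℝ) : gm ν f ((Equiv.mulLeft g) e) n (h ∘ (Equiv.mulLeft g).symm) = gm ν f e n h := by
  unfold gm
  have h1 : (Equiv.mulLeft g) e = g * e := rfl
  have h2 : h ∘ (Equiv.mulLeft g).symm = fun x => h (g⁻¹ * x) := rfl
  rw [h1, h2, gW_mul]
  exact tiltMean_image hinv g _ e h

end GroupWin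

end Crest.Agent.Lib.SRF
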