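/- Row 168, S0254: iid noise on all pairs of vertices, read from vertex labels, equivariantly
(design: helper71, finding 625). For a connected locally finite graph, and for every injective order `π` of the
vertices, the pair `s(u,v)` reads the stream of its `π`-smaller endpoint at the rank of the other endpoint for
the order by (distance, `π`). -/
import Crest.Agent.Lib.SRF.Decode
import Crest.Prelude.Def_GraphTables

set_option autoImplicit false

namespace Crest.Agent.Lib.SRF

open MeasureTheory
open scoped Classical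

namespace PN

/-! ### Balls and ranks -/

section Graph

variable {G : SimpleGraph ℕ} {u v w : ℕ} {n : ℕ}

/-- neighbours (empty at vertices of infinite degree) -/
noncomputable def nb (G : SimpleGraph ℕ) (v : ℕ) : Finset ℕ :=
  if h : (G.neighborSet v).Finite then h.toFinset else ∅

theorem mem_nb : w ∈ nb G v ↔ (G.neighborSet v).Finite ∧ G.Adj v w := by
  unfold nb
  split_ifs with h
  · simp [h]
  · simp [h]

/-- balls around `u` -/
noncomputable def ball (G : SimpleGraph ℕ) (u : ℕ) : ℕ → Finset ℕ
  | 0 => {u}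
  | n + 1 => ball G u n ∪ (ball G u n).biUnion (nb G)

theorem mem_ball_zero : w ∈ ball G u 0 ↔ w = u := by
  simp [ball]

theorem mem_ball_succ : w ∈ ball G u (n + 1) ↔ w ∈ ball G u n ∨ ∃ y ∈ ball G u n, w ∈ nb G y := by
  simp [ball]

theorem ball_mono : Monotone (ball G u) :=
  monotone_nat_of_le_succ fun _ => Finset.subset_union_left

/-- distance (`0` if unreachable) -/
noncomputable def dG (G : SimpleGraph ℕ) (u v : ℕ) : ℕ := sInf {n | v ∈ ball G u n}

theorem mem_ball_dG (h : ∃ n, v ∈ ball G u n) : v ∈ ball G u (dG G u v) :=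
  Nat.sInf_mem (s := {n | v ∈ ball G u n}) h

theorem dG_le (h : v ∈ ball G u n) : dG G u v ≤ n := Nat.sInf_le h

theorem exists_mem_ball (hG : G.Connected) (hf : ∀ v, (G.neighborSet v).Finite) (u v : ℕ) :
    ∃ n, v ∈ ball G u n := by
  have hr := hG.preconnected u v
  rw [SimpleGraph.reachable_iff_reflTransGen] at hr
  induction hr with
  | refl => exact ⟨0, mem_ball_zero.2 rfl⟩
  | tail _ hadj ih =>
    obtain ⟨n, hn⟩ := ih
    exact ⟨n + 1, mem_ball_succ.2 (Or.inr ⟨_, hn, mem_nb.2 ⟨hf _, hadj⟩⟩)⟩

/-- `w` is before `v` for the order by (distance from `u`, `π`) -/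
def bef (G : SimpleGraph ℕ) (π : ℕ → unitInterval) (u v w : ℕ) : Prop :=
  dG G u w < dG G u v ∨ (dG G u w = dG G u v ∧ π w < π v)

/-- the vertices before `v` -/
noncomputable def rkSet (G : SimpleGraph ℕ) (π : ℕ → unitInterval) (u v : ℕ) : Finset ℕ :=
  (ball G u (dG G u v)).filter (bef G π u v)

/-- rank of `v` for the order by (distance from `u`, `π`) -/
noncomputable def rk (G : SimpleGraph ℕ) (π : ℕ → unitInterval) (u v : ℕ) : ℕ := (rkSet G π u v).card

theorem mem_rkSet (hG : G.Connected) (hf : ∀ v, (G.neighborSet v).Finite) {π : ℕ → unitInterval} :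
    w ∈ rkSet G π u v ↔ bef G π u v w := by
  unfold rkSet
  rw [Finset.mem_filter]
  refine ⟨fun h => h.2, fun h => ⟨?_, h⟩⟩
  have h1 : dG G u w ≤ dG G u v := by
    rcases h with h | h
    · exact h.le
    · exact h.1.le
  exact ball_mono h1 (mem_ball_dG (exists_mem_ball hG hf u w))

theorem rk_lt_of_bef (hG : G.Connected) (hf : ∀ v, (G.neighborSet v).Finite) {π : ℕ → unitInterval}
    {u v v' : ℕ} (h : bef G π u v' v) : rk G π u v < rk G π u v' := by
  refine Finset.card_lt_card ⟨fun w hw => ?_, fun hsub => ?_⟩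
  · rw [mem_rkSet hG hf] at hw ⊢
    unfold bef at h hw ⊢
    rcases h with h | ⟨h1, h2⟩ <;> rcases hw with hw | ⟨h3, h4⟩
    · exact Or.inl (hw.trans h)
    · exact Or.inl (h3.trans_lt h)
    · exact Or.inl (hw.trans_eq h1)
    · exact Or.inr ⟨h3.trans h1, h4.trans h2⟩
  · have : v ∈ rkSet G π u v := hsub ((mem_rkSet hG hf).2 h)
    rw [mem_rkSet hG hf] at this
    unfold bef at this
    rcases this with h | ⟨_, h⟩ <;> exact lt_irrefl _ h

/-- **The rank is injective.** -/
theorem rk_injective (hG : G.Connected) (hf : ∀ v, (G.neighborSet v).Finite) {π : ℕ → unitInterval}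
    (hπ : Function.Injective π) (u : ℕ) : Function.Injective (rk G π u) := by
  intro v v' h
  by_contra hne
  have hb : bef G π u v' v ∨ bef G π u v v' := by
    unfold bef
    rcases lt_trichotomy (dG G u v) (dG G u v') with h1 | h1 | h1
    · exact Or.inl (Or.inl h1)
    · rcases lt_or_gt_of_ne (fun h2 => hne (hπ h2)) with h2 | h2
      · exact Or.inl (Or.inr ⟨h1, h2⟩)
      · exact Or.inr (Or.inr ⟨h1.symm, h2⟩)
    · exact Or.inr (Or.inl h1)
  rcases hb with hb | hb
  · exact absurd h (rk_lt_of_bef hG hf hb).ne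
  · exact absurd h.symm (rk_lt_of_bef hG hf hb).ne

end Graph

/-! ### The noise on pairs -/

/-- The noise of the ordered pair `(u,v)`: the smaller endpoint's stream, read at the rank of the other endpoint. -/
noncomputable def auxNoise (G : SimpleGraph ℕ) (π : ℕ → unitInterval) (s : ℕ × ℕ → unitInterval)
    (o : Option ℕ) (u v : ℕ) : unitInterval :=
  if π u < π v then s (u, Encodable.encode (rk G π u v, o))
  else if π v < π u then s (v, Encodable.encode (rk G π v u, o))
  else if u = v then s (u, Encodable.encode (rk G π u u, o))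
  else 0

theorem auxNoise_comm (G : SimpleGraph ℕ) (π : ℕ → unitInterval) (s : ℕ × ℕ → unitInterval)
    (o : Option ℕ) (u v : ℕ) : auxNoise G π s o u v = auxNoise G π s o v u := by
  unfold auxNoise
  by_cases h1 : π u < π v
  · have h2 : ¬ π v < π u := not_lt.2 h1.le
    simp [h1, h2]
  · by_cases h2 : π v < π u
    · simp [h1, h2]
    · by_cases h3 : u = v
      · subst h3; rfl
      · have h4 : ¬ v = u := fun h => h3 h.symm
        simp [h1, h2, h3, h4]

/-- The noise of an unordered pair. -/
noncomputable def pairNoise (G : SimpleGraph ℕ) (π : ℕ → unitInterval) (s : ℕ × ℕ → unitInterval)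
    (e : Sym2 ℕ) (o : Option ℕ) : unitInterval :=
  Sym2.lift ⟨auxNoise G π s o, auxNoise_comm G π s o⟩ e

theorem pairNoise_mk (G : SimpleGraph ℕ) (π : ℕ → unitInterval) (s : ℕ × ℕ → unitInterval)
    (u v : ℕ) (o : Option ℕ) : pairNoise G π s s(u, v) o = auxNoise G π s o u v := rfl

/-- order labels of pairs, read from vertex labels -/
noncomputable def thetaN (G : SimpleGraph ℕ) (x : ℕ → unitInterval) (e : Sym2 ℕ) : unitInterval :=
  pairNoise G (Decode.decode x).1 (Decode.decode x).2 e none

/-- noise of pairs, read from vertex labels -/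
noncomputable def noiseN (G : SimpleGraph ℕ) (x : ℕ → unitInterval) (i : Sym2 ℕ × ℕ) : unitInterval :=
  pairNoise G (Decode.decode x).1 (Decode.decode x).2 i.1 (some i.2)

/-! ### Equivariance -/

section Equivariance

variable (σ : Equiv.Perm ℕ) (G : SimpleGraph ℕ)

theorem mem_nb_comap {a w : ℕ} : w ∈ nb (G.comap σ) a ↔ σ w ∈ nb G (σ a) := by
  rw [mem_nb, mem_nb]
  have h1 : (G.comap σ).neighborSet a = σ ⁻¹' (G.neighborSet (σ a)) := rfl
  have h2 : ((G.comap σ).neighborSet a).Finite ↔ (G.neighborSet (σ a)).Finite := by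
    rw [h1]
    exact ⟨fun h => by
      have := h.image σ
      rwa [Set.image_preimage_eq _ σ.surjective] at this,
      fun h => h.preimage σ.injective.injOn⟩
  rw [h2]
  rfl

theorem mem_ball_comap {a w n : ℕ} : w ∈ ball (G.comap σ) a n ↔ σ w ∈ ball G (σ a) n := by
  induction n generalizing w with
  | zero =>
    rw [mem_ball_zero, mem_ball_zero]
    exact σ.injective.eq_iff.symm
  | succ n ih =>
    rw [mem_ball_succ, mem_ball_succ, ih]
    refine or_congr Iff.rfl ⟨?_, ?_⟩
    · rintro ⟨y, hy, hwy⟩
      exact ⟨σ y, ih.1 hy, (mem_nb_comap σ G).1 hwy⟩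
    · rintro ⟨y, hy, hwy⟩
      refine ⟨σ.symm y, ih.2 (by simpa using hy), (mem_nb_comap σ G).2 (by simpa using hwy)⟩

theorem dG_comap (a b : ℕ) : dG (G.comap σ) a b = dG G (σ a) (σ b) := by
  unfold dG
  congr 1
  ext n
  exact mem_ball_comap σ G

theorem mem_rkSet_comap (π : ℕ → unitInterval) {a b w : ℕ} :
    w ∈ rkSet (G.comap σ) (π ∘ σ) a b ↔ σ w ∈ rkSet G π (σ a) (σ b) := by
  unfold rkSet
  rw [Finset.mem_filter, Finset.mem_filter, mem_ball_comap, dG_comap]
  refine and_congr Iff.rfl ?_
  unfold bef
  simp only [dG_comap, Function.comp]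

theorem rk_comap (π : ℕ → unitInterval) (a b : ℕ) :
    rk (G.comap σ) (π ∘ σ) a b = rk G π (σ a) (σ b) := by
  unfold rk
  refine Finset.card_bij (fun w _ => σ w) (fun w hw => (mem_rkSet_comap σ G π).1 hw)
    (fun _ _ _ _ h => σ.injective h) (fun y hy => ⟨σ.symm y, ?_, by simp⟩)
  rw [mem_rkSet_comap]
  simpa using hy

theorem auxNoise_comap (π : ℕ → unitInterval) (s : ℕ × ℕ → unitInterval) (o : Option ℕ) (a b : ℕ) :
    auxNoise (G.comap σ) (π ∘ σ) (fun i => s (σ i.1, i.2)) o a b
      = auxNoise G π s o (σ a) (σ b) := by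
  unfold auxNoise
  simp only [Function.comp, rk_comap, σ.injective.eq_iff]

theorem pairNoise_comap (π : ℕ → unitInterval) (s : ℕ × ℕ → unitInterval) (e : Sym2 ℕ)
    (o : Option ℕ) :
    pairNoise (G.comap σ) (π ∘ σ) (fun i => s (σ i.1, i.2)) e o
      = pairNoise G π s (Sym2.map σ e) o := by
  induction e using Sym2.ind with
  | _ a b =>
    rw [Sym2.map_mk, pairNoise_mk, pairNoise_mk]
    exact auxNoise_comap σ G π s o a b

theorem decode_comp (x : ℕ → unitInterval) :
    Decode.decode (x ∘ σ) = ((Decode.decode x).1 ∘ σ, fun i => (Decode.decode x).2 (σ i.1, i.2)) :=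
  rfl

/-- **Equivariance of the order labels.** -/
theorem thetaN_comap (x : ℕ → unitInterval) (e : Sym2 ℕ) :
    thetaN (G.comap σ) (x ∘ σ) e = thetaN G x (Sym2.map σ e) := by
  unfold thetaN
  rw [decode_comp]
  exact pairNoise_comap σ G (Decode.decode x).1 (Decode.decode x).2 e none

/-- **Equivariance of the noise.** -/
theorem noiseN_comap (x : ℕ → unitInterval) (e : Sym2 ℕ) (k : ℕ) :
    noiseN (G.comap σ) (x ∘ σ) (e, k) = noiseN G x (Sym2.map σ e, k) := by
  unfold noiseN
  rw [decode_comp]
  exact pairNoise_comap σ G (Decode.decode x).1 (Decode.decode x).2 e (some k)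

end Equivariance

/-! ### Measurability -/

section Meas

variable {P : Type*} [MeasurableSpace P]

/-- A family of finite sets: the membership events determine every event. -/
theorem measurableSet_finset_eq {f : P → Finset ℕ} (hf : ∀ w, MeasurableSet {t | w ∈ f t})
    (S₀ : Finset ℕ) : MeasurableSet {t | f t = S₀} := by
  have : {t | f t = S₀} = ⋂ w, {t | w ∈ f t ↔ w ∈ S₀} := by
    ext t
    simp [Finset.ext_iff]
  rw [this]
  refine MeasurableSet.iInter fun w => ?_
  by_cases hw : w ∈ S₀
  · have e1 : {t | w ∈ f t ↔ w ∈ S₀} = {t | w ∈ f t} := by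
      ext t
      simp [hw]
    rw [e1]
    exact hf w
  · have e1 : {t | w ∈ f t ↔ w ∈ S₀} = {t | w ∈ f t}ᶜ := by
      ext t
      simp [hw]
    rw [e1]
    exact (hf w).compl

/-- Every function of a measurable family of finite sets is measurable. -/
theorem measurable_comp_finset {X : Type*} [MeasurableSpace X] {f : P → Finset ℕ}
    (hf : ∀ w, MeasurableSet {t | w ∈ f t}) (g : Finset ℕ → X) : Measurable fun t => g (f t) := by
  intro B _
  have : (fun t => g (f t)) ⁻¹' B = ⋃ S₀ ∈ g ⁻¹' B, {t | f t = S₀} := by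
    ext t
    simp
  rw [this]
  exact MeasurableSet.biUnion (Set.to_countable _) fun S₀ _ => measurableSet_finset_eq hf S₀

variable {G : P → SimpleGraph ℕ} (hG : ∀ v w, MeasurableSet {t | (G t).Adj v w})

include hG

theorem measurableSet_finite_nb (v : ℕ) : MeasurableSet {t | ((G t).neighborSet v).Finite} := by
  have : {t | ((G t).neighborSet v).Finite}
      = ⋃ N : ℕ, ⋂ w : ℕ, {t | N ≤ w → ¬ (G t).Adj v w} := by
    ext t
    simp only [Set.mem_ofPred_eq, Set.mem_iUnion, Set.mem_iInter]
    constructor
    · intro h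
      obtain ⟨M, hM⟩ := h.bddAbove
      refine ⟨M + 1, fun w hw hadj => ?_⟩
      have := hM (show w ∈ (G t).neighborSet v from hadj)
      omega
    · rintro ⟨N, hN⟩
      refine (Set.finite_lt_nat N).subset fun w hw => ?_
      by_contra hlt
      exact hN w (not_lt.1 hlt) hw
  rw [this]
  refine MeasurableSet.iUnion fun N => MeasurableSet.iInter fun w => ?_
  by_cases h : N ≤ w
  · have e1 : {t | N ≤ w → ¬ (G t).Adj v w} = {t | (G t).Adj v w}ᶜ := by
      ext t
      simp [h]
    rw [e1]
    exact (hG v w).compl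
  · have e1 : {t | N ≤ w → ¬ (G t).Adj v w} = Set.univ := by
      ext t
      simp [h]
    rw [e1]
    exact MeasurableSet.univ

theorem measurableSet_mem_nb (v w : ℕ) : MeasurableSet {t | w ∈ nb (G t) v} := by
  have : {t | w ∈ nb (G t) v} = {t | ((G t).neighborSet v).Finite} ∩ {t | (G t).Adj v w} := by
    ext t
    exact mem_nb
  rw [this]
  exact (measurableSet_finite_nb hG v).inter (hG v w)

theorem measurableSet_mem_ball (u n w : ℕ) : MeasurableSet {t | w ∈ ball (G t) u n} := by
  induction n generalizing w with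
  | zero =>
    have : {t | w ∈ ball (G t) u 0} = {t | w = u} := by
      ext t
      exact mem_ball_zero (G := G t)
    rw [this]
    exact MeasurableSet.const _
  | succ n ih =>
    have : {t | w ∈ ball (G t) u (n + 1)}
        = {t | w ∈ ball (G t) u n} ∪ ⋃ y : ℕ, ({t | y ∈ ball (G t) u n} ∩ {t | w ∈ nb (G t) y}) := by
      ext t
      simp only [Set.mem_ofPred_eq, Set.mem_union, Set.mem_iUnion, Set.mem_inter_iff]
      rw [mem_ball_succ]
    rw [this]
    exact (ih w).union (MeasurableSet.iUnion fun y => (ih y).inter (measurableSet_mem_nb hG y w))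

theorem measurable_dG (u v : ℕ) : Measurable fun t => dG (G t) u v := by
  refine measurable_to_countable' fun n => ?_
  have hset : (fun t => dG (G t) u v) ⁻¹' {n}
      = ({t | v ∈ ball (G t) u n} ∩ ⋂ m : ℕ, {t | m < n → v ∉ ball (G t) u m}) ∪
        ({t | n = 0} ∩ ⋂ m : ℕ, {t | v ∉ ball (G t) u m}) := by
    ext t
    simp only [Set.mem_preimage, Set.mem_singleton_iff, Set.mem_union, Set.mem_inter_iff,
      Set.mem_iInter, Set.mem_ofPred_eq]
    by_cases hex : ∃ m, v ∈ ball (G t) u m
    · have h1 := mem_ball_dG hex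
      have h2 : ¬ (n = 0 ∧ ∀ m, v ∉ ball (G t) u m) := by
        rintro ⟨_, h⟩
        obtain ⟨m, hm⟩ := hex
        exact h m hm
      constructor
      · intro h
        subst h
        refine Or.inl ⟨h1, fun m hm hmem => ?_⟩
        exact absurd (dG_le hmem) (not_le.2 hm)
      · rintro (⟨h3, h4⟩ | h)
        · refine le_antisymm (dG_le h3) ?_
          by_contra hlt
          exact h4 _ (not_le.1 hlt) h1
        · exact absurd h h2
    · have hall : ∀ m, v ∉ ball (G t) u m := fun m hm => hex ⟨m, hm⟩
      have hd : dG (G t) u v = 0 := by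
        unfold dG
        have : {n | v ∈ ball (G t) u n} = ∅ := by
          ext m
          simpa using hall m
        rw [this]
        exact Nat.sInf_empty
      rw [hd]
      constructor
      · intro h
        exact Or.inr ⟨h.symm, hall⟩
      · rintro (⟨h3, _⟩ | ⟨h, _⟩)
        · exact absurd h3 (hall n)
        · exact h.symm
  rw [hset]
  refine MeasurableSet.union ((measurableSet_mem_ball hG u n v).inter
    (MeasurableSet.iInter fun m => ?_)) ((MeasurableSet.const _).inter
    (MeasurableSet.iInter fun m => (measurableSet_mem_ball hG u m v).compl))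
  by_cases hm : m < n
  · have e1 : {t | m < n → v ∉ ball (G t) u m} = {t | v ∈ ball (G t) u m}ᶜ := by
      ext t
      simp [hm]
    rw [e1]
    exact (measurableSet_mem_ball hG u m v).compl
  · have e1 : {t | m < n → v ∉ ball (G t) u m} = Set.univ := by
      ext t
      simp [hm]
    rw [e1]
    exact MeasurableSet.univ

theorem measurableSet_mem_ball_dG (u v w : ℕ) :
    MeasurableSet {t | w ∈ ball (G t) u (dG (G t) u v)} := by
  have : {t | w ∈ ball (G t) u (dG (G t) u v)}
      = ⋃ n : ℕ, ((fun t => dG (G t) u v) ⁻¹' {n} ∩ {t | w ∈ ball (G t) u n}) := by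
    ext t
    simp
  rw [this]
  exact MeasurableSet.iUnion fun n =>
    (measurable_dG hG u v (measurableSet_singleton n)).inter (measurableSet_mem_ball hG u n w)

variable {π : P → ℕ → unitInterval} (hπ : ∀ v, Measurable fun t => π t v)

include hπ

theorem measurableSet_mem_rkSet (u v w : ℕ) : MeasurableSet {t | w ∈ rkSet (G t) (π t) u v} := by
  have hd := measurable_dG hG u v
  have hd' := measurable_dG hG u w
  have : {t | w ∈ rkSet (G t) (π t) u v} = {t | w ∈ ball (G t) u (dG (G t) u v)} ∩
      ({t | dG (G t) u w < dG (G t) u v} ∪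
        ({t | dG (G t) u w = dG (G t) u v} ∩ {t | π t w < π t v})) := by
    ext t
    simp only [rkSet, Finset.mem_filter, Set.mem_ofPred_eq, Set.mem_inter_iff, Set.mem_union, bef]
  rw [this]
  exact (measurableSet_mem_ball_dG hG u v w).inter
    ((measurableSet_lt hd' hd).union ((measurableSet_eq_fun hd' hd).inter
      (measurableSet_lt (hπ w) (hπ v))))

theorem measurable_rk (u v : ℕ) : Measurable fun t => rk (G t) (π t) u v :=
  measurable_comp_finset (measurableSet_mem_rkSet hG hπ u v) Finset.card

variable {s : P → ℕ × ℕ → unitInterval} (hs : ∀ i, Measurable fun t => s t i)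

include hs

theorem measurable_read (u : ℕ) (o : Option ℕ) {r : P → ℕ} (hr : Measurable r) :
    Measurable fun t => s t (u, Encodable.encode (r t, o)) := by
  have h : Measurable (fun q : ℕ × P => s q.2 (u, Encodable.encode (q.1, o))) :=
    measurable_from_prod_countable_right fun k => hs (u, Encodable.encode (k, o))
  have h2 := h.comp (hr.prodMk measurable_id)
  exact h2

theorem measurable_auxNoise (o : Option ℕ) (u v : ℕ) :
    Measurable fun t => auxNoise (G t) (π t) (s t) o u v := by
  unfold auxNoise
  refine Measurable.ite (measurableSet_lt (hπ u) (hπ v))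
    (measurable_read hG hπ hs u o (measurable_rk hG hπ u v)) ?_
  refine Measurable.ite (measurableSet_lt (hπ v) (hπ u))
    (measurable_read hG hπ hs v o (measurable_rk hG hπ v u)) ?_
  by_cases h : u = v
  · simp only [h, if_true]
    exact measurable_read hG hπ hs v o (measurable_rk hG hπ v v)
  · simp only [h, if_false]
    exact measurable_const

theorem measurable_pairNoise (e : Sym2 ℕ) (o : Option ℕ) :
    Measurable fun t => pairNoise (G t) (π t) (s t) e o := by
  induction e using Sym2.ind with
  | _ u v => exact measurable_auxNoise hG hπ hs o u v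

end Meas

/-- adjacency events of table graphs -/
theorem measurableSet_adj_table (v w : ℕ) :
    MeasurableSet {A : ℕ → ℕ → Bool | (Crest.ProbabilityR.GraphTables.graphOfTable A).Adj v w} := by
  have : {A : ℕ → ℕ → Bool | (Crest.ProbabilityR.GraphTables.graphOfTable A).Adj v w}
      = {A | v ≠ w} ∩ ({A | A v w = true} ∪ {A | A w v = true}) := by
    ext A
    simp [Crest.ProbabilityR.GraphTables.graphOfTable, SimpleGraph.fromRel_adj]
  rw [this]
  have h1 : ∀ a b : ℕ, MeasurableSet {A : ℕ → ℕ → Bool | A a b = true} := fun a b => by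
    have h2 : Measurable fun A : ℕ → ℕ → Bool => A a b :=
      (measurable_pi_apply b).comp (measurable_pi_apply a)
    exact h2 (measurableSet_singleton true)
  exact (MeasurableSet.const _).inter ((h1 v w).union (h1 w v))

/-- Joint measurability in (table, labels). -/
theorem measurable_thetaN (e : Sym2 ℕ) :
    Measurable fun p : (ℕ → ℕ → Bool) × (ℕ → unitInterval) =>
      thetaN (Crest.ProbabilityR.GraphTables.graphOfTable p.1) p.2 e := by
  have hd := Decode.measurable_decode (A := ℕ)
  refine measurable_pairNoise (G := fun p : (ℕ → ℕ → Bool) × (ℕ → unitInterval) =>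
      Crest.ProbabilityR.GraphTables.graphOfTable p.1)
    (π := fun p => (Decode.decode p.2).1) (s := fun p => (Decode.decode p.2).2) ?_ ?_ ?_ e none
  · exact fun v w => measurable_fst (measurableSet_adj_table v w)
  · exact fun v => (measurable_pi_apply v).comp (measurable_fst.comp (hd.comp measurable_snd))
  · exact fun i => (measurable_pi_apply i).comp (measurable_snd.comp (hd.comp measurable_snd))

/-- Joint measurability in (table, labels). -/
theorem measurable_noiseN (i : Sym2 ℕ × ℕ) :
    Measurable fun p : (ℕ → ℕ → Bool) × (ℕ → unitInterval) =>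
      noiseN (Crest.ProbabilityR.GraphTables.graphOfTable p.1) p.2 i := by
  have hd := Decode.measurable_decode (A := ℕ)
  refine measurable_pairNoise (G := fun p : (ℕ → ℕ → Bool) × (ℕ → unitInterval) =>
      Crest.ProbabilityR.GraphTables.graphOfTable p.1)
    (π := fun p => (Decode.decode p.2).1) (s := fun p => (Decode.decode p.2).2) ?_ ?_ ?_ i.1 (some i.2)
  · exact fun v w => measurable_fst (measurableSet_adj_table v w)
  · exact fun v => (measurable_pi_apply v).comp (measurable_fst.comp (hd.comp measurable_snd))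
  · exact fun i => (measurable_pi_apply i).comp (measurable_snd.comp (hd.comp measurable_snd))

/-! ### The law -/

section Law

variable {G : SimpleGraph ℕ}

/-- the coordinate read by the noise of a pair, for an injective order -/
noncomputable def idx (G : SimpleGraph ℕ) (π : ℕ → unitInterval) (i : Sym2 ℕ × Option ℕ) : ℕ × ℕ :=
  let q := Quot.out i.1
  if π q.1 < π q.2 then (q.1, Encodable.encode (rk G π q.1 q.2, i.2))
  else (q.2, Encodable.encode (rk G π q.2 q.1, i.2))

theorem out_mk (e : Sym2 ℕ) : s((Quot.out e).1, (Quot.out e).2) = e := Quot.out_eq e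

theorem pairNoise_eq_idx {π : ℕ → unitInterval} (hπ : Function.Injective π)
    (s : ℕ × ℕ → unitInterval) (e : Sym2 ℕ) (o : Option ℕ) :
    pairNoise G π s e o = s (idx G π (e, o)) := by
  conv_lhs => rw [← out_mk e]
  rw [pairNoise_mk]
  unfold auxNoise idx
  simp only
  by_cases h1 : π (Quot.out e).1 < π (Quot.out e).2
  · simp [h1]
  · by_cases h2 : π (Quot.out e).2 < π (Quot.out e).1
    · simp [h1, h2]
    · have h3 : (Quot.out e).1 = (Quot.out e).2 := hπ (le_antisymm (not_lt.1 h2) (not_lt.1 h1))
      simp [h3]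

/-- **The coordinates read by different pairs are different.** -/
theorem idx_injective (hG : G.Connected) (hf : ∀ v, (G.neighborSet v).Finite) {π : ℕ → unitInterval}
    (hπ : Function.Injective π) : Function.Injective (idx G π) := by
  have key : ∀ (e : Sym2 ℕ) (o : Option ℕ), ∃ a b : ℕ, s(a, b) = e ∧
      idx G π (e, o) = (a, Encodable.encode (rk G π a b, o)) := by
    intro e o
    unfold idx
    simp only
    by_cases h1 : π (Quot.out e).1 < π (Quot.out e).2
    · exact ⟨_, _, out_mk e, by simp [h1]⟩
    · exact ⟨(Quot.out e).2, (Quot.out e).1, by rw [Sym2.eq_swap]; exact out_mk e, by simp [h1]⟩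
  rintro ⟨e, o⟩ ⟨e', o'⟩ h
  obtain ⟨a, b, rfl, h1⟩ := key e o
  obtain ⟨a', b', rfl, h2⟩ := key e' o'
  rw [h1, h2, Prod.mk.injEq] at h
  obtain ⟨rfl, h3⟩ := h
  have h4 := Encodable.encode_injective h3
  rw [Prod.mk.injEq] at h4
  obtain ⟨h5, rfl⟩ := h4
  have h6 := rk_injective hG hf hπ a h5
  rw [h6]

/-- For a fixed injective order: the pair noise is iid. -/
theorem map_pairNoise (hG : G.Connected) (hf : ∀ v, (G.neighborSet v).Finite) {π : ℕ → unitInterval}
    (hπ : Function.Injective π) :
    (unif (ℕ × ℕ)).map (fun s => Decode.splitOpt fun i : Sym2 ℕ × Option ℕ => pairNoise G π s i.1 i.2)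
      = (unif (Sym2 ℕ)).prod (unif (Sym2 ℕ × ℕ)) := by
  have h1 : (fun s => Decode.splitOpt fun i : Sym2 ℕ × Option ℕ => pairNoise G π s i.1 i.2)
      = Decode.splitOpt ∘ (fun (s : ℕ × ℕ → unitInterval) i => s (idx G π i)) := by
    funext s
    simp only [Function.comp]
    congr 1
    funext i
    exact pairNoise_eq_idx hπ s i.1 i.2
  have hm : Measurable (fun (s : ℕ × ℕ → unitInterval) (i : Sym2 ℕ × Option ℕ) => s (idx G π i)) :=
    measurable_pi_lambda _ fun i => measurable_pi_apply _
  rw [h1, ← Measure.map_map Decode.measurable_splitOpt hm]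
  have h2 : (unif (ℕ × ℕ)).map (fun (s : ℕ × ℕ → unitInterval) (i : Sym2 ℕ × Option ℕ) => s (idx G π i))
      = unif (Sym2 ℕ × Option ℕ) :=
    Measure.map_infinitePi_infinitePi_of_inj (P := fun _ : ℕ × ℕ => (volume : Measure unitInterval))
      (idx_injective hG hf hπ)
  rw [h2]
  exact Decode.measurePreserving_splitOpt.map_eq

/-- the noise as a function of the decoded labels -/
noncomputable def noiseOf (G : SimpleGraph ℕ) (q : (ℕ → unitInterval) × (ℕ × ℕ → unitInterval)) :
    (Sym2 ℕ → unitInterval) × (Sym2 ℕ × ℕ → unitInterval) :=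
  Decode.splitOpt fun i : Sym2 ℕ × Option ℕ => pairNoise G q.1 q.2 i.1 i.2

theorem measurable_noiseOf (G : SimpleGraph ℕ) : Measurable (noiseOf G) := by
  refine Measurable.prodMk ?_ ?_
  · refine measurable_pi_lambda _ fun e => ?_
    exact measurable_pairNoise (G := fun _ => G) (π := Prod.fst) (s := Prod.snd)
      (fun _ _ => MeasurableSet.const _)
      (fun v => (measurable_pi_apply v).comp measurable_fst)
      (fun i => (measurable_pi_apply i).comp measurable_snd) e none
  · refine measurable_pi_lambda _ fun i => ?_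
    exact measurable_pairNoise (G := fun _ => G) (π := Prod.fst) (s := Prod.snd)
      (fun _ _ => MeasurableSet.const _)
      (fun v => (measurable_pi_apply v).comp measurable_fst)
      (fun i => (measurable_pi_apply i).comp measurable_snd) i.1 (some i.2)

theorem measurePreserving_noiseOf (hG : G.Connected) (hf : ∀ v, (G.neighborSet v).Finite) :
    MeasurePreserving (noiseOf G) ((unif ℕ).prod (unif (ℕ × ℕ)))
      ((unif (Sym2 ℕ)).prod (unif (Sym2 ℕ × ℕ))) := by
  refine ⟨measurable_noiseOf G, ?_⟩
  refine Measure.ext fun A hA => ?_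
  rw [Measure.map_apply (measurable_noiseOf G) hA,
    Measure.prod_apply (measurable_noiseOf G hA)]
  have key : ∀ᵐ p ∂(unif ℕ), (unif (ℕ × ℕ)) (Prod.mk p ⁻¹' (noiseOf G ⁻¹' A))
      = ((unif (Sym2 ℕ)).prod (unif (Sym2 ℕ × ℕ))) A := by
    filter_upwards [Decode.ae_injective] with p hp
    have hπ : Function.Injective p := fun a b hab => hp (by simp only [hab])
    have h2 := map_pairNoise hG hf hπ
    have hm : Measurable (fun s => Decode.splitOpt fun i : Sym2 ℕ × Option ℕ =>
        pairNoise G p s i.1 i.2) :=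
      (measurable_noiseOf G).comp (measurable_const.prodMk measurable_id)
    rw [← h2, Measure.map_apply hm hA]
    rfl
  rw [lintegral_congr_ae key]
  simp

/-- **The noise read from the vertex labels is iid**, on a connected locally finite graph. -/
theorem measurePreserving_noise (hG : G.Connected) (hf : ∀ v, (G.neighborSet v).Finite) :
    MeasurePreserving (fun x : ℕ → unitInterval => (thetaN G x, noiseN G x)) (unif ℕ)
      ((unif (Sym2 ℕ)).prod (unif (Sym2 ℕ × ℕ))) :=
  (measurePreserving_noiseOf hG hf).comp Decode.measurePreserving_decode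

end Law

end PN

end Crest.Agent.Lib.SRF
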