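/- Row 168, final assembly of S0254 (and the joint sampler used in S0255): the universal rule. -/
import Crest.Agent.Lib.SRF.Core
import Crest.Agent.Lib.SRF.PairNoise
import Crest.Prelude.Def_SpanningTrees

set_option autoImplicit false

namespace Crest.Agent.Lib.SRF

open MeasureTheory Filter Topology

section Joint

variable {Γ : Type*}

/-- The sampler as a joint function of the order and of the noise. -/
noncomputable def jointS (m : Γ → ℕ → (Γ → ℝ) → ℝ)
    (q : (Γ → unitInterval) × (Γ × ℕ → unitInterval)) : Γ → Bool :=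
  sampler m (fun v => ((q.1 v : unitInterval) : ℝ)) q.2

theorem measurable_jointS (m : Γ → ℕ → (Γ → ℝ) → ℝ) (hm : ∀ e n, Measurable (m e n)) :
    Measurable (jointS m) := by
  refine measurable_pi_lambda _ fun e => ?_
  have h1 : Measurable (fun q : (Γ → unitInterval) × (Γ × ℕ → unitInterval) =>
      solve m (fun v => ((q.1 v : unitInterval) : ℝ)) (fun i => ((q.2 i : unitInterval) : ℝ))) := by
    refine measurable_pi_lambda _ fun i => ?_
    have := measurable_solve (P := Unit) (fun _ => m) (fun e n => (hm e n).comp measurable_snd) i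
    have h2 : Measurable (fun q : (Γ → unitInterval) × (Γ × ℕ → unitInterval) =>
        (((), (fun v => ((q.1 v : unitInterval) : ℝ)), (fun i => ((q.2 i : unitInterval) : ℝ))) :
          Unit × (Γ → ℝ) × (Γ × ℕ → ℝ))) := by
      refine measurable_const.prodMk (Measurable.prodMk ?_ ?_)
      · exact measurable_pi_lambda _ fun j =>
          measurable_subtype_coe.comp ((measurable_pi_apply j).comp measurable_fst)
      · exact measurable_pi_lambda _ fun j =>
          measurable_subtype_coe.comp ((measurable_pi_apply j).comp measurable_snd)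
    have h3 := this.comp h2
    exact h3
  have h4 := (measurable_est e).comp h1
  exact h4

/-- **The law of the joint sampler**: the order is iid too (hence a.s. injective). -/
theorem map_jointS [Countable Γ] {ν : Measure (Γ → Bool)} [IsProbabilityMeasure ν]
    {W : Γ → ℕ → Finset Γ} {m : Γ → ℕ → (Γ → ℝ) → ℝ} (hW : Windows ν W m) :
    ((unif Γ).prod (unif (Γ × ℕ))).map (jointS m) = ν := by
  have hm := hW.measurable_m
  have hJ := measurable_jointS m hm
  refine Measure.ext fun A hA => ?_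
  rw [Measure.map_apply hJ hA, Measure.prod_apply (hJ hA)]
  have key : ∀ᵐ a ∂(unif Γ), (unif (Γ × ℕ)) (Prod.mk a ⁻¹' (jointS m ⁻¹' A)) = ν A := by
    filter_upwards [Decode.ae_injective] with a ha
    have h2 := core_law hW _ ha
    have h3 := measurable_sampler m hm (fun v => ((a v : unitInterval) : ℝ))
    rw [← h2, Measure.map_apply h3 hA]
    rfl
  rw [lintegral_congr_ae key]
  simp

end Joint

section Rule

open Crest.ProbabilityR.GraphTables Crest.ProbabilityR.SpanningTrees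

/-- the equivalence of pairs induced by a permutation of the vertices -/
def symMap (σ : Equiv.Perm ℕ) : Sym2 ℕ ≃ Sym2 ℕ where
  toFun := Sym2.map σ
  invFun := Sym2.map σ.symm
  left_inv e := by
    rw [Sym2.map_map]
    simp
  right_inv e := by
    rw [Sym2.map_map]
    simp

/-- the universal rule, for a family of mean functionals indexed by the graph -/
noncomputable def ruleOf (mG : SimpleGraph ℕ → Sym2 ℕ → ℕ → (Sym2 ℕ → ℝ) → ℝ) (G : SimpleGraph ℕ)
    (x : ℕ → unitInterval) : Sym2 ℕ → Bool :=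
  est (solve (mG G) (fun e => ((PN.thetaN G x e : unitInterval) : ℝ))
    (fun i => ((PN.noiseN G x i : unitInterval) : ℝ)))

theorem measurable_ruleOf (mG : SimpleGraph ℕ → Sym2 ℕ → ℕ → (Sym2 ℕ → ℝ) → ℝ)
    (hm : ∀ e n, Measurable fun q : (ℕ → ℕ → Bool) × (Sym2 ℕ → ℝ) => mG (graphOfTable q.1) e n q.2) :
    Measurable (fun p : (ℕ → ℕ → Bool) × (ℕ → unitInterval) => ruleOf mG (graphOfTable p.1) p.2) := by
  refine measurable_pi_lambda _ fun e => ?_
  have h2 : Measurable (fun p : (ℕ → ℕ → Bool) × (ℕ → unitInterval) =>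
      ((p.1, (fun e => ((PN.thetaN (graphOfTable p.1) p.2 e : unitInterval) : ℝ)),
        (fun i => ((PN.noiseN (graphOfTable p.1) p.2 i : unitInterval) : ℝ))) :
        (ℕ → ℕ → Bool) × (Sym2 ℕ → ℝ) × (Sym2 ℕ × ℕ → ℝ))) := by
    refine measurable_fst.prodMk (Measurable.prodMk ?_ ?_)
    · exact measurable_pi_lambda _ fun j => measurable_subtype_coe.comp (PN.measurable_thetaN j)
    · exact measurable_pi_lambda _ fun j => measurable_subtype_coe.comp (PN.measurable_noiseN j)
  have h1 : Measurable (fun p : (ℕ → ℕ → Bool) × (ℕ → unitInterval) =>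
      solve (mG (graphOfTable p.1)) (fun e => ((PN.thetaN (graphOfTable p.1) p.2 e : unitInterval) : ℝ))
        (fun i => ((PN.noiseN (graphOfTable p.1) p.2 i : unitInterval) : ℝ))) := by
    refine measurable_pi_lambda _ fun i => ?_
    have := measurable_solve (P := ℕ → ℕ → Bool) (fun A => mG (graphOfTable A)) hm i
    have h3 := this.comp h2
    exact h3
  have h4 := (measurable_est e).comp h1
  exact h4

theorem ruleOf_comap (mG : SimpleGraph ℕ → Sym2 ℕ → ℕ → (Sym2 ℕ → ℝ) → ℝ)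
    (hequiv : ∀ (σ : Equiv.Perm ℕ) (G : SimpleGraph ℕ) e n (h : Sym2 ℕ → ℝ),
      mG (G.comap σ) e n (h ∘ Sym2.map σ) = mG G (Sym2.map σ e) n h)
    (σ : Equiv.Perm ℕ) (G : SimpleGraph ℕ) (x : ℕ → unitInterval) :
    ruleOf mG (G.comap σ) (x ∘ σ) = ruleOf mG G x ∘ Sym2.map σ := by
  funext e'
  set τ := symMap σ
  have hτ : ∀ e, τ e = Sym2.map σ e := fun _ => rfl
  have hm : ∀ e n (h : Sym2 ℕ → ℝ), mG (G.comap σ) (τ.symm e) n (h ∘ τ.symm.symm) = mG G e n h := by
    intro e n h
    have h1 := hequiv σ G (τ.symm e) n h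
    have h2 : Sym2.map σ (τ.symm e) = e := τ.apply_symm_apply e
    rw [h2] at h1
    exact h1
  set θ : Sym2 ℕ → ℝ := fun e => ((PN.thetaN G x e : unitInterval) : ℝ)
  set U : Sym2 ℕ × ℕ → ℝ := fun i => ((PN.noiseN G x i : unitInterval) : ℝ)
  have h3 := solve_equiv τ.symm (mG G) (mG (G.comap σ)) hm θ U
  have hθ : (fun e => ((PN.thetaN (G.comap σ) (x ∘ σ) e : unitInterval) : ℝ)) = θ ∘ τ.symm.symm := by
    funext e
    simp only [Function.comp, PN.thetaN_comap, Equiv.symm_symm]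
    rfl
  have hU : (fun i : Sym2 ℕ × ℕ => ((PN.noiseN (G.comap σ) (x ∘ σ) i : unitInterval) : ℝ))
      = fun i => U (τ.symm.symm i.1, i.2) := by
    funext i
    obtain ⟨e, k⟩ := i
    simp only [PN.noiseN_comap, Equiv.symm_symm]
    rfl
  unfold ruleOf
  rw [hθ, hU]
  have h4 := est_equiv τ.symm (solve (mG G) θ U)
    (solve (mG (G.comap σ)) (θ ∘ τ.symm.symm) fun i => U (τ.symm.symm i.1, i.2))
    (fun e k => h3 e k) (τ e')
  have h5 : τ.symm (τ e') = e' := τ.symm_apply_apply e'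
  rw [h5] at h4
  exact h4

/-- The law of the rule on a connected locally finite graph. -/
theorem map_ruleOf (mG : SimpleGraph ℕ → Sym2 ℕ → ℕ → (Sym2 ℕ → ℝ) → ℝ) {G : SimpleGraph ℕ}
    (hG : G.Connected) (hf : ∀ v, (G.neighborSet v).Finite) {ν : Measure (Sym2 ℕ → Bool)}
    [IsProbabilityMeasure ν] {W : Sym2 ℕ → ℕ → Finset (Sym2 ℕ)} (hW : Windows ν W (mG G)) :
    (unif ℕ).map (ruleOf mG G) = ν := by
  have hJ := measurable_jointS (mG G) hW.measurable_m
  have hN := PN.measurePreserving_noise hG hf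
  conv_rhs => rw [← map_jointS hW, ← hN.map_eq]
  rw [Measure.map_map hJ hN.measurable]
  rfl

/-- **The universal rule**, given the mean functionals and the limit laws. -/
theorem rule_exists (mG : SimpleGraph ℕ → Sym2 ℕ → ℕ → (Sym2 ℕ → ℝ) → ℝ)
    (hm : ∀ e n, Measurable fun q : (ℕ → ℕ → Bool) × (Sym2 ℕ → ℝ) => mG (graphOfTable q.1) e n q.2)
    (hequiv : ∀ (σ : Equiv.Perm ℕ) (G : SimpleGraph ℕ) e n (h : Sym2 ℕ → ℝ),
      mG (G.comap σ) e n (h ∘ Sym2.map σ) = mG G (Sym2.map σ e) n h)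
    (pG : SimpleGraph ℕ → Finset (Sym2 ℕ) → ℝ)
    (hν : ∀ G : SimpleGraph ℕ, G.Connected → (∀ v, (G.neighborSet v).Finite) →
      ∃ (ν : Measure (Sym2 ℕ → Bool)) (W : Sym2 ℕ → ℕ → Finset (Sym2 ℕ)), IsProbabilityMeasure ν ∧
        Windows ν W (mG G) ∧ ∀ F : Finset (Sym2 ℕ), (ν {ω | ∀ e ∈ F, ω e = true}).toReal = pG G F)
    (hlim : ∀ G : SimpleGraph ℕ, G.Connected → (∀ v, (G.neighborSet v).Finite) →
      ∀ S : ℕ → Finset ℕ, Monotone S → (∀ v : ℕ, ∃ n, v ∈ S n) →
        (∀ n, (G.induce (S n : Set ℕ)).Connected) →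
        ∀ F : Finset (Sym2 ℕ), (↑F : Set (Sym2 ℕ)) ⊆ G.edgeSet →
          Tendsto (fun n => ustContains G (S n) F) atTop (𝓝 (pG G F))) :
    ∃ Φ : SimpleGraph ℕ → (ℕ → unitInterval) → (Sym2 ℕ → Bool),
      Measurable (fun p : (ℕ → ℕ → Bool) × (ℕ → unitInterval) =>
          Φ (graphOfTable p.1) p.2) ∧
      (∀ (σ : Equiv.Perm ℕ) (G : SimpleGraph ℕ) (x : ℕ → unitInterval),
          Φ (G.comap ⇑σ) (x ∘ ⇑σ) = Φ G x ∘ Sym2.map ⇑σ) ∧
      ∀ G : SimpleGraph ℕ, G.Connected → (∀ v : ℕ, (G.neighborSet v).Finite) →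
        ∀ S : ℕ → Finset ℕ, Monotone S → (∀ v : ℕ, ∃ n, v ∈ S n) →
          (∀ n, (G.induce (S n : Set ℕ)).Connected) →
          ∀ F : Finset (Sym2 ℕ), (↑F : Set (Sym2 ℕ)) ⊆ G.edgeSet →
            Filter.Tendsto (fun n => ustContains G (S n) F) Filter.atTop
              (nhds (((Crest.ProbabilityR.Labels.labelMeasure ℕ).map (Φ G)
                {ω | ∀ e ∈ F, ω e = true}).toReal)) := by
  refine ⟨ruleOf mG, measurable_ruleOf mG hm, ruleOf_comap mG hequiv, ?_⟩
  intro G hG hf S hS hex hconn F hF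
  obtain ⟨ν, W, hp, hW, hmass⟩ := hν G hG hf
  have h1 : (Crest.ProbabilityR.Labels.labelMeasure ℕ).map (ruleOf mG G) = ν :=
    map_ruleOf mG hG hf hW
  rw [h1, hmass F]
  exact hlim G hG hf S hS hex hconn F hF

end Rule

end Crest.Agent.Lib.SRF
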