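import Crest.Agent.Lib.SRF.RowSum

/-!
# Negative association with an increasing event, and monotonicity of an event probability under a
tilt, for strongly Rayleigh coefficient families.
-/

set_option autoImplicit false

namespace Crest.Agent.SRF

open Filter Topology

variable {ι : Type*} [DecidableEq ι]

/-- Total weight of the sets containing `F`. -/
noncomputable def QQ (W : Finset ι) (a : Finset ι → ℝ) (F : Finset ι) : ℝ :=
  ∑ S ∈ W.powerset.filter (fun S => F ⊆ S), a S

variable {W : Finset ι} {a : Finset ι → ℝ}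

theorem QQ_nonneg (ha : IsSRCoef W a) (F : Finset ι) : 0 ≤ QQ W a F :=
  Finset.sum_nonneg fun S hS => ha.nonneg S (Finset.mem_of_mem_filter S hS)

theorem QQ_anti (ha : IsSRCoef W a) {F F' : Finset ι} (h : F ⊆ F') : QQ W a F' ≤ QQ W a F := by
  refine Finset.sum_le_sum_of_subset_of_nonneg ?_ ?_
  · intro S hS
    simp only [Finset.mem_filter] at hS ⊢
    exact ⟨hS.1, h.trans hS.2⟩
  · intro S hS _
    exact ha.nonneg S (Finset.mem_of_mem_filter S hS)

theorem QQ_empty (W : Finset ι) (a : Finset ι → ℝ) : QQ W a ∅ = ∑ S ∈ W.powerset, a S := by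
  simp [QQ]

/-- Conditional negative correlation, as a limit of tilts. -/
theorem cond_neg_corr (ha : IsSRCoef W a) (F₀ : Finset ι) {e f : ι} (hef : e ≠ f) :
    QQ W a (insert e (insert f F₀)) * QQ W a F₀ ≤
      QQ W a (insert e F₀) * QQ W a (insert f F₀) := by
  classical
  -- the weights
  let c : ℝ → Finset ι → ℝ := fun u S => a S * u ^ (F₀ \ S).card
  have hineq : ∀ u : ℝ, 0 < u →
      (∑ S ∈ W.powerset.filter (fun S => e ∈ S ∧ f ∈ S), c u S) * (∑ S ∈ W.powerset, c u S) ≤
      (∑ S ∈ W.powerset.filter (fun S => e ∈ S), c u S) *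
        (∑ S ∈ W.powerset.filter (fun S => f ∈ S), c u S) := by
    intro u hu
    let h : ι → ℝ := fun i => if i ∈ F₀ then - Real.log u else 0
    have hb := neg_corr (ha.tilt h) hef
    have hlink : ∀ S, c u S = u ^ F₀.card * tilt h a S := by
      intro S
      have h1 : ∑ i ∈ S, h i = - ((S ∩ F₀).card : ℝ) * Real.log u := by
        simp only [h]
        rw [Finset.sum_ite, Finset.sum_const_zero, add_zero, Finset.sum_const, nsmul_eq_mul]
        rw [Finset.filter_mem_eq_inter]
        ring
      have h2 : Real.exp (∑ i ∈ S, h i) = (u ^ (S ∩ F₀).card)⁻¹ := by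
        rw [h1, mul_comm, ← Real.rpow_def_of_pos hu]
        rw [Real.rpow_neg hu.le, Real.rpow_natCast]
      have h3 : F₀.card = (F₀ \ S).card + (S ∩ F₀).card := by
        rw [Finset.inter_comm]
        exact (Finset.card_sdiff_add_card_inter F₀ S).symm
      simp only [c, tilt]
      rw [h2, h3, pow_add]
      field_simp
    have hpos : 0 < (u ^ F₀.card) ^ 2 := by positivity
    have hmul := mul_le_mul_of_nonneg_left hb hpos.le
    have hsum : ∀ X : Finset (Finset ι), ∑ S ∈ X, c u S = u ^ F₀.card * ∑ S ∈ X, tilt h a S := by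
      intro X
      rw [Finset.mul_sum]
      exact Finset.sum_congr rfl fun S _ => hlink S
    rw [hsum, hsum, hsum, hsum]
    nlinarith [hmul]
  -- pass to the limit
  have hcont : ∀ X : Finset (Finset ι),
      Tendsto (fun u => ∑ S ∈ X, c u S) (𝓝[>] (0 : ℝ)) (𝓝 (∑ S ∈ X, c 0 S)) := by
    intro X
    apply Tendsto.mono_left _ nhdsWithin_le_nhds
    apply Continuous.tendsto
    fun_prop
  have hlim := le_of_tendsto_of_tendsto
    ((hcont (W.powerset.filter (fun S => e ∈ S ∧ f ∈ S))).mul (hcont W.powerset))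
    ((hcont (W.powerset.filter (fun S => e ∈ S))).mul (hcont (W.powerset.filter (fun S => f ∈ S))))
    (Filter.eventually_of_mem self_mem_nhdsWithin fun u hu => hineq u hu)
  have hQ : ∀ (P : Finset ι → Prop) [DecidablePred P] (F' : Finset ι),
      (∀ S, F' ⊆ S ↔ P S ∧ F₀ ⊆ S) →
      ∑ S ∈ W.powerset.filter P, c 0 S = QQ W a F' := by
    intro P _ F' hiff
    unfold QQ
    rw [Finset.sum_filter, Finset.sum_filter]
    refine Finset.sum_congr rfl fun S _ => ?_
    simp only [hiff, c]
    by_cases hP : P S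
    · by_cases hF : F₀ ⊆ S
      · simp [hP, hF, Finset.sdiff_eq_empty_iff_subset.mpr hF]
      · have hne : (F₀ \ S).card ≠ 0 := by
          rw [Finset.card_ne_zero]
          exact Finset.nonempty_of_ne_empty (fun h => hF (Finset.sdiff_eq_empty_iff_subset.mp h))
        simp [hP, hF, hne]
    · simp [hP]
  have e1 := hQ (fun S => e ∈ S ∧ f ∈ S) (insert e (insert f F₀)) (by
    intro S; simp only [Finset.insert_subset_iff]; tauto)
  have e2 : ∑ S ∈ W.powerset, c 0 S = QQ W a F₀ := by
    have := hQ (fun _ => True) F₀ (by intro S; simp)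
    simpa using this
  have e3 := hQ (fun S => e ∈ S) (insert e F₀) (by
    intro S; simp only [Finset.insert_subset_iff])
  have e4 := hQ (fun S => f ∈ S) (insert f F₀) (by
    intro S; simp only [Finset.insert_subset_iff])
  rw [e1, e2, e3, e4] at hlim
  exact hlim

/-- Negative association of an event `F ⊆ T` with a site `f ∉ F`. -/
theorem neg_assoc (ha : IsSRCoef W a) {f : ι} (F : Finset ι) (hf : f ∉ F) :
    QQ W a (insert f F) * QQ W a ∅ ≤ QQ W a F * QQ W a {f} := by
  classical
  induction F using Finset.induction_on with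
  | empty =>
    have : insert f (∅ : Finset ι) = {f} := rfl
    rw [this, mul_comm]
  | insert e F₀ he ih =>
    have hfe : f ≠ e := fun h => hf (by simp [h])
    have hfF₀ : f ∉ F₀ := fun h => hf (by simp [h])
    have ih' := ih hfF₀
    have hc := cond_neg_corr ha F₀ (Ne.symm hfe)
    have hcomm : insert f (insert e F₀) = insert e (insert f F₀) := Finset.insert_comm _ _ _
    rw [hcomm]
    by_cases h0 : QQ W a F₀ = 0
    · have h1 : QQ W a (insert e (insert f F₀)) ≤ QQ W a F₀ :=
        QQ_anti ha (by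
          intro x hx
          simp only [Finset.mem_insert]
          tauto)
      have h2 : QQ W a (insert e (insert f F₀)) = 0 :=
        le_antisymm (h0 ▸ h1) (QQ_nonneg ha _)
      rw [h2, zero_mul]
      exact mul_nonneg (QQ_nonneg ha _) (QQ_nonneg ha _)
    · have hpos : 0 < QQ W a F₀ := lt_of_le_of_ne (QQ_nonneg ha _) (Ne.symm h0)
      have hne := QQ_nonneg ha (insert e F₀)
      have hq0 := QQ_nonneg ha (∅ : Finset ι)
      have key : QQ W a (insert e (insert f F₀)) * QQ W a ∅ * QQ W a F₀ ≤
          QQ W a (insert e F₀) * QQ W a {f} * QQ W a F₀ := by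
        calc QQ W a (insert e (insert f F₀)) * QQ W a ∅ * QQ W a F₀
            = (QQ W a (insert e (insert f F₀)) * QQ W a F₀) * QQ W a ∅ := by ring
          _ ≤ (QQ W a (insert e F₀) * QQ W a (insert f F₀)) * QQ W a ∅ :=
              mul_le_mul_of_nonneg_right hc hq0
          _ = QQ W a (insert e F₀) * (QQ W a (insert f F₀) * QQ W a ∅) := by ring
          _ ≤ QQ W a (insert e F₀) * (QQ W a F₀ * QQ W a {f}) :=
              mul_le_mul_of_nonneg_left ih' hne
          _ = QQ W a (insert e F₀) * QQ W a {f} * QQ W a F₀ := by ring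
      exact le_of_mul_le_mul_right key hpos

/-- The family tilted by `s` on `D`. -/
noncomputable def tiltD (D : Finset ι) (s : ℝ) (a : Finset ι → ℝ) : Finset ι → ℝ :=
  tilt (fun i => 0 + s * (if i ∈ D then 1 else 0)) a

theorem tiltD_apply (D : Finset ι) (s : ℝ) (a : Finset ι → ℝ) (S : Finset ι) :
    tiltD D s a S = a S * Real.exp (s * (S ∩ D).card) := by
  simp only [tiltD, tilt, zero_add]
  congr 2
  simp only [mul_ite, mul_one, mul_zero]
  rw [Finset.sum_ite, Finset.sum_const_zero, add_zero, Finset.sum_const, nsmul_eq_mul,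
    Finset.filter_mem_eq_inter]
  ring

theorem card_inter_eq_sum (D S : Finset ι) :
    (((S ∩ D).card : ℕ) : ℝ) = ∑ g ∈ D, if g ∈ S then (1 : ℝ) else 0 := by
  rw [Finset.sum_boole]
  congr 2
  ext x
  simp [and_comm]

/-- Monotonicity of an event probability under a tilt (in the variable `s`). -/
theorem ratio_antitone (ha : IsSRCoef W a) {F D : Finset ι} (hFD : Disjoint F D) :
    Antitone (fun s : ℝ => QQ W (tiltD D s a) F / QQ W (tiltD D s a) ∅) := by
  classical
  have hsr : ∀ s, IsSRCoef W (tiltD D s a) := fun s => ha.tilt _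
  have hderivQ : ∀ (F' : Finset ι) (s : ℝ), HasDerivAt (fun s => QQ W (tiltD D s a) F')
      (∑ g ∈ D, QQ W (tiltD D s a) (insert g F')) s := by
    intro F' s
    have h1 : ∀ S : Finset ι, HasDerivAt (fun s => tiltD D s a S)
        (tiltD D s a S * ∑ g ∈ D, if g ∈ S then (1 : ℝ) else 0) s := by
      intro S
      have := hasDerivAt_tilt (fun _ => (0:ℝ)) (fun i => if i ∈ D then (1:ℝ) else 0) a S s
      have hsum : ∑ i ∈ S, (if i ∈ D then (1:ℝ) else 0) = ∑ g ∈ D, if g ∈ S then (1 : ℝ) else 0 := by
        rw [Finset.sum_boole, Finset.sum_boole]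
        congr 2
        ext x
        simp [and_comm, Finset.mem_filter]
      rw [hsum] at this
      exact this
    have h2 := HasDerivAt.fun_sum (u := W.powerset.filter (fun S => F' ⊆ S))
      (A := fun S s => tiltD D s a S)
      (A' := fun S => tiltD D s a S * ∑ g ∈ D, if g ∈ S then (1 : ℝ) else 0) (x := s)
      (fun S _ => h1 S)
    have h3 : (∑ S ∈ W.powerset.filter (fun S => F' ⊆ S),
        tiltD D s a S * ∑ g ∈ D, if g ∈ S then (1 : ℝ) else 0) =
        ∑ g ∈ D, QQ W (tiltD D s a) (insert g F') := by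
      simp_rw [Finset.mul_sum]
      rw [Finset.sum_comm]
      refine Finset.sum_congr rfl fun g _ => ?_
      unfold QQ
      simp only [Finset.insert_subset_iff]
      rw [Finset.sum_filter, Finset.sum_filter]
      refine Finset.sum_congr rfl fun S _ => ?_
      by_cases h1 : g ∈ S <;> by_cases h2 : F' ⊆ S <;> simp [h1, h2]
    rw [← h3]
    unfold QQ
    exact h2
  apply antitone_of_deriv_nonpos
  · intro s
    apply DifferentiableAt.div
    · exact (hderivQ F s).differentiableAt
    · exact (hderivQ ∅ s).differentiableAt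
    · have := (hsr s).pos
      rw [QQ_empty]
      exact this.ne'
  · intro s
    have hZ : 0 < QQ W (tiltD D s a) ∅ := by
      rw [QQ_empty]; exact (hsr s).pos
    have hd := (hderivQ F s).div (hderivQ ∅ s) hZ.ne'
    have hd' : deriv (fun s => QQ W (tiltD D s a) F / QQ W (tiltD D s a) ∅) s = _ := hd.deriv
    rw [hd']
    apply div_nonpos_of_nonpos_of_nonneg _ (by positivity)
    rw [Finset.sum_mul, Finset.mul_sum, ← Finset.sum_sub_distrib]
    apply Finset.sum_nonpos
    intro g hg
    have hgF : g ∉ F := fun h => (Finset.disjoint_left.mp hFD h) hg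
    have hna := neg_assoc (hsr s) F hgF
    have hsing : insert g (∅ : Finset ι) = {g} := rfl
    rw [hsing]
    linarith

/-- The form with a polynomial weight. -/
noncomputable def weighted (W : Finset ι) (a : Finset ι → ℝ) (D F : Finset ι) (u : ℝ) : ℝ :=
  ∑ S ∈ W.powerset.filter (fun S => F ⊆ S), a S * u ^ (S ∩ D).card

theorem QQ_tiltD (D F : Finset ι) {u : ℝ} (hu : 0 < u) :
    QQ W (tiltD D (Real.log u) a) F = weighted W a D F u := by
  unfold QQ weighted
  refine Finset.sum_congr rfl fun S _ => ?_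
  rw [tiltD_apply, ← Real.rpow_def_of_pos hu, Real.rpow_natCast]

theorem weighted_one (D F : Finset ι) : weighted W a D F 1 = QQ W a F := by
  simp [weighted, QQ]

/-- Monotonicity of the event probability under scaling the sites of `D` by `u ≤ 1`. -/
theorem weighted_ineq (ha : IsSRCoef W a) {F D : Finset ι} (hFD : Disjoint F D) {u : ℝ}
    (hu : 0 < u) (hu1 : u ≤ 1) :
    QQ W a F * weighted W a D ∅ u ≤ weighted W a D F u * QQ W a ∅ := by
  have h := ratio_antitone ha hFD (Real.log_nonpos hu.le hu1)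
  have hsr0 : IsSRCoef W (tiltD D (Real.log u) a) := ha.tilt _
  have hsr1 : IsSRCoef W (tiltD D (0:ℝ) a) := ha.tilt _
  have hZ1 : 0 < QQ W (tiltD D (Real.log u) a) ∅ := by rw [QQ_empty]; exact hsr0.pos
  have hZ2 : 0 < QQ W (tiltD D (0:ℝ) a) ∅ := by rw [QQ_empty]; exact hsr1.pos
  have h2 := (div_le_div_iff₀ hZ2 hZ1).mp h
  have hid : ∀ F' : Finset ι, QQ W (tiltD D (0:ℝ) a) F' = QQ W a F' := by
    intro F'
    unfold QQ
    refine Finset.sum_congr rfl fun S _ => ?_
    rw [tiltD_apply]; simp
  rw [hid, hid, QQ_tiltD D F hu, QQ_tiltD D ∅ hu] at h2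
  linarith

/-- Lowest order form: if all sets of positive weight meet `D` then
`P(F) ≤ P(F | |T ∩ D| = 1)` in cross-multiplied form. -/
theorem lowest_ineq (ha : IsSRCoef W a) {F D : Finset ι} (hFD : Disjoint F D)
    (hmeet : ∀ S ∈ W.powerset, a S ≠ 0 → (S ∩ D).card ≠ 0) :
    QQ W a F * (∑ S ∈ W.powerset.filter (fun S => (S ∩ D).card = 1), a S) ≤
      (∑ S ∈ W.powerset.filter (fun S => F ⊆ S ∧ (S ∩ D).card = 1), a S) * QQ W a ∅ := by
  classical
  -- dividing by `u`
  let g : Finset ι → ℝ → Finset ι → ℝ := fun F' u S =>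
    if F' ⊆ S then a S * u ^ ((S ∩ D).card - 1) else 0
  have hw : ∀ (F' : Finset ι) {u : ℝ}, 0 < u →
      weighted W a D F' u = u * ∑ S ∈ W.powerset, g F' u S := by
    intro F' u hu
    unfold weighted
    rw [Finset.sum_filter, Finset.mul_sum]
    refine Finset.sum_congr rfl fun S hS => ?_
    simp only [g]
    by_cases hF : F' ⊆ S
    · simp only [hF, if_true]
      by_cases h0 : a S = 0
      · simp [h0]
      · have hc := hmeet S hS h0
        have : u ^ (S ∩ D).card = u * u ^ ((S ∩ D).card - 1) := by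
          rw [← pow_succ']
          congr 1
          omega
        rw [this]
        ring
    · simp [hF]
  have hineq : ∀ u : ℝ, 0 < u → u ≤ 1 →
      QQ W a F * ∑ S ∈ W.powerset, g ∅ u S ≤ (∑ S ∈ W.powerset, g F u S) * QQ W a ∅ := by
    intro u hu hu1
    have h := weighted_ineq ha hFD hu hu1
    rw [hw ∅ hu, hw F hu] at h
    have h3 : u * (QQ W a F * ∑ S ∈ W.powerset, g ∅ u S) ≤
        u * ((∑ S ∈ W.powerset, g F u S) * QQ W a ∅) := by
      nlinarith [h]
    exact le_of_mul_le_mul_left h3 hu
  have hcont : ∀ F' : Finset ι, Tendsto (fun u => ∑ S ∈ W.powerset, g F' u S) (𝓝[>] (0 : ℝ))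
      (𝓝 (∑ S ∈ W.powerset, g F' 0 S)) := by
    intro F'
    apply Tendsto.mono_left _ nhdsWithin_le_nhds
    apply Continuous.tendsto
    apply continuous_finsetSum
    intro S _
    simp only [g]
    split_ifs <;> fun_prop
  have hlim := le_of_tendsto_of_tendsto ((hcont ∅).const_mul (QQ W a F))
    ((hcont F).mul_const (QQ W a ∅))
    (by
      filter_upwards [Ioc_mem_nhdsGT (zero_lt_one : (0:ℝ) < 1)] with u hu
      exact hineq u hu.1 hu.2)
  have hg0 : ∀ (F' : Finset ι), ∑ S ∈ W.powerset, g F' 0 S =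
      ∑ S ∈ W.powerset.filter (fun S => F' ⊆ S ∧ (S ∩ D).card = 1), a S := by
    intro F'
    rw [Finset.sum_filter]
    refine Finset.sum_congr rfl fun S hS => ?_
    simp only [g]
    by_cases hF : F' ⊆ S
    · by_cases h0 : a S = 0
      · simp [h0]
      · have hc := hmeet S hS h0
        by_cases h1 : (S ∩ D).card = 1
        · simp [hF, h1]
        · have h2 : (S ∩ D).card - 1 ≠ 0 := by omega
          simp [hF, h1, h2]
    · simp [hF]
  rw [hg0, hg0] at hlim
  simpa using hlim

end Crest.Agent.SRF
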