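import Mathlib

/-!
# A Schwarz-Pick inequality for polynomials without zeros in the open right half-plane.

For `F : ℂ[X]`, `F ≠ 0`, with all zeros in `Re ≤ 0`, set (at the real point `1`)
`A = F 1`, `A' = F' 1`, `B = conj (F (-1))`, `B' = - conj (F' (-1))`. Then
`‖B' A - B A'‖ ≤ (‖A‖² - ‖B‖²) / 2` and `‖B‖ ≤ ‖A‖`.  (`B / A` is a finite Blaschke product on the
right half plane, and this is Schwarz-Pick at `1`.)
-/

set_option autoImplicit false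

namespace Crest.Agent.SRF

open Polynomial ComplexConjugate

/-- The Schwarz-Pick data at the point `1`. -/
def GoodQ (A A' B B' : ℂ) : Prop :=
  ‖B' * A - B * A'‖ ≤ (‖A‖ ^ 2 - ‖B‖ ^ 2) / 2 ∧ ‖B‖ ≤ ‖A‖

theorem GoodQ.mul {A₁ A₁' B₁ B₁' A₂ A₂' B₂ B₂' : ℂ} (h₁ : GoodQ A₁ A₁' B₁ B₁')
    (h₂ : GoodQ A₂ A₂' B₂ B₂') :
    GoodQ (A₁ * A₂) (A₁' * A₂ + A₁ * A₂') (B₁ * B₂) (B₁' * B₂ + B₁ * B₂') := by
  obtain ⟨h1, h1'⟩ := h₁
  obtain ⟨h2, h2'⟩ := h₂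
  have ha1 := norm_nonneg A₁
  have ha2 := norm_nonneg A₂
  have hb1 := norm_nonneg B₁
  have hb2 := norm_nonneg B₂
  have key : (B₁' * B₂ + B₁ * B₂') * (A₁ * A₂) - B₁ * B₂ * (A₁' * A₂ + A₁ * A₂')
      = (B₂ * A₂) * (B₁' * A₁ - B₁ * A₁') + (B₁ * A₁) * (B₂' * A₂ - B₂ * A₂') := by ring
  refine ⟨?_, ?_⟩
  · rw [key, norm_mul, norm_mul]
    have h3 := norm_add_le ((B₂ * A₂) * (B₁' * A₁ - B₁ * A₁')) ((B₁ * A₁) * (B₂' * A₂ - B₂ * A₂'))
    rw [norm_mul, norm_mul, norm_mul, norm_mul] at h3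
    have h4 : ‖B₂‖ * ‖A₂‖ * ‖B₁' * A₁ - B₁ * A₁'‖ ≤ ‖B₂‖ * ‖A₂‖ * ((‖A₁‖ ^ 2 - ‖B₁‖ ^ 2) / 2) :=
      mul_le_mul_of_nonneg_left h1 (by positivity)
    have h5 : ‖B₁‖ * ‖A₁‖ * ‖B₂' * A₂ - B₂ * A₂'‖ ≤ ‖B₁‖ * ‖A₁‖ * ((‖A₂‖ ^ 2 - ‖B₂‖ ^ 2) / 2) :=
      mul_le_mul_of_nonneg_left h2 (by positivity)
    have h6 : 0 ≤ (‖A₁‖ * ‖A₂‖ - ‖B₁‖ * ‖B₂‖) * (‖A₁‖ - ‖B₁‖) * (‖A₂‖ - ‖B₂‖) := by
      have : ‖B₁‖ * ‖B₂‖ ≤ ‖A₁‖ * ‖A₂‖ := mul_le_mul h1' h2' hb2 ha1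
      exact mul_nonneg (mul_nonneg (by linarith) (by linarith)) (by linarith)
    nlinarith [h3, h4, h5, h6]
  · rw [norm_mul, norm_mul]
    exact mul_le_mul h1' h2' hb2 ha1

/-- The statement of Schwarz-Pick for a polynomial. -/
def SPoly (F : ℂ[X]) : Prop :=
  GoodQ (F.eval 1) (F.derivative.eval 1) (conj (F.eval (-1))) (-conj (F.derivative.eval (-1)))

theorem SPoly.mul {F G : ℂ[X]} (hF : SPoly F) (hG : SPoly G) : SPoly (F * G) := by
  have := GoodQ.mul hF hG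
  unfold SPoly
  simp only [derivative_mul, eval_mul, eval_add, map_mul, map_add]
  convert this using 1
  ring

theorem SPoly_C (c : ℂ) : SPoly (C c) := by
  unfold SPoly GoodQ
  simp

theorem SPoly_X_sub_C {r : ℂ} (hr : r.re ≤ 0) : SPoly (X - C r) := by
  unfold SPoly GoodQ
  simp only [derivative_sub, derivative_X, derivative_C, sub_zero, eval_one, eval_sub, eval_X,
    eval_C, map_one, map_sub, map_neg]
  have e1 : -1 * (1 - r) - (-1 - conj r) * 1 = ((2 * r.re : ℝ) : ℂ) := by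
    apply Complex.ext <;> simp <;> ring
  have hnonneg : 2 * r.re ≤ 0 := by linarith
  have e2 : ‖(1 - r : ℂ)‖ ^ 2 = (1 - r.re) ^ 2 + r.im ^ 2 := by
    rw [← Complex.normSq_eq_norm_sq, Complex.normSq_apply]; simp; ring
  have e3 : ‖(-1 - conj r : ℂ)‖ ^ 2 = (1 + r.re) ^ 2 + r.im ^ 2 := by
    rw [← Complex.normSq_eq_norm_sq, Complex.normSq_apply]; simp; ring
  refine ⟨?_, ?_⟩
  · rw [e1, Complex.norm_real, Real.norm_eq_abs, abs_of_nonpos hnonneg, e2, e3]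
    nlinarith
  · apply (sq_le_sq₀ (norm_nonneg _) (norm_nonneg _)).1
    rw [e2, e3]
    nlinarith

/-- **Schwarz-Pick** for polynomials without zeros in the open right half plane. -/
theorem SPoly_of_roots {F : ℂ[X]} (hF : F ≠ 0) (h : ∀ z : ℂ, F.eval z = 0 → z.re ≤ 0) : SPoly F := by
  have hs : ∀ s : Multiset ℂ, (∀ r ∈ s, r.re ≤ 0) → SPoly (s.map (fun r => X - C r)).prod := by
    intro s
    induction s using Multiset.induction_on with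
    | empty =>
      intro _
      have : SPoly (C 1) := SPoly_C 1
      simpa using this
    | cons a s ih =>
      intro hr
      rw [Multiset.map_cons, Multiset.prod_cons]
      exact SPoly.mul (SPoly_X_sub_C (hr a (Multiset.mem_cons_self a s)))
        (ih fun r hrs => hr r (Multiset.mem_cons_of_mem hrs))
  have hsplit := IsAlgClosed.splits F
  have hprod := hsplit.eq_prod_roots
  rw [hprod]
  refine SPoly.mul (SPoly_C _) (hs _ ?_)
  intro r hr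
  exact h r ((mem_roots hF).1 hr)

end Crest.Agent.SRF
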