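import Crest.Agent.Lib.SRF.CauchyBinet
import Crest.Prelude.Def_SpanningTrees

set_option autoImplicit false

namespace Crest.Agent.Lib.SRF

open Finset Matrix Crest.ProbabilityR.SpanningTrees

variable {V : Type*}

/-- The spanning tree polynomial of the piece of `G` induced on `S`. -/
noncomputable def treePoly (G : SimpleGraph V) (S : Finset V) {K : Type*} [CommSemiring K]
    (z : Sym2 V → K) : K :=
  haveI := Classical.decPred (fun A : Finset (Sym2 V) => IsSpanningTreeOn G S A)
  ∑ A ∈ (edgesIn G S).powerset.filter (fun A => IsSpanningTreeOn G S A), ∏ e ∈ A, z e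

theorem mem_edgesIn {G : SimpleGraph V} {S : Finset V} {e : Sym2 V} :
    e ∈ edgesIn G S ↔ (∀ x ∈ e, x ∈ S) ∧ e ∈ G.edgeSet := by
  classical
  unfold edgesIn
  simp only [mem_filter, Finset.mem_sym2_iff]

/-- The two endpoints of an unordered pair, in some order. -/
noncomputable def ep (e : Sym2 V) : V × V := Quot.out e

theorem ep_spec (e : Sym2 V) : s((ep e).1, (ep e).2) = e := by
  have := Quot.out_eq e
  exact this

theorem ep_fst_mem (e : Sym2 V) : (ep e).1 ∈ e := ⟨(ep e).2, (ep_spec e).symm⟩

theorem ep_snd_mem (e : Sym2 V) : (ep e).2 ∈ e :=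
  ⟨(ep e).1, by rw [Sym2.eq_swap]; exact (ep_spec e).symm⟩

/-- The graph on `S` with edge set `A`. -/
abbrev pieceGraph (S : Finset V) (A : Finset (Sym2 V)) : SimpleGraph (S : Set V) :=
  (SimpleGraph.fromEdgeSet (A : Set (Sym2 V))).induce (S : Set V)

section Card

variable {G : SimpleGraph V} {S : Finset V} {A : Finset (Sym2 V)}

theorem card_edgeSet_pieceGraph (hA : A ⊆ edgesIn G S) :
    Nat.card (pieceGraph S A).edgeSet = A.card := by
  classical
  have hbij : Function.Bijective
      (fun e : (pieceGraph S A).edgeSet => (⟨Sym2.map Subtype.val e.1, by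
        obtain ⟨e, he⟩ := e
        induction e with
        | _ a b =>
          simp only [SimpleGraph.mem_edgeSet, SimpleGraph.comap_adj,
            SimpleGraph.fromEdgeSet_adj, Function.Embedding.subtype_apply] at he
          simpa using he.1⟩ : A)) := by
    constructor
    · rintro ⟨e, he⟩ ⟨e', he'⟩ h
      simp only [Subtype.mk.injEq] at h
      apply Subtype.ext
      exact Sym2.map.injective Subtype.val_injective h
    · rintro ⟨e, he⟩
      have hmem := mem_edgesIn.mp (hA he)
      induction e with
      | _ a b =>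
        have ha : a ∈ S := hmem.1 a (by simp)
        have hb : b ∈ S := hmem.1 b (by simp)
        have hne : a ≠ b := G.ne_of_adj hmem.2
        refine ⟨⟨s(⟨a, ha⟩, ⟨b, hb⟩), ?_⟩, ?_⟩
        · simp only [SimpleGraph.mem_edgeSet, SimpleGraph.comap_adj,
            SimpleGraph.fromEdgeSet_adj, Function.Embedding.subtype_apply]
          exact ⟨by simpa using he, hne⟩
        · simp
  rw [Nat.card_congr (Equiv.ofBijective _ hbij)]
  simp

theorem isTree_iff_connected_of_card (hA : A ⊆ edgesIn G S) (hcard : A.card + 1 = S.card) :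
    (pieceGraph S A).IsTree ↔ (pieceGraph S A).Connected := by
  haveI : Finite (S : Set V) := Finite.of_fintype _
  rw [SimpleGraph.isTree_iff_connected_and_card, card_edgeSet_pieceGraph hA]
  constructor
  · exact fun h => h.1
  · intro h
    refine ⟨h, ?_⟩
    rw [hcard]
    simp

theorem card_of_isTree (hA : A ⊆ edgesIn G S) (h : (pieceGraph S A).IsTree) :
    A.card + 1 = S.card := by
  haveI : Finite (S : Set V) := Finite.of_fintype _
  have := (SimpleGraph.isTree_iff_connected_and_card.mp h).2
  rw [card_edgeSet_pieceGraph hA] at this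
  simpa using this

end Card

section Connectivity

variable {S : Finset V} {A : Finset (Sym2 V)} {K : Type*}

/-- A function constant along the edges in `A` is constant on `S` if the graph is connected. -/
theorem const_of_connected (hconn : (pieceGraph S A).Preconnected) (g : V → K)
    (hg : ∀ e ∈ A, g (ep e).1 = g (ep e).2) {x y : V} (hx : x ∈ S) (hy : y ∈ S) : g x = g y := by
  have key : ∀ a b : (S : Set V), (pieceGraph S A).Walk a b → g a.1 = g b.1 := by
    intro a b p
    induction p with
    | nil => rfl
    | @cons a b c hab _ ih =>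
      have hadj : s(a.1, b.1) ∈ A ∧ a.1 ≠ b.1 := by
        simpa [SimpleGraph.comap_adj] using hab
      have hspec := ep_spec s(a.1, b.1)
      have hge := hg _ hadj.1
      have : g a.1 = g b.1 := by
        rcases Sym2.eq_iff.mp hspec with ⟨h1, h2⟩ | ⟨h1, h2⟩
        · rw [h1, h2] at hge; exact hge
        · rw [h1, h2] at hge; exact hge.symm
      rw [this]
      exact ih
  obtain ⟨p⟩ := hconn ⟨x, hx⟩ ⟨y, hy⟩
  exact key _ _ p

end Connectivity

section Incidence

variable [DecidableEq V] (G : SimpleGraph V) (S : Finset V) (r : V)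

/-- The reduced signed incidence matrix of the piece, over `K`. -/
noncomputable def incM (K : Type*) [CommRing K] : Matrix (S.erase r) (edgesIn G S) K :=
  fun x e => (if x.1 = (ep e.1).1 then 1 else 0) - (if x.1 = (ep e.1).2 then 1 else 0)

variable {G S r}

theorem sum_delta {K : Type*} [CommRing K] (g : V → K) (hg : g r = 0) {u : V} (hu : u ∈ S) :
    ∑ x : S.erase r, g x.1 * (if x.1 = u then 1 else 0) = g u := by
  by_cases hur : u = r
  · subst hur
    rw [hg]
    apply Finset.sum_eq_zero
    intro x _
    have := (Finset.mem_erase.mp x.2).1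
    simp [this]
  · rw [Finset.sum_eq_single (⟨u, Finset.mem_erase.mpr ⟨hur, hu⟩⟩ : S.erase r)]
    · simp
    · intro b _ hb
      have : b.1 ≠ u := fun h => hb (Subtype.ext h)
      simp [this]
    · simp

theorem sum_inc {K : Type*} [CommRing K] (g : V → K) (hg : g r = 0) (e : edgesIn G S) :
    ∑ x : S.erase r, g x.1 * incM G S r K x e = g (ep e.1).1 - g (ep e.1).2 := by
  have hmem := (mem_edgesIn.mp e.2).1
  have h1 : (ep e.1).1 ∈ S := hmem _ (ep_fst_mem _)
  have h2 : (ep e.1).2 ∈ S := hmem _ (ep_snd_mem _)
  simp only [incM, mul_sub, Finset.sum_sub_distrib]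
  rw [sum_delta g hg h1, sum_delta g hg h2]

theorem incM_map {K : Type*} [CommRing K] :
    (incM G S r ℤ).map (Int.castRingHom K) = incM G S r K := by
  ext x e
  simp only [incM, Matrix.map_apply]
  split_ifs <;> simp

/-- Extension of a function on the reduced index set by zero. -/
noncomputable def extZero {K : Type*} [Zero K] (v : S.erase r → K) : V → K :=
  fun x => if h : x ∈ S.erase r then v ⟨x, h⟩ else 0

theorem extZero_root {K : Type*} [Zero K] (v : S.erase r → K) : extZero v r = 0 := by
  simp [extZero]

theorem extZero_coe {K : Type*} [Zero K] (v : S.erase r → K) (x : S.erase r) :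
    extZero v x.1 = v x := by
  simp [extZero, x.2]

theorem vecMul_eq_zero_imp {K : Type*} [CommRing K] {f : S.erase r → edgesIn G S}
    {v : S.erase r → K} (hv : v ᵥ* (incM G S r K).submatrix id f = 0) (y : S.erase r) :
    extZero v (ep (f y).1).1 = extZero v (ep (f y).1).2 := by
  have h := congrFun hv y
  simp only [Matrix.vecMul, dotProduct, Pi.zero_apply, Matrix.submatrix_apply, id] at h
  have h2 := sum_inc (extZero v) (extZero_root v) (f y)
  simp_rw [extZero_coe] at h2
  rw [h] at h2
  exact (sub_eq_zero.mp h2.symm)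

/-- Image of a map of reduced indices in the edge set, as a set of pairs. -/
noncomputable def edgeImage (f : S.erase r → edgesIn G S) : Finset (Sym2 V) :=
  (univ.image f).map (Function.Embedding.subtype _)

theorem mem_edgeImage {f : S.erase r → edgesIn G S} {e : Sym2 V} :
    e ∈ edgeImage f ↔ ∃ y, (f y).1 = e := by
  simp only [edgeImage, Finset.mem_map, Finset.mem_image, Finset.mem_univ, true_and,
    Function.Embedding.subtype_apply]
  constructor
  · rintro ⟨a, ⟨y, rfl⟩, rfl⟩
    exact ⟨y, rfl⟩
  · rintro ⟨y, rfl⟩
    exact ⟨f y, ⟨y, rfl⟩, rfl⟩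

theorem edgeImage_subset (f : S.erase r → edgesIn G S) : edgeImage f ⊆ edgesIn G S := by
  intro e he
  obtain ⟨y, rfl⟩ := mem_edgeImage.mp he
  exact (f y).2

theorem det_sq_of_connected (hr : r ∈ S) (f : S.erase r → edgesIn G S)
    (hconn : (pieceGraph S (edgeImage f)).Preconnected) :
    ((incM G S r ℤ).submatrix id f).det ^ 2 = 1 := by
  set d := ((incM G S r ℤ).submatrix id f).det with hd
  suffices h : d.natAbs = 1 by
    rcases Int.natAbs_eq d with h' | h' <;> rw [h'] <;> simp [h]
  by_contra hne
  obtain ⟨p, hp, hdvd⟩ := Nat.exists_prime_and_dvd hne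
  haveI : Fact p.Prime := ⟨hp⟩
  have hzero : ((incM G S r (ZMod p)).submatrix id f).det = 0 := by
    have h1 : (incM G S r (ZMod p)).submatrix id f =
        ((incM G S r ℤ).submatrix id f).map (Int.castRingHom (ZMod p)) := by
      rw [← incM_map]
      rfl
    rw [h1, ← RingHom.mapMatrix_apply, ← RingHom.map_det]
    rw [← hd]
    have : (p : ℤ) ∣ d := Int.natCast_dvd.mpr hdvd
    simpa using (ZMod.intCast_zmod_eq_zero_iff_dvd d p).mpr this
  obtain ⟨v, hv0, hv⟩ := Matrix.exists_vecMul_eq_zero_iff.mpr hzero
  apply hv0
  have hconst : ∀ x ∈ S, extZero v x = extZero v r := by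
    intro x hx
    refine const_of_connected hconn (extZero v) ?_ hx hr
    intro e he
    obtain ⟨y, rfl⟩ := mem_edgeImage.mp he
    exact vecMul_eq_zero_imp hv y
  ext x
  have := hconst x.1 (Finset.mem_of_mem_erase x.2)
  rw [extZero_coe, extZero_root] at this
  simpa using this

theorem det_eq_zero_of_not_preconnected (hr : r ∈ S) (f : S.erase r → edgesIn G S)
    (hconn : ¬ (pieceGraph S (edgeImage f)).Preconnected) :
    ((incM G S r ℤ).submatrix id f).det = 0 := by
  classical
  set H := pieceGraph S (edgeImage f) with hH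
  -- some vertex is not reachable from the root
  have hex : ∃ x : (S : Set V), ¬ H.Reachable x ⟨r, hr⟩ := by
    by_contra hall
    push Not at hall
    apply hconn
    intro a b
    exact (hall a).trans (hall b).symm
  obtain ⟨x₀, hx₀⟩ := hex
  -- indicator of the component of `x₀`
  let g : V → ℤ := fun x => if h : x ∈ S then (if H.Reachable x₀ ⟨x, h⟩ then 1 else 0) else 0
  have hgr : g r = 0 := by
    simp [g, hr, hx₀]
  have hgx : g x₀.1 = 1 := by
    have hx₀S : x₀.1 ∈ S := x₀.2
    simp only [g, hx₀S, dite_true]
    have : H.Reachable x₀ ⟨x₀.1, hx₀S⟩ := SimpleGraph.Reachable.refl _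
    simp [this]
  have hx₀r : x₀.1 ≠ r := by
    intro h
    apply hx₀
    have : x₀ = ⟨r, hr⟩ := Subtype.ext h
    rw [this]
  apply Matrix.exists_vecMul_eq_zero_iff.mp
  refine ⟨fun x => g x.1, ?_, ?_⟩
  · intro h0
    have := congrFun h0 ⟨x₀.1, Finset.mem_erase.mpr ⟨hx₀r, x₀.2⟩⟩
    simp only [Pi.zero_apply] at this
    rw [hgx] at this
    exact one_ne_zero this
  · ext y
    simp only [Matrix.vecMul, dotProduct, Pi.zero_apply, Matrix.submatrix_apply, id]
    rw [sum_inc g hgr (f y)]
    -- the endpoints of an edge of the image lie in the same component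
    have hmem := (mem_edgesIn.mp (f y).2)
    have hspec := ep_spec (f y).1
    have h1 : (ep (f y).1).1 ∈ S := hmem.1 _ (ep_fst_mem _)
    have h2 : (ep (f y).1).2 ∈ S := hmem.1 _ (ep_snd_mem _)
    have hne : (ep (f y).1).1 ≠ (ep (f y).1).2 := by
      have : G.Adj (ep (f y).1).1 (ep (f y).1).2 := by
        have h := hmem.2
        rw [← hspec] at h
        simpa using h
      exact G.ne_of_adj this
    have hadj : H.Adj ⟨_, h1⟩ ⟨_, h2⟩ := by
      rw [hH]
      simp only [SimpleGraph.comap_adj, SimpleGraph.fromEdgeSet_adj,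
        Function.Embedding.subtype_apply]
      refine ⟨?_, hne⟩
      rw [hspec]
      exact mem_edgeImage.mpr ⟨y, rfl⟩
    have hiff : H.Reachable x₀ ⟨_, h1⟩ ↔ H.Reachable x₀ ⟨_, h2⟩ :=
      ⟨fun h => h.trans hadj.reachable, fun h => h.trans hadj.symm.reachable⟩
    simp only [g, h1, h2, dite_true, hiff]
    simp

theorem minor_sq (hr : r ∈ S) {K : Type*} [CommRing K] (f : S.erase r → edgesIn G S) :
    ((incM G S r K).submatrix id f).det ^ 2 =
      if (pieceGraph S (edgeImage f)).Preconnected then 1 else 0 := by
  classical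
  have h1 : (incM G S r K).submatrix id f =
      ((incM G S r ℤ).submatrix id f).map (Int.castRingHom K) := by
    rw [← incM_map]
    rfl
  rw [h1, ← RingHom.mapMatrix_apply, ← RingHom.map_det, ← RingHom.map_pow]
  split_ifs with h
  · rw [det_sq_of_connected hr f h]; simp
  · rw [det_eq_zero_of_not_preconnected hr f h]; simp

/-- Weighted matrix-tree theorem. -/
theorem treePoly_eq_det (hr : r ∈ S) {K : Type*} [CommRing K] (z : Sym2 V → K) :
    treePoly G S z =
      (incM G S r K * diagonal (fun e : edgesIn G S => z e.1) * (incM G S r K)ᵀ).det := by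
  classical
  have hcardR : Fintype.card (S.erase r) + 1 = S.card := by
    rw [Fintype.card_coe, Finset.card_erase_add_one hr]
  let c : Finset (edgesIn G S) → K := fun A =>
    if IsSpanningTreeOn G S (A.map (Function.Embedding.subtype _)) then 1 else 0
  have hc : ∀ f : S.erase r → edgesIn G S, Function.Injective f →
      ((incM G S r K).submatrix id f).det ^ 2 = c (univ.image f) := by
    intro f hf
    rw [minor_sq hr]
    have hsub := edgeImage_subset f
    have hcard : (edgeImage f).card + 1 = S.card := by
      rw [← hcardR]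
      simp only [edgeImage, Finset.card_map]
      rw [Finset.card_image_of_injective _ hf, Finset.card_univ]
    have hiff : (pieceGraph S (edgeImage f)).Preconnected ↔
        IsSpanningTreeOn G S ((univ.image f).map (Function.Embedding.subtype _)) := by
      unfold IsSpanningTreeOn
      change _ ↔ edgeImage f ⊆ edgesIn G S ∧ (pieceGraph S (edgeImage f)).IsTree
      rw [isTree_iff_connected_of_card hsub hcard]
      constructor
      · intro h
        haveI : Nonempty (S : Set V) := ⟨⟨r, hr⟩⟩
        exact ⟨hsub, ⟨h⟩⟩
      · intro h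
        exact h.2.preconnected
    simp only [c, hiff]
  rw [det_mul_diag_mul_transpose _ _ c hc]
  unfold treePoly
  simp only [c]
  simp_rw [mul_ite, mul_one, mul_zero]
  rw [← Finset.sum_filter]
  symm
  refine Finset.sum_bij (fun A _ => A.map (Function.Embedding.subtype _)) ?_ ?_ ?_ ?_
  · intro A hA
    simp only [mem_filter, mem_powersetCard] at hA
    simp only [mem_filter, mem_powerset]
    exact ⟨hA.2.1, hA.2⟩
  · intro A _ A' _ h
    exact Finset.map_injective _ h
  · intro A' hA'
    simp only [mem_filter, mem_powerset] at hA'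
    have hmap : (A'.subtype (· ∈ edgesIn G S)).map (Function.Embedding.subtype _) = A' :=
      Finset.subtype_map_of_mem (fun x hx => hA'.1 hx)
    refine ⟨A'.subtype (· ∈ edgesIn G S), ?_, hmap⟩
    simp only [mem_filter, mem_powersetCard, subset_univ, true_and]
    rw [hmap]
    refine ⟨?_, hA'.2⟩
    have h1 := card_of_isTree hA'.1 hA'.2.2
    have h2 : (A'.subtype (· ∈ edgesIn G S)).card = A'.card := by
      conv_rhs => rw [← hmap]
      simp
    rw [h2]
    omega
  · intro A _
    rw [Finset.prod_map]
    rfl

end Incidence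

section Stability

variable {G : SimpleGraph V} {S : Finset V}

/-- A point with coordinates in the open upper half plane or the positive real axis. -/
def GoodPoint (z : ℂ) : Prop := 0 < z.im ∨ (z.im = 0 ∧ 0 < z.re)

theorem sum_mul_normSq_eq_zero {ι : Type*} [Fintype ι] (z : ι → ℂ) (a : ι → ℝ)
    (hz : ∀ i, GoodPoint (z i)) (ha : ∀ i, 0 ≤ a i)
    (h : ∑ i, z i * (a i : ℂ) = 0) (i : ι) : a i = 0 := by
  have him : ∑ i, (z i).im * a i = 0 := by
    have := congrArg Complex.im h
    simpa [Complex.im_sum] using this
  have hre : ∑ i, (z i).re * a i = 0 := by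
    have := congrArg Complex.re h
    simpa [Complex.re_sum] using this
  have himn : ∀ i, 0 ≤ (z i).im * a i := by
    intro i
    rcases hz i with h | h
    · exact mul_nonneg h.le (ha i)
    · rw [h.1]; simp
  have him0 := (Finset.sum_eq_zero_iff_of_nonneg (fun i _ => himn i)).mp him
  have hren : ∀ i, 0 ≤ (z i).re * a i := by
    intro i
    rcases hz i with h | h
    · have := him0 i (mem_univ i)
      have hai : a i = 0 := by
        rcases mul_eq_zero.mp this with h' | h'
        · exact absurd h' h.ne'
        · exact h'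
      rw [hai]; simp
    · exact mul_nonneg h.2.le (ha i)
  have hre0 := (Finset.sum_eq_zero_iff_of_nonneg (fun i _ => hren i)).mp hre
  rcases hz i with h' | h'
  · rcases mul_eq_zero.mp (him0 i (mem_univ i)) with h'' | h''
    · exact absurd h'' h'.ne'
    · exact h''
  · rcases mul_eq_zero.mp (hre0 i (mem_univ i)) with h'' | h''
    · exact absurd h'' h'.2.ne'
    · exact h''

/-- Stability of the spanning tree polynomial, with real positive coordinates allowed. -/
theorem treePoly_ne_zero (hconn : (G.induce (S : Set V)).Connected) (z : Sym2 V → ℂ)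
    (hz : ∀ e ∈ edgesIn G S, GoodPoint (z e)) : treePoly G S z ≠ 0 := by
  classical
  obtain ⟨⟨r, hr⟩⟩ := hconn.nonempty
  have hr' : r ∈ S := hr
  intro h0
  rw [treePoly_eq_det hr'] at h0
  obtain ⟨v, hv0, hv⟩ := Matrix.exists_mulVec_eq_zero_iff.mpr h0
  apply hv0
  set B := incM G S r ℂ with hB
  -- the edge values of `v`
  let y : edgesIn G S → ℂ := fun e => ∑ x, B x e * v x
  have hy : ∀ e : edgesIn G S, y e = extZero v (ep e.1).1 - extZero v (ep e.1).2 := by
    intro e
    have := sum_inc (extZero v) (extZero_root v) e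
    simp_rw [extZero_coe] at this
    rw [← this]
    exact Finset.sum_congr rfl fun x _ => mul_comm _ _
  -- the matrix is real
  have hBreal : ∀ x e, star (B x e) = B x e := by
    intro x e
    simp only [hB, incM]
    split_ifs <;> simp
  have hquad : ∑ e : edgesIn G S, z e.1 * ((Complex.normSq (y e) : ℝ) : ℂ) = 0 := by
    have h1 : ∀ x, ∑ e : edgesIn G S, B x e * (z e.1 * y e) = 0 := by
      intro x
      have h2 := congrFun hv x
      rw [Matrix.mul_assoc, ← Matrix.mulVec_mulVec, ← Matrix.mulVec_mulVec] at h2
      simp only [Matrix.mulVec, dotProduct, Pi.zero_apply, Matrix.diagonal_apply,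
        Matrix.transpose_apply] at h2
      rw [← h2]
      refine Finset.sum_congr rfl fun e _ => ?_
      congr 1
      rw [Finset.sum_eq_single e]
      · simp [y]
      · intro b _ hb
        simp [hb.symm]
      · simp
    have h3 : ∑ x, star (v x) * ∑ e : edgesIn G S, B x e * (z e.1 * y e) = 0 :=
      Finset.sum_eq_zero fun x _ => by rw [h1 x, mul_zero]
    rw [← h3]
    simp_rw [Finset.mul_sum]
    rw [Finset.sum_comm]
    refine Finset.sum_congr rfl fun e _ => ?_
    have h4 : star (y e) = ∑ x, star (v x) * B x e := by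
      simp only [y, star_sum, star_mul', hBreal]
      exact Finset.sum_congr rfl fun x _ => mul_comm _ _
    have h5 : ((Complex.normSq (y e) : ℝ) : ℂ) = star (y e) * y e := by
      rw [Complex.normSq_eq_conj_mul_self]
      rfl
    rw [h5, h4, Finset.sum_mul, Finset.mul_sum]
    refine Finset.sum_congr rfl fun x _ => ?_
    ring
  have hzero : ∀ e : edgesIn G S, y e = 0 := by
    intro e
    have := sum_mul_normSq_eq_zero (fun e : edgesIn G S => z e.1)
      (fun e => Complex.normSq (y e)) (fun e => hz e.1 e.2)
      (fun e => Complex.normSq_nonneg _) hquad e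
    exact Complex.normSq_eq_zero.mp this
  have hconst : ∀ x ∈ S, extZero v x = extZero v r := by
    intro x hx
    -- walk in the induced graph
    have key : ∀ a b : (S : Set V), (G.induce (S : Set V)).Walk a b →
        extZero v a.1 = extZero v b.1 := by
      intro a b p
      induction p with
      | nil => rfl
      | @cons a b c hab _ ih =>
        have hadj : G.Adj a.1 b.1 := by simpa using hab
        have he : s(a.1, b.1) ∈ edgesIn G S := by
          rw [mem_edgesIn]
          refine ⟨?_, by simpa using hadj⟩
          intro x hx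
          rcases Sym2.mem_iff.mp hx with rfl | rfl
          · exact a.2
          · exact b.2
        have h0 := hzero ⟨_, he⟩
        rw [hy] at h0
        have hge := sub_eq_zero.mp h0
        have hspec := ep_spec s(a.1, b.1)
        have : extZero v a.1 = extZero v b.1 := by
          rcases Sym2.eq_iff.mp hspec with ⟨h1, h2⟩ | ⟨h1, h2⟩
          · rw [h1, h2] at hge; exact hge
          · rw [h1, h2] at hge; exact hge.symm
        rw [this]
        exact ih
    obtain ⟨p⟩ := hconn.preconnected ⟨x, hx⟩ ⟨r, hr⟩
    exact key _ _ p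
  ext x
  have := hconst x.1 (Finset.mem_of_mem_erase x.2)
  rw [extZero_coe, extZero_root] at this
  simpa using this

end Stability

end Crest.Agent.Lib.SRF
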