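import Crest.Agent.Lib.SRF.TreePoly
import Crest.Agent.Lib.SRF.SRMono

/-!
# Rayleigh monotonicity of the uniform spanning tree along connected pieces

`ustContains G S₂ F ≤ ustContains G S₁ F` for connected pieces `S₁ ⊆ S₂` and `F` inside `S₁`.
-/

set_option autoImplicit false

namespace Crest.Agent.Lib.SRF

open Finset Crest.ProbabilityR.SpanningTrees Crest.Agent.SRF

variable {V : Type*} {G : SimpleGraph V}

section Leaf

variable [DecidableEq V] {S : Finset V} {v x : V} {B : Finset (Sym2 V)}

/-- Edges of a piece, after adding a vertex: an edge not at `v` lies in the old piece. -/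
theorem mem_edgesIn_of_insert {e : Sym2 V} (he : e ∈ edgesIn G (insert v S)) (hv : v ∉ e) :
    e ∈ edgesIn G S := by
  rw [mem_edgesIn] at he ⊢
  refine ⟨fun y hy => ?_, he.2⟩
  have h := he.1 y hy
  rcases Finset.mem_insert.mp h with rfl | h
  · exact absurd hy hv
  · exact h

theorem edgesIn_mono {S₁ S₂ : Finset V} (h : S₁ ⊆ S₂) : edgesIn G S₁ ⊆ edgesIn G S₂ := by
  intro e he
  rw [mem_edgesIn] at he ⊢
  exact ⟨fun y hy => h (he.1 y hy), he.2⟩

theorem not_mem_of_mem_edgesIn {e : Sym2 V} (he : e ∈ edgesIn G S) (hv : v ∉ S) : v ∉ e :=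
  fun h => hv ((mem_edgesIn.mp he).1 v h)

/-- Connectivity does not change by attaching a pendant edge. -/
theorem connected_insert_iff (hvS : v ∉ S) (hx : x ∈ S) (hB : B ⊆ edgesIn G S) :
    (pieceGraph (insert v S) (insert s(v, x) B)).Connected ↔ (pieceGraph S B).Connected := by
  have hxv : x ≠ v := fun h => hvS (h ▸ hx)
  have hvS' : v ∈ ((insert v S : Finset V) : Set V) := by simp
  have hxS' : x ∈ ((insert v S : Finset V) : Set V) := by simp [hx]
  haveI hne : Nonempty (S : Set V) := ⟨⟨x, hx⟩⟩
  constructor
  · intro h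
    let ρ : ((insert v S : Finset V) : Set V) → (S : Set V) := fun y =>
      if hy : y.1 = v then ⟨x, hx⟩ else ⟨y.1, by
        have := y.2
        simp only [Finset.coe_insert, Set.mem_insert_iff] at this
        rcases this with h' | h'
        · exact absurd h' hy
        · exact h'⟩
    have key : ∀ a b : ((insert v S : Finset V) : Set V),
        (pieceGraph (insert v S) (insert s(v, x) B)).Walk a b →
        (pieceGraph S B).Reachable (ρ a) (ρ b) := by
      intro a b p
      induction p with
      | nil => exact SimpleGraph.Reachable.refl _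
      | @cons a b c hab _ ih =>
        refine SimpleGraph.Reachable.trans ?_ ih
        have hadj : s(a.1, b.1) ∈ insert s(v, x) B ∧ a.1 ≠ b.1 := by
          simpa [SimpleGraph.comap_adj] using hab
        rcases Finset.mem_insert.mp hadj.1 with h1 | h1
        · rcases Sym2.eq_iff.mp h1 with ⟨h2, h3⟩ | ⟨h2, h3⟩
          · have e1 : ρ a = ⟨x, hx⟩ := by simp [ρ, h2]
            have e2 : ρ b = ⟨x, hx⟩ := by
              have : b.1 ≠ v := by rw [h3]; exact hxv
              simp only [ρ, this, dif_neg, not_false_eq_true]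
              exact Subtype.ext h3
            rw [e1, e2]
          · have e1 : ρ b = ⟨x, hx⟩ := by simp [ρ, h3]
            have e2 : ρ a = ⟨x, hx⟩ := by
              have : a.1 ≠ v := by rw [h2]; exact hxv
              simp only [ρ, this, dif_neg, not_false_eq_true]
              exact Subtype.ext h2
            rw [e1, e2]
        · have hnot := not_mem_of_mem_edgesIn (hB h1) hvS
          have ha : a.1 ≠ v := fun h => hnot (Sym2.mem_iff.mpr (Or.inl h.symm))
          have hb : b.1 ≠ v := fun h => hnot (Sym2.mem_iff.mpr (Or.inr h.symm))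
          have hadj' : (pieceGraph S B).Adj (ρ a) (ρ b) := by
            simp only [ρ, ha, hb, dif_neg, not_false_eq_true]
            simp only [SimpleGraph.comap_adj, SimpleGraph.fromEdgeSet_adj,
              Function.Embedding.subtype_apply]
            exact ⟨by simpa using h1, hadj.2⟩
          exact hadj'.reachable
    refine ⟨fun a b => ?_⟩
    obtain ⟨p⟩ := h.preconnected ⟨a.1, by simp [show a.1 ∈ S from a.2]⟩
      ⟨b.1, by simp [show b.1 ∈ S from b.2]⟩
    have := key _ _ p
    have ea : ρ ⟨a.1, by simp [show a.1 ∈ S from a.2]⟩ = a := by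
      have hne : a.1 ≠ v := fun h => hvS (h ▸ a.2)
      simp only [ρ, hne, dif_neg, not_false_eq_true]
    have eb : ρ ⟨b.1, by simp [show b.1 ∈ S from b.2]⟩ = b := by
      have hne : b.1 ≠ v := fun h => hvS (h ▸ b.2)
      simp only [ρ, hne, dif_neg, not_false_eq_true]
    rwa [ea, eb] at this
  · intro h
    haveI : Nonempty ((insert v S : Finset V) : Set V) := ⟨⟨v, hvS'⟩⟩
    let φ : (pieceGraph S B) →g (pieceGraph (insert v S) (insert s(v, x) B)) :=
      { toFun := fun y => ⟨y.1, by simp [show y.1 ∈ S from y.2]⟩
        map_rel' := by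
          intro a b hab
          have hadj : s(a.1, b.1) ∈ B ∧ a.1 ≠ b.1 := by
            simpa [SimpleGraph.comap_adj] using hab
          simp only [SimpleGraph.comap_adj, SimpleGraph.fromEdgeSet_adj,
            Function.Embedding.subtype_apply]
          exact ⟨by simpa using Or.inr hadj.1, hadj.2⟩ }
    have hvx : (pieceGraph (insert v S) (insert s(v, x) B)).Adj ⟨v, hvS'⟩ ⟨x, hxS'⟩ := by
      simp only [SimpleGraph.comap_adj, SimpleGraph.fromEdgeSet_adj,
        Function.Embedding.subtype_apply]
      exact ⟨by simp, fun h => hxv h.symm⟩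
    have hreach : ∀ a : ((insert v S : Finset V) : Set V),
        (pieceGraph (insert v S) (insert s(v, x) B)).Reachable a ⟨x, hxS'⟩ := by
      intro a
      by_cases ha : a.1 = v
      · have : a = ⟨v, hvS'⟩ := Subtype.ext ha
        rw [this]
        exact hvx.reachable
      · have ha' : a.1 ∈ S := by
          have := a.2
          simp only [Finset.coe_insert, Set.mem_insert_iff] at this
          rcases this with h' | h'
          · exact absurd h' ha
          · exact h'
        have := (h.preconnected ⟨a.1, ha'⟩ ⟨x, hx⟩).map φ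
        exact this
    refine ⟨fun a b => (hreach a).trans (hreach b).symm⟩

/-- Attaching a pendant edge at a new vertex preserves and reflects being a spanning tree. -/
theorem isSpanningTreeOn_insert_iff (hvS : v ∉ S) (hx : x ∈ S) (hadj : G.Adj v x)
    (hB : B ⊆ edgesIn G S) :
    IsSpanningTreeOn G (insert v S) (insert s(v, x) B) ↔ IsSpanningTreeOn G S B := by
  have hf : s(v, x) ∈ edgesIn G (insert v S) := by
    rw [mem_edgesIn]
    refine ⟨?_, by simpa using hadj⟩
    intro y hy
    rcases Sym2.mem_iff.mp hy with rfl | rfl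
    · simp
    · simp [hx]
  have hsub : insert s(v, x) B ⊆ edgesIn G (insert v S) := by
    intro e he
    rcases Finset.mem_insert.mp he with rfl | he
    · exact hf
    · exact edgesIn_mono (Finset.subset_insert _ _) (hB he)
  have hfB : s(v, x) ∉ B := fun h => not_mem_of_mem_edgesIn (hB h) hvS (by simp)
  have hcard1 : (insert s(v, x) B).card = B.card + 1 := Finset.card_insert_of_notMem hfB
  have hcard2 : (insert v S).card = S.card + 1 := Finset.card_insert_of_notMem hvS
  unfold IsSpanningTreeOn
  constructor
  · rintro ⟨_, h⟩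
    refine ⟨hB, ?_⟩
    have hc := card_of_isTree hsub h
    have hc' : B.card + 1 = S.card := by omega
    rw [show ((SimpleGraph.fromEdgeSet (B : Set (Sym2 V))).induce (S : Set V)) = pieceGraph S B
      from rfl, isTree_iff_connected_of_card hB hc']
    exact (connected_insert_iff hvS hx hB).mp h.connected
  · rintro ⟨_, h⟩
    refine ⟨hsub, ?_⟩
    have hc := card_of_isTree hB h
    have hc' : (insert s(v, x) B).card + 1 = (insert v S).card := by omega
    rw [show ((SimpleGraph.fromEdgeSet ((insert s(v, x) B : Finset (Sym2 V)) : Set (Sym2 V))).induce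
      ((insert v S : Finset V) : Set V)) = pieceGraph (insert v S) (insert s(v, x) B) from rfl,
      isTree_iff_connected_of_card hsub hc']
    exact (connected_insert_iff hvS hx hB).mpr h.connected

end Leaf

section Coef

open scoped Classical

/-- Indicator of spanning trees of the piece. -/
noncomputable def treeCoef (G : SimpleGraph V) (S : Finset V) (A : Finset (Sym2 V)) : ℝ :=
  if IsSpanningTreeOn G S A then 1 else 0

theorem treePoly_eq_sum (S : Finset V) (z : Sym2 V → ℂ) :
    treePoly G S z = ∑ A ∈ (edgesIn G S).powerset, ((treeCoef G S A : ℝ) : ℂ) * ∏ e ∈ A, z e := by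
  unfold treePoly
  rw [Finset.sum_filter]
  refine Finset.sum_congr rfl fun A _ => ?_
  by_cases h : IsSpanningTreeOn G S A <;> simp [treeCoef, h]

theorem isSRCoef_tree {S : Finset V} (hconn : (G.induce (S : Set V)).Connected) :
    IsSRCoef (edgesIn G S) (treeCoef G S) := by
  refine ⟨?_, ?_, ?_⟩
  · intro A _
    unfold treeCoef
    split_ifs <;> norm_num
  · have h := treePoly_ne_zero hconn (fun _ => (1 : ℂ)) (fun e _ => Or.inr ⟨by simp, by simp⟩)
    rw [treePoly_eq_sum] at h
    simp only [Finset.prod_const_one, mul_one] at h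
    have hnn : 0 ≤ ∑ A ∈ (edgesIn G S).powerset, treeCoef G S A :=
      Finset.sum_nonneg fun A _ => by unfold treeCoef; split_ifs <;> norm_num
    refine lt_of_le_of_ne hnn (fun h0 => h ?_)
    rw [← Complex.ofReal_sum, ← h0]
    simp
  · intro z hz
    rw [← treePoly_eq_sum]
    exact treePoly_ne_zero hconn z (fun e he => Or.inl (hz e he))

theorem QQ_tree_eq_card [DecidableEq V] (S : Finset V) (F : Finset (Sym2 V)) :
    QQ (edgesIn G S) (treeCoef G S) F =
      (((edgesIn G S).powerset.filter (fun A => IsSpanningTreeOn G S A ∧ F ⊆ A)).card : ℝ) := by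
  unfold QQ
  rw [Finset.card_filter]
  push_cast
  rw [Finset.sum_filter]
  refine Finset.sum_congr rfl fun A _ => ?_
  by_cases h1 : IsSpanningTreeOn G S A <;> by_cases h2 : F ⊆ A <;> simp [treeCoef, h1, h2]

theorem card_filter_inst {α : Type*} (X : Finset α) (P : α → Prop) (i1 i2 : DecidablePred P) :
    ((@Finset.filter α P i1 X).card : ℝ) = ((@Finset.filter α P i2 X).card : ℝ) := by
  have : i1 = i2 := Subsingleton.elim _ _
  rw [this]

theorem QQ_tree_empty_eq_card [DecidableEq V] (S : Finset V) :
    QQ (edgesIn G S) (treeCoef G S) ∅ =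
      (((edgesIn G S).powerset.filter (fun A => IsSpanningTreeOn G S A)).card : ℝ) := by
  rw [QQ_tree_eq_card]
  have : (edgesIn G S).powerset.filter (fun A => IsSpanningTreeOn G S A ∧ ∅ ⊆ A) =
      (edgesIn G S).powerset.filter (fun A => IsSpanningTreeOn G S A) := by
    ext A
    simp only [Finset.mem_filter, Finset.empty_subset, and_true]
  rw [this]

theorem ustContains_eq_QQ [DecidableEq V] (S : Finset V) (F : Finset (Sym2 V)) :
    ustContains G S F = QQ (edgesIn G S) (treeCoef G S) F / QQ (edgesIn G S) (treeCoef G S) ∅ := by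
  rw [QQ_tree_eq_card, QQ_tree_empty_eq_card]
  unfold ustContains
  exact congrArg₂ (· / ·) (card_filter_inst _ _ _ _) (card_filter_inst _ _ _ _)

/-- One vertex step of Rayleigh monotonicity. -/
theorem ustContains_insert_le [DecidableEq V] {S : Finset V} {F : Finset (Sym2 V)} {v : V}
    (hvS : v ∉ S)
    (hS : (G.induce (S : Set V)).Connected)
    (hS' : (G.induce ((insert v S : Finset V) : Set V)).Connected)
    (hF : F ⊆ edgesIn G S) :
    ustContains G (insert v S) F ≤ ustContains G S F := by
  set E' := edgesIn G (insert v S) with hE'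
  set E := edgesIn G S with hE
  set D := E'.filter (fun e => v ∈ e) with hD
  have hEE' : E ⊆ E' := edgesIn_mono (Finset.subset_insert _ _)
  have hsr' := isSRCoef_tree hS'
  have hsr := isSRCoef_tree hS
  have hFD : Disjoint F D := by
    rw [Finset.disjoint_left]
    intro e he hed
    exact not_mem_of_mem_edgesIn (hF he) hvS (Finset.mem_filter.mp hed).2
  obtain ⟨⟨x₀, hx₀⟩⟩ := hS.nonempty
  have hx₀' : x₀ ∈ S := hx₀
  have hvx₀ : v ≠ x₀ := fun h => hvS (h ▸ hx₀')
  -- trees meet `D`
  have hmeet : ∀ A ∈ E'.powerset, treeCoef G (insert v S) A ≠ 0 → (A ∩ D).card ≠ 0 := by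
    intro A hA hne
    have hA' : IsSpanningTreeOn G (insert v S) A := by
      by_contra h
      exact hne (by simp [treeCoef, h])
    have hconn := hA'.2.connected
    obtain ⟨p⟩ := hconn.preconnected ⟨v, by simp⟩ ⟨x₀, by simp [hx₀']⟩
    have hcase : ∃ y, s(v, y) ∈ A := by
      cases p with
      | nil => exact absurd rfl hvx₀
      | @cons _ b _ hab _ =>
        refine ⟨b.1, ?_⟩
        have : s(v, b.1) ∈ A ∧ v ≠ b.1 := by simpa [SimpleGraph.comap_adj] using hab
        exact this.1
    obtain ⟨y, hy⟩ := hcase
    have hmem : s(v, y) ∈ A ∩ D := by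
      rw [Finset.mem_inter, hD, Finset.mem_filter]
      exact ⟨hy, Finset.mem_powerset.mp hA hy, by simp⟩
    exact Finset.card_ne_zero.mpr ⟨_, hmem⟩
  have hlow := lowest_ineq hsr' hFD hmeet
  -- `D` is nonempty
  have hDpos : 0 < D.card := by
    obtain ⟨A, hA, hApos⟩ : ∃ A ∈ E'.powerset, treeCoef G (insert v S) A ≠ 0 := by
      by_contra hcon
      push Not at hcon
      have := hsr'.pos
      rw [Finset.sum_eq_zero hcon] at this
      exact lt_irrefl _ this
    have := hmeet A hA hApos
    have h2 : (A ∩ D).card ≤ D.card := Finset.card_le_card Finset.inter_subset_right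
    omega
  -- shape of the edges in `D`
  have hfD : ∀ f ∈ D, ∃ x ∈ S, f = s(v, x) ∧ G.Adj v x := by
    intro f hf
    rw [hD, Finset.mem_filter] at hf
    obtain ⟨hfE, hvf⟩ := hf
    obtain ⟨x, rfl⟩ := hvf
    have hmem := mem_edgesIn.mp hfE
    have hadj : G.Adj v x := by simpa using hmem.2
    have hxv : x ≠ v := (G.ne_of_adj hadj).symm
    have hx : x ∈ S := by
      have := hmem.1 x (by simp)
      rcases Finset.mem_insert.mp this with h | h
      · exact absurd h hxv
      · exact h
    exact ⟨x, hx, rfl, hadj⟩
  have hnotD : ∀ e ∈ E, e ∉ D := fun e he hed =>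
    not_mem_of_mem_edgesIn he hvS (Finset.mem_filter.mp hed).2
  -- identification of lowest order sums
  have hcount : ∀ F' : Finset (Sym2 V), F' ⊆ E →
      ∑ A ∈ E'.powerset.filter (fun A => F' ⊆ A ∧ (A ∩ D).card = 1), treeCoef G (insert v S) A =
        (D.card : ℝ) * QQ E (treeCoef G S) F' := by
    intro F' hF'
    have hprod : (D.card : ℝ) * QQ E (treeCoef G S) F' =
        ∑ p ∈ D ×ˢ (E.powerset.filter (fun B => F' ⊆ B)), treeCoef G S p.2 := by
      rw [Finset.sum_product]
      simp only [Finset.sum_const, nsmul_eq_mul]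
      rfl
    rw [hprod]
    symm
    refine Finset.sum_bij (fun p _ => insert p.1 p.2) ?_ ?_ ?_ ?_
    · rintro ⟨f, B⟩ hp
      simp only [Finset.mem_product, Finset.mem_filter, Finset.mem_powerset] at hp
      obtain ⟨hf, hBE, hFB⟩ := hp
      simp only [Finset.mem_filter, Finset.mem_powerset]
      refine ⟨?_, hFB.trans (Finset.subset_insert _ _), ?_⟩
      · intro e he
        rcases Finset.mem_insert.mp he with rfl | he
        · exact (Finset.mem_filter.mp hf).1
        · exact hEE' (hBE he)
      · have : insert f B ∩ D = {f} := by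
          ext e
          simp only [Finset.mem_inter, Finset.mem_insert, Finset.mem_singleton]
          constructor
          · rintro ⟨h1 | h1, h2⟩
            · exact h1
            · exact absurd h2 (hnotD e (hBE h1))
          · rintro rfl
            exact ⟨Or.inl rfl, hf⟩
        rw [this]
        simp
    · rintro ⟨f, B⟩ hp ⟨f', B'⟩ hp' heq
      simp only [Finset.mem_product, Finset.mem_filter, Finset.mem_powerset] at hp hp'
      obtain ⟨hf, hBE, _⟩ := hp
      obtain ⟨hf', hBE', _⟩ := hp'
      simp only at heq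
      have hff' : f = f' := by
        have h1 : f ∈ insert f' B' := heq ▸ Finset.mem_insert_self f B
        rcases Finset.mem_insert.mp h1 with h | h
        · exact h
        · exact absurd hf (hnotD f (hBE' h))
      subst hff'
      have hfB : f ∉ B := fun h => hnotD f (hBE h) hf
      have hfB' : f ∉ B' := fun h => hnotD f (hBE' h) hf
      have : B = B' := by
        rw [← Finset.erase_insert hfB, heq, Finset.erase_insert hfB']
      rw [this]
    · intro A hA
      simp only [Finset.mem_filter, Finset.mem_powerset] at hA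
      obtain ⟨hAE, hFA, hcard⟩ := hA
      obtain ⟨f, hf⟩ := Finset.card_eq_one.mp hcard
      have hfmem : f ∈ A ∩ D := by rw [hf]; simp
      have hfA := (Finset.mem_inter.mp hfmem).1
      have hfDD := (Finset.mem_inter.mp hfmem).2
      have hBE : A.erase f ⊆ E := by
        intro e he
        have heA := Finset.mem_of_mem_erase he
        have hne := Finset.ne_of_mem_erase he
        apply mem_edgesIn_of_insert (hAE heA)
        intro hve
        have : e ∈ A ∩ D := by
          rw [Finset.mem_inter, hD, Finset.mem_filter]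
          exact ⟨heA, hAE heA, hve⟩
        rw [hf] at this
        exact hne (Finset.mem_singleton.mp this)
      have hFB : F' ⊆ A.erase f := by
        intro e he
        refine Finset.mem_erase.mpr ⟨?_, hFA he⟩
        rintro rfl
        exact hnotD e (hF' he) hfDD
      refine ⟨(f, A.erase f), ?_, ?_⟩
      · simp only [Finset.mem_product, Finset.mem_filter, Finset.mem_powerset]
        exact ⟨hfDD, hBE, hFB⟩
      · simp only
        exact Finset.insert_erase hfA
    · rintro ⟨f, B⟩ hp
      simp only [Finset.mem_product, Finset.mem_filter, Finset.mem_powerset] at hp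
      obtain ⟨hf, hBE, _⟩ := hp
      obtain ⟨x, hx, rfl, hadj⟩ := hfD f hf
      have := isSpanningTreeOn_insert_iff hvS hx hadj hBE
      simp only [treeCoef]
      by_cases h : IsSpanningTreeOn G S B
      · rw [if_pos h, if_pos (this.mpr h)]
      · rw [if_neg h, if_neg (fun h' => h (this.mp h'))]
  have h1 := hcount F hF
  have h2 := hcount ∅ (Finset.empty_subset _)
  have h3 : E'.powerset.filter (fun A => (∅ : Finset (Sym2 V)) ⊆ A ∧ (A ∩ D).card = 1) =
      E'.powerset.filter (fun A => (A ∩ D).card = 1) := by
    apply Finset.filter_congr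
    intro A _
    simp
  rw [h3] at h2
  rw [h1, h2] at hlow
  have hD' : (0:ℝ) < D.card := by exact_mod_cast hDpos
  have hcross : QQ E' (treeCoef G (insert v S)) F * QQ E (treeCoef G S) ∅ ≤
      QQ E (treeCoef G S) F * QQ E' (treeCoef G (insert v S)) ∅ := by
    have : (D.card : ℝ) * (QQ E' (treeCoef G (insert v S)) F * QQ E (treeCoef G S) ∅) ≤
        (D.card : ℝ) * (QQ E (treeCoef G S) F * QQ E' (treeCoef G (insert v S)) ∅) := by
      nlinarith [hlow]
    exact le_of_mul_le_mul_left this hD'
  rw [ustContains_eq_QQ, ustContains_eq_QQ]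
  have hpos1 : 0 < QQ E' (treeCoef G (insert v S)) ∅ := by
    rw [QQ_empty]; exact hsr'.pos
  have hpos2 : 0 < QQ E (treeCoef G S) ∅ := by
    rw [QQ_empty]; exact hsr.pos
  rw [div_le_div_iff₀ hpos1 hpos2]
  exact hcross

/-- Adding an adjacent vertex keeps a piece connected. -/
theorem connected_insert_of_adj [DecidableEq V] {S : Finset V} {v y : V}
    (hS : (G.induce (S : Set V)).Connected) (hy : y ∈ S) (hadj : G.Adj v y) :
    (G.induce ((insert v S : Finset V) : Set V)).Connected := by
  have hvS' : v ∈ ((insert v S : Finset V) : Set V) := by simp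
  have hyS' : y ∈ ((insert v S : Finset V) : Set V) := by simp [hy]
  haveI : Nonempty ((insert v S : Finset V) : Set V) := ⟨⟨v, hvS'⟩⟩
  let φ : (G.induce (S : Set V)) →g (G.induce ((insert v S : Finset V) : Set V)) :=
    { toFun := fun z => ⟨z.1, by simp [show z.1 ∈ S from z.2]⟩
      map_rel' := by
        intro a b hab
        simpa using hab }
  have hvy : (G.induce ((insert v S : Finset V) : Set V)).Adj ⟨v, hvS'⟩ ⟨y, hyS'⟩ := by
    simpa using hadj
  have hreach : ∀ a : ((insert v S : Finset V) : Set V),
      (G.induce ((insert v S : Finset V) : Set V)).Reachable a ⟨y, hyS'⟩ := by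
    intro a
    by_cases ha : a.1 = v
    · have : a = ⟨v, hvS'⟩ := Subtype.ext ha
      rw [this]
      exact hvy.reachable
    · have ha' : a.1 ∈ S := by
        have := a.2
        simp only [Finset.coe_insert, Set.mem_insert_iff] at this
        rcases this with h' | h'
        · exact absurd h' ha
        · exact h'
      exact (hS.preconnected ⟨a.1, ha'⟩ ⟨y, hy⟩).map φ
  exact ⟨fun a b => (hreach a).trans (hreach b).symm⟩

/-- **Rayleigh monotonicity** along connected pieces. -/
theorem ustContains_anti {S₁ S₂ : Finset V} {F : Finset (Sym2 V)}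
    (h₁ : (G.induce (S₁ : Set V)).Connected) (h₂ : (G.induce (S₂ : Set V)).Connected)
    (hsub : S₁ ⊆ S₂) (hF : F ⊆ edgesIn G S₁) :
    ustContains G S₂ F ≤ ustContains G S₁ F := by
  classical
  induction hk : (S₂ \ S₁).card generalizing S₁ with
  | zero =>
    have : S₁ = S₂ := by
      apply Finset.Subset.antisymm hsub
      exact Finset.sdiff_eq_empty_iff_subset.mp (Finset.card_eq_zero.mp hk)
    rw [this]
  | succ k ih =>
    obtain ⟨b, hb⟩ : (S₂ \ S₁).Nonempty := by
      rw [← Finset.card_pos, hk]; omega
    have hb2 : b ∈ S₂ := (Finset.mem_sdiff.mp hb).1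
    have hb1 : b ∉ S₁ := (Finset.mem_sdiff.mp hb).2
    obtain ⟨⟨x₀, hx₀⟩⟩ := h₁.nonempty
    have hx₀' : x₀ ∈ S₁ := hx₀
    obtain ⟨p⟩ := h₂.preconnected ⟨x₀, hsub hx₀'⟩ ⟨b, hb2⟩
    obtain ⟨d, _, hd1, hd2⟩ := p.exists_boundary_dart {z | z.1 ∈ S₁} hx₀' hb1
    set y := d.fst.1 with hy
    set v := d.snd.1 with hv
    have hyS : y ∈ S₁ := hd1
    have hvS : v ∉ S₁ := hd2
    have hvS₂ : v ∈ S₂ := d.snd.2
    have hadj : G.Adj v y := by
      have := d.adj
      simpa using this.symm
    have hconn := connected_insert_of_adj h₁ hyS hadj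
    have hsub' : insert v S₁ ⊆ S₂ := Finset.insert_subset hvS₂ hsub
    have hcard : (S₂ \ insert v S₁).card = k := by
      have h1 : S₂ \ insert v S₁ = (S₂ \ S₁).erase v := by
        ext z
        simp only [Finset.mem_sdiff, Finset.mem_insert, Finset.mem_erase]
        tauto
      rw [h1, Finset.card_erase_of_mem (Finset.mem_sdiff.mpr ⟨hvS₂, hvS⟩), hk]
      rfl
    have step1 := ih hconn hsub' ((hF.trans (edgesIn_mono (Finset.subset_insert _ _)))) hcard
    exact step1.trans (ustContains_insert_le hvS h₁ hconn hF)

end Coef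

end Crest.Agent.Lib.SRF
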