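/- Row 168, S0254: limit inclusion probabilities, the coefficients and the mean functional of the universal rule;
equivariance under relabelling and joint measurability in the adjacency table. -/
import Crest.Agent.Lib.SRF.Measur
import Crest.Agent.Lib.SRF.TreePoly
import Crest.Prelude.Def_GraphTables

set_option autoImplicit false

namespace Crest.Agent.Lib.SRF

open MeasureTheory Set Filter Crest.ProbabilityR.SpanningTrees Crest.ProbabilityR.GraphTables
open scoped Classical

namespace UstMean

/-- `F` lives in the connected piece `S`. -/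
def IsPiece (G : SimpleGraph ℕ) (S : Finset ℕ) (F : Finset (Sym2 ℕ)) : Prop :=
  (G.induce (S : Set ℕ)).Connected ∧ ∀ e ∈ F, ∀ v ∈ e, v ∈ S

/-- The limit inclusion probabilities: infimum over all connected pieces containing the endpoints of `F`. -/
noncomputable def pG (G : SimpleGraph ℕ) (F : Finset (Sym2 ℕ)) : ℝ :=
  ⨅ S : Finset ℕ, if IsPiece G S F then ustContains G S F else 1

/-- Inclusion-exclusion: the limit mass of the cylinder "exactly `S` inside `W`". -/
noncomputable def cG (G : SimpleGraph ℕ) (W S : Finset (Sym2 ℕ)) : ℝ :=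
  ∑ T ∈ (W \ S).powerset, (-1 : ℝ) ^ T.card * pG G (S ∪ T)

/-- The mean functional of the rule, for a window family `wd`. -/
noncomputable def mGw (wd : SimpleGraph ℕ → Sym2 ℕ → ℕ → Finset (Sym2 ℕ)) (G : SimpleGraph ℕ) (e : Sym2 ℕ) (n : ℕ)
    (h : Sym2 ℕ → ℝ) : ℝ :=
  tiltMean (cG G (wd G e n)) (wd G e n) e h

/-! ### Equivariance -/

/-- A permutation of the vertices acts on pairs. -/
def symE (σ : Equiv.Perm ℕ) : Sym2 ℕ ≃ Sym2 ℕ where
  toFun := Sym2.map σ
  invFun := Sym2.map σ.symm
  left_inv e := by
    induction e using Sym2.ind with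
    | _ a b => simp
  right_inv e := by
    induction e using Sym2.ind with
    | _ a b => simp

@[simp] theorem symE_pair (σ : Equiv.Perm ℕ) (a b : ℕ) : symE σ s(a, b) = s(σ a, σ b) := rfl

theorem symE_apply (σ : Equiv.Perm ℕ) (e : Sym2 ℕ) : symE σ e = Sym2.map σ e := rfl

theorem mem_image_perm (σ : Equiv.Perm ℕ) (S : Finset ℕ) (a : ℕ) : σ a ∈ S.image σ ↔ a ∈ S := by
  simp

theorem mem_edgesIn_comap (G : SimpleGraph ℕ) (σ : Equiv.Perm ℕ) (S : Finset ℕ) (e : Sym2 ℕ) :
    e ∈ edgesIn (G.comap σ) S ↔ symE σ e ∈ edgesIn G (S.image σ) := by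
  induction e using Sym2.ind with
  | _ a b =>
    rw [mem_edgesIn, mem_edgesIn]
    simp only [symE_pair, Sym2.mem_iff, SimpleGraph.mem_edgeSet, SimpleGraph.comap_adj, forall_eq_or_imp,
      forall_eq, mem_image_perm]

theorem image_edgesIn_comap (G : SimpleGraph ℕ) (σ : Equiv.Perm ℕ) (S : Finset ℕ) :
    (edgesIn (G.comap σ) S).image (symE σ) = edgesIn G (S.image σ) := by
  ext e
  obtain ⟨e', rfl⟩ := (symE σ).surjective e
  rw [← mem_edgesIn_comap, Finset.mem_image]
  constructor
  · rintro ⟨x, hx, hxe⟩
    rwa [← (symE σ).injective hxe]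
  · intro h
    exact ⟨e', h, rfl⟩

/-- Induced graphs along a permutation. -/
def indIso (σ : Equiv.Perm ℕ) (H H' : SimpleGraph ℕ) (S : Finset ℕ) (hadj : ∀ a b, H'.Adj (σ a) (σ b) ↔ H.Adj a b) :
    H.induce (S : Set ℕ) ≃g H'.induce ((S.image σ : Finset ℕ) : Set ℕ) where
  toEquiv := Equiv.subtypeEquiv σ fun a => by simp
  map_rel_iff' := by
    intro a b
    simp [hadj]

theorem connected_comap_iff (G : SimpleGraph ℕ) (σ : Equiv.Perm ℕ) (S : Finset ℕ) :
    ((G.comap σ).induce (S : Set ℕ)).Connected ↔ (G.induce ((S.image σ : Finset ℕ) : Set ℕ)).Connected :=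
  (indIso σ (G.comap σ) G S fun _ _ => Iff.rfl).connected_iff

theorem isSpanningTreeOn_comap_iff (G : SimpleGraph ℕ) (σ : Equiv.Perm ℕ) (S : Finset ℕ) (A : Finset (Sym2 ℕ)) :
    IsSpanningTreeOn (G.comap σ) S A ↔ IsSpanningTreeOn G (S.image σ) (A.image (symE σ)) := by
  unfold IsSpanningTreeOn
  refine and_congr ?_ ?_
  · rw [← image_edgesIn_comap]
    exact (Finset.image_subset_image_iff (symE σ).injective).symm
  · refine (indIso σ _ _ S fun a b => ?_).isTree_iff
    simp only [SimpleGraph.fromEdgeSet_adj, Finset.coe_image, Set.mem_image, Finset.mem_coe]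
    refine and_congr ?_ (by simp)
    constructor
    · rintro ⟨x, hx, hxe⟩
      have : x = s(a, b) := (symE σ).injective hxe
      exact this ▸ hx
    · intro h
      exact ⟨_, h, rfl⟩

theorem image_symE_symm_image (σ : Equiv.Perm ℕ) (A : Finset (Sym2 ℕ)) :
    (A.image (symE σ).symm).image (symE σ) = A := by
  ext e; simp

theorem image_symE_image_symm (σ : Equiv.Perm ℕ) (A : Finset (Sym2 ℕ)) :
    (A.image (symE σ)).image (symE σ).symm = A := by
  ext e; simp

/-- Transport of spanning tree counts. -/
theorem ustContains_comap (G : SimpleGraph ℕ) (σ : Equiv.Perm ℕ) (S : Finset ℕ) (F : Finset (Sym2 ℕ)) :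
    ustContains (G.comap σ) S F = ustContains G (S.image σ) (F.image (symE σ)) := by
  unfold ustContains
  have hsub : ∀ A : Finset (Sym2 ℕ), A ⊆ edgesIn (G.comap σ) S ↔ A.image (symE σ) ⊆ edgesIn G (S.image σ) := by
    intro A
    rw [← image_edgesIn_comap]
    exact (Finset.image_subset_image_iff (symE σ).injective).symm
  have hsub' : ∀ B : Finset (Sym2 ℕ), B ⊆ edgesIn G (S.image σ) → B.image (symE σ).symm ⊆ edgesIn (G.comap σ) S := by
    intro B hB
    rw [hsub, image_symE_symm_image]
    exact hB
  congr 2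
  · refine Finset.card_nbij' (fun A => A.image (symE σ)) (fun B => B.image (symE σ).symm) ?_ ?_ ?_ ?_
    · intro A hA
      simp only [Finset.coe_filter, Finset.mem_powerset, Set.mem_ofPred_eq] at hA ⊢
      refine ⟨(hsub A).1 hA.1, (isSpanningTreeOn_comap_iff G σ S A).1 hA.2.1, ?_⟩
      exact (Finset.image_subset_image_iff (symE σ).injective).2 hA.2.2
    · intro B hB
      simp only [Finset.coe_filter, Finset.mem_powerset, Set.mem_ofPred_eq] at hB ⊢
      refine ⟨hsub' B hB.1, ?_, ?_⟩
      · rw [isSpanningTreeOn_comap_iff, image_symE_symm_image]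
        exact hB.2.1
      · rw [← Finset.image_subset_image_iff (symE σ).injective, image_symE_symm_image]
        exact hB.2.2
    · intro A _
      exact image_symE_image_symm σ A
    · intro B _
      exact image_symE_symm_image σ B
  · refine Finset.card_nbij' (fun A => A.image (symE σ)) (fun B => B.image (symE σ).symm) ?_ ?_ ?_ ?_
    · intro A hA
      simp only [Finset.coe_filter, Finset.mem_powerset, Set.mem_ofPred_eq] at hA ⊢
      exact ⟨(hsub A).1 hA.1, (isSpanningTreeOn_comap_iff G σ S A).1 hA.2⟩
    · intro B hB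
      simp only [Finset.coe_filter, Finset.mem_powerset, Set.mem_ofPred_eq] at hB ⊢
      refine ⟨hsub' B hB.1, ?_⟩
      rw [isSpanningTreeOn_comap_iff, image_symE_symm_image]
      exact hB.2
    · intro A _
      exact image_symE_image_symm σ A
    · intro B _
      exact image_symE_symm_image σ B

theorem isPiece_comap_iff (G : SimpleGraph ℕ) (σ : Equiv.Perm ℕ) (S : Finset ℕ) (F : Finset (Sym2 ℕ)) :
    IsPiece (G.comap σ) S F ↔ IsPiece G (S.image σ) (F.image (symE σ)) := by
  unfold IsPiece
  refine and_congr (connected_comap_iff G σ S) ?_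
  constructor
  · intro h e he v hv
    obtain ⟨e', he', rfl⟩ := Finset.mem_image.1 he
    rw [symE_apply, Sym2.mem_map] at hv
    obtain ⟨a, ha, rfl⟩ := hv
    exact Finset.mem_image_of_mem _ (h e' he' a ha)
  · intro h e he v hv
    have h1 := h (symE σ e) (Finset.mem_image_of_mem _ he) (σ v) (by
      rw [symE_apply, Sym2.mem_map]; exact ⟨v, hv, rfl⟩)
    exact (mem_image_perm σ S v).1 h1

theorem pG_comap (G : SimpleGraph ℕ) (σ : Equiv.Perm ℕ) (F : Finset (Sym2 ℕ)) :
    pG (G.comap σ) F = pG G (F.image (symE σ)) := by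
  unfold pG
  refine Equiv.iInf_congr (Equiv.finsetCongr σ) fun S => ?_
  have : Equiv.finsetCongr σ S = S.image σ := by
    rw [Equiv.finsetCongr_apply, Finset.map_eq_image]
    rfl
  rw [this]
  simp only [isPiece_comap_iff, ustContains_comap]

theorem cG_comap (G : SimpleGraph ℕ) (σ : Equiv.Perm ℕ) (W S : Finset (Sym2 ℕ)) :
    cG G (W.image (symE σ)) (S.image (symE σ)) = cG (G.comap σ) W S := by
  unfold cG
  symm
  refine Finset.sum_nbij' (fun T => T.image (symE σ)) (fun T => T.image (symE σ).symm) ?_ ?_ ?_ ?_ ?_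
  · intro T hT
    simp only [Finset.mem_powerset] at hT ⊢
    rw [← Finset.image_sdiff _ _ (symE σ).injective]
    exact Finset.image_subset_image hT
  · intro T hT
    simp only [Finset.mem_powerset] at hT ⊢
    rw [← Finset.image_subset_image_iff (symE σ).injective, image_symE_symm_image,
      Finset.image_sdiff _ _ (symE σ).injective]
    exact hT
  · intro T _
    exact image_symE_image_symm σ T
  · intro T _
    exact image_symE_symm_image σ T
  · intro T _
    rw [Finset.card_image_of_injective _ (symE σ).injective, pG_comap, Finset.image_union]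

section TiltEquiv

variable {E : Type*} [DecidableEq E] (s : E ≃ E)

theorem image_image_symm (S : Finset E) : (S.image s).image s.symm = S := by
  ext x; simp

theorem image_symm_image (S : Finset E) : (S.image s.symm).image s = S := by
  ext x; simp

theorem sum_powerset_image_equiv (W : Finset E) (F : Finset E → ℝ) :
    ∑ S ∈ (W.image s).powerset, F S = ∑ S ∈ W.powerset, F (S.image s) := by
  symm
  refine Finset.sum_nbij' (fun S => S.image s) (fun S => S.image s.symm) ?_ ?_ ?_ ?_ ?_
  · intro S hS
    simp only [Finset.mem_powerset] at hS ⊢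
    exact Finset.image_subset_image hS
  · intro S hS
    simp only [Finset.mem_powerset] at hS ⊢
    have := Finset.image_subset_image (f := s.symm) hS
    rwa [image_image_symm] at this
  · intro S _
    exact image_image_symm s S
  · intro S _
    exact image_symm_image s S
  · intro S _
    rfl

theorem sum_image_equiv (S : Finset E) (h : E → ℝ) :
    ∑ x ∈ S.image s, (h ∘ s.symm) x = ∑ x ∈ S, h x := by
  rw [Finset.sum_image (fun a _ b _ hab => s.injective hab)]
  simp

/-- Tilted means are equivariant under a relabelling of the sites. -/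
theorem tiltMean_equiv {c c' : Finset E → ℝ} {W : Finset E} (hc : ∀ S, c' (S.image s) = c S) (e : E) (h : E → ℝ) :
    tiltMean c' (W.image s) (s e) (h ∘ s.symm) = tiltMean c W e h := by
  unfold tiltMean tiltN tiltZ
  rw [sum_powerset_image_equiv, sum_powerset_image_equiv]
  congr 1
  · refine Finset.sum_congr rfl fun S _ => ?_
    have hmem : (s e ∈ S.image s) ↔ e ∈ S := by simp
    by_cases he : e ∈ S <;> simp [hmem, hc, sum_image_equiv, he]
  · refine Finset.sum_congr rfl fun S _ => ?_
    simp only [hc, sum_image_equiv]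

end TiltEquiv

/-- **Equivariance of the mean functional**, in the form needed by `solve_equiv`. -/
theorem mGw_equiv (wd : SimpleGraph ℕ → Sym2 ℕ → ℕ → Finset (Sym2 ℕ)) (G : SimpleGraph ℕ) (σ : Equiv.Perm ℕ)
    (hwd : ∀ e n, wd G (symE σ e) n = (wd (G.comap σ) e n).image (symE σ)) (e : Sym2 ℕ) (n : ℕ) (h : Sym2 ℕ → ℝ) :
    mGw wd G (symE σ e) n (h ∘ (symE σ).symm) = mGw wd (G.comap σ) e n h := by
  unfold mGw
  rw [hwd]
  exact tiltMean_equiv (symE σ) (c := cG (G.comap σ) (wd (G.comap σ) e n))
    (c' := cG G ((wd (G.comap σ) e n).image (symE σ))) (fun S => cG_comap G σ _ S) e h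

/-! ### Measurability -/

/-- Functions constant on the fibres of a countably valued measurable map are measurable. -/
theorem measurable_of_fibers {X Y C : Type*} [MeasurableSpace X] [MeasurableSpace Y] [Countable C] (r : X → C)
    (hr : ∀ c, MeasurableSet {x | r x = c}) (f : X → Y) (hf : ∀ x x', r x = r x' → f x = f x') : Measurable f := by
  intro s _
  have : f ⁻¹' s = ⋃ c : C, {x | r x = c ∧ f x ∈ s} := by
    ext x; simp
  rw [this]
  refine MeasurableSet.iUnion fun c => ?_
  by_cases hc : ∃ x₀, r x₀ = c ∧ f x₀ ∈ s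
  · obtain ⟨x₀, h1, h2⟩ := hc
    have : {x | r x = c ∧ f x ∈ s} = {x | r x = c} := by
      ext x
      simp only [Set.mem_ofPred_eq, and_iff_left_iff_imp]
      intro hx
      rw [hf x x₀ (hx.trans h1.symm)]
      exact h2
    rw [this]
    exact hr c
  · have : {x | r x = c ∧ f x ∈ s} = ∅ := by
      ext x
      simp only [Set.mem_ofPred_eq, Set.mem_empty_iff_false, iff_false]
      exact fun hx => hc ⟨x, hx⟩
    rw [this]
    exact MeasurableSet.empty

/-- Case analysis on a countably valued measurable map. -/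
theorem measurable_comp_countable {X Y C : Type*} [MeasurableSpace X] [MeasurableSpace Y] [Countable C] (r : X → C)
    (hr : ∀ c, MeasurableSet {x | r x = c}) (F : C → X → Y) (hF : ∀ c, Measurable (F c)) :
    Measurable (fun x => F (r x) x) := by
  intro s hs
  have : (fun x => F (r x) x) ⁻¹' s = ⋃ c : C, ({x | r x = c} ∩ (F c) ⁻¹' s) := by
    ext x; simp
  rw [this]
  exact MeasurableSet.iUnion fun c => (hr c).inter (hF c hs)

theorem measurableSet_table_eq_true (i j : ℕ) : MeasurableSet {t : ℕ → ℕ → Bool | t i j = true} := by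
  have hm : Measurable (fun t : ℕ → ℕ → Bool => t i j) :=
    (measurable_pi_apply j).comp (measurable_pi_apply i)
  exact hm (measurableSet_singleton true)

theorem measurableSet_adj (i j : ℕ) : MeasurableSet {t : ℕ → ℕ → Bool | (graphOfTable t).Adj i j} := by
  by_cases hij : i = j
  · subst hij
    have : {t : ℕ → ℕ → Bool | (graphOfTable t).Adj i i} = ∅ := by
      ext t; simp
    rw [this]
    exact MeasurableSet.empty
  · have : {t : ℕ → ℕ → Bool | (graphOfTable t).Adj i j}
        = {t : ℕ → ℕ → Bool | t i j = true} ∪ {t : ℕ → ℕ → Bool | t j i = true} := by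
      ext t
      simp [graphOfTable, SimpleGraph.fromRel_adj, hij]
    rw [this]
    exact (measurableSet_table_eq_true i j).union (measurableSet_table_eq_true j i)

theorem measurableSet_mem_edgeSet (e : Sym2 ℕ) : MeasurableSet {t : ℕ → ℕ → Bool | e ∈ (graphOfTable t).edgeSet} := by
  induction e using Sym2.ind with
  | _ a b => simpa using measurableSet_adj a b

theorem measurableSet_edgesIn (S : Finset ℕ) (B : Finset (Sym2 ℕ)) :
    MeasurableSet {t : ℕ → ℕ → Bool | edgesIn (graphOfTable t) S = B} := by
  by_cases hB : B ⊆ S.sym2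
  · have : {t : ℕ → ℕ → Bool | edgesIn (graphOfTable t) S = B}
        = ⋂ e ∈ S.sym2, {t : ℕ → ℕ → Bool | e ∈ (graphOfTable t).edgeSet ↔ e ∈ B} := by
      ext t
      simp only [Set.mem_ofPred_eq, Set.mem_iInter]
      constructor
      · rintro rfl e he
        simp only [edgesIn, Finset.mem_filter, he, true_and]
      · intro h
        ext e
        simp only [edgesIn, Finset.mem_filter]
        constructor
        · rintro ⟨h1, h2⟩
          exact (h e h1).1 h2
        · intro h1
          exact ⟨hB h1, (h e (hB h1)).2 h1⟩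
    rw [this]
    refine Finset.measurableSet_biInter _ fun e _ => ?_
    by_cases heB : e ∈ B
    · simp only [heB, iff_true]
      exact measurableSet_mem_edgeSet e
    · simp only [heB, iff_false]
      exact (measurableSet_mem_edgeSet e).compl
  · have : {t : ℕ → ℕ → Bool | edgesIn (graphOfTable t) S = B} = ∅ := by
      ext t
      simp only [Set.mem_ofPred_eq, Set.mem_empty_iff_false, iff_false]
      rintro rfl
      exact hB (Finset.filter_subset _ _)
    rw [this]
    exact MeasurableSet.empty

theorem ustContains_congr {G G' : SimpleGraph ℕ} {S : Finset ℕ} (h : edgesIn G S = edgesIn G' S) (F : Finset (Sym2 ℕ)) :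
    ustContains G S F = ustContains G' S F := by
  unfold ustContains IsSpanningTreeOn
  simp only [h]
  congr!

theorem induce_congr {G G' : SimpleGraph ℕ} {S : Finset ℕ} (h : edgesIn G S = edgesIn G' S) :
    G.induce (S : Set ℕ) = G'.induce (S : Set ℕ) := by
  ext a b
  have ha : (a : ℕ) ∈ S := a.2
  have hb : (b : ℕ) ∈ S := b.2
  have key : ∀ H : SimpleGraph ℕ, H.Adj a b ↔ s((a : ℕ), (b : ℕ)) ∈ edgesIn H S := by
    intro H
    rw [mem_edgesIn]
    simp [ha, hb]
  simp only [SimpleGraph.comap_adj, Function.Embedding.coe_subtype]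
  rw [key G, key G', h]

theorem isPiece_congr {G G' : SimpleGraph ℕ} {S : Finset ℕ} (h : edgesIn G S = edgesIn G' S) (F : Finset (Sym2 ℕ)) :
    IsPiece G S F ↔ IsPiece G' S F := by
  unfold IsPiece
  rw [induce_congr h]

theorem measurable_pG (F : Finset (Sym2 ℕ)) : Measurable (fun t : ℕ → ℕ → Bool => pG (graphOfTable t) F) := by
  unfold pG
  refine Measurable.iInf fun S => ?_
  refine measurable_of_fibers (fun t : ℕ → ℕ → Bool => edgesIn (graphOfTable t) S) (measurableSet_edgesIn S) _ ?_
  intro t t' h
  simp only [isPiece_congr h, ustContains_congr h]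

theorem measurable_cG (W S : Finset (Sym2 ℕ)) : Measurable (fun t : ℕ → ℕ → Bool => cG (graphOfTable t) W S) := by
  unfold cG
  exact Finset.measurable_sum _ fun T _ => (measurable_pG _).const_mul _

/-- Joint measurability of the mean functional in (table, tilt). -/
theorem measurable_mGw (wd : SimpleGraph ℕ → Sym2 ℕ → ℕ → Finset (Sym2 ℕ))
    (hwd : ∀ e n W, MeasurableSet {t : ℕ → ℕ → Bool | wd (graphOfTable t) e n = W}) (e : Sym2 ℕ) (n : ℕ) :
    Measurable (fun q : (ℕ → ℕ → Bool) × (Sym2 ℕ → ℝ) => mGw wd (graphOfTable q.1) e n q.2) := by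
  unfold mGw
  refine measurable_comp_countable (fun q : (ℕ → ℕ → Bool) × (Sym2 ℕ → ℝ) => wd (graphOfTable q.1) e n)
    (fun W => measurable_fst (hwd e n W))
    (fun W q => tiltMean (cG (graphOfTable q.1) W) W e q.2) fun W => ?_
  exact measurable_tiltMean_param (fun t S => cG (graphOfTable t) W S) (fun S => measurable_cG W S) W e

end UstMean

end Crest.Agent.Lib.SRF
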