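/- Row 168, S0254: the windows of the universal rule, all pairs in a ball around the site. Hypotheses `hm`, `hequiv`
of `rule_exists`. -/
import Crest.Agent.Lib.SRF.UstMean
import Crest.Agent.Lib.SRF.PairNoise

set_option autoImplicit false

namespace Crest.Agent.Lib.SRF

open MeasureTheory Set Filter Crest.ProbabilityR.SpanningTrees Crest.ProbabilityR.GraphTables
open scoped Classical

namespace UstMean

/-- the vertices within distance `n` of the pair `e` -/
noncomputable def ballE (G : SimpleGraph ℕ) (e : Sym2 ℕ) (n : ℕ) : Finset ℕ :=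
  e.toFinset.biUnion fun v => PN.ball G v n

/-- the `n`-th window of the pair `e`: all pairs in the ball, edges or not -/
noncomputable def wd (G : SimpleGraph ℕ) (e : Sym2 ℕ) (n : ℕ) : Finset (Sym2 ℕ) := (ballE G e n).sym2

/-- the mean functional of the universal rule -/
noncomputable def mG : SimpleGraph ℕ → Sym2 ℕ → ℕ → (Sym2 ℕ → ℝ) → ℝ := mGw wd

theorem mem_ballE {G : SimpleGraph ℕ} {e : Sym2 ℕ} {n w : ℕ} : w ∈ ballE G e n ↔ ∃ v ∈ e, w ∈ PN.ball G v n := by
  unfold ballE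
  simp

theorem mem_wd {G : SimpleGraph ℕ} {e f : Sym2 ℕ} {n : ℕ} : f ∈ wd G e n ↔ ∀ v ∈ f, v ∈ ballE G e n := by
  unfold wd
  exact Finset.mem_sym2_iff

theorem ballE_mono (G : SimpleGraph ℕ) (e : Sym2 ℕ) : Monotone (ballE G e) := by
  intro n n' hn w hw
  obtain ⟨v, hv, hw⟩ := mem_ballE.1 hw
  exact mem_ballE.2 ⟨v, hv, PN.ball_mono hn hw⟩

theorem wd_mono (G : SimpleGraph ℕ) (e : Sym2 ℕ) : Monotone (wd G e) := by
  intro n n' hn f hf
  exact mem_wd.2 fun v hv => ballE_mono G e hn (mem_wd.1 hf v hv)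

theorem self_mem_wd (G : SimpleGraph ℕ) (e : Sym2 ℕ) (n : ℕ) : e ∈ wd G e n := by
  refine mem_wd.2 fun v hv => mem_ballE.2 ⟨v, hv, PN.ball_mono (Nat.zero_le n) (PN.mem_ball_zero.2 rfl)⟩

theorem wd_exhaust {G : SimpleGraph ℕ} (hG : G.Connected) (hf : ∀ v, (G.neighborSet v).Finite) (e f : Sym2 ℕ) :
    ∃ n, f ∈ wd G e n := by
  induction e using Sym2.ind with
  | _ a b =>
    induction f using Sym2.ind with
    | _ c d =>
      obtain ⟨n₁, h₁⟩ := PN.exists_mem_ball hG hf a c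
      obtain ⟨n₂, h₂⟩ := PN.exists_mem_ball hG hf a d
      refine ⟨max n₁ n₂, mem_wd.2 fun v hv => mem_ballE.2 ⟨a, by simp, ?_⟩⟩
      rcases Sym2.mem_iff.1 hv with rfl | rfl
      · exact PN.ball_mono (le_max_left _ _) h₁
      · exact PN.ball_mono (le_max_right _ _) h₂

/-! ### Equivariance -/

theorem mem_ballE_comap (G : SimpleGraph ℕ) (σ : Equiv.Perm ℕ) (e : Sym2 ℕ) (n w : ℕ) :
    w ∈ ballE (G.comap σ) e n ↔ σ w ∈ ballE G (symE σ e) n := by
  rw [mem_ballE, mem_ballE]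
  constructor
  · rintro ⟨v, hv, hw⟩
    refine ⟨σ v, ?_, (PN.mem_ball_comap σ G).1 hw⟩
    rw [symE_apply, Sym2.mem_map]
    exact ⟨v, hv, rfl⟩
  · rintro ⟨v, hv, hw⟩
    rw [symE_apply, Sym2.mem_map] at hv
    obtain ⟨a, ha, rfl⟩ := hv
    exact ⟨a, ha, (PN.mem_ball_comap σ G).2 hw⟩

theorem wd_comap (G : SimpleGraph ℕ) (σ : Equiv.Perm ℕ) (e : Sym2 ℕ) (n : ℕ) :
    wd G (symE σ e) n = (wd (G.comap σ) e n).image (symE σ) := by
  ext f
  obtain ⟨f', rfl⟩ := (symE σ).surjective f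
  rw [Finset.mem_image]
  constructor
  · intro h
    refine ⟨f', mem_wd.2 fun v hv => ?_, rfl⟩
    refine (mem_ballE_comap G σ e n v).2 (mem_wd.1 h (σ v) ?_)
    rw [symE_apply, Sym2.mem_map]
    exact ⟨v, hv, rfl⟩
  · rintro ⟨x, hx, hxe⟩
    have : x = f' := (symE σ).injective hxe
    subst this
    refine mem_wd.2 fun v hv => ?_
    rw [symE_apply, Sym2.mem_map] at hv
    obtain ⟨a, ha, rfl⟩ := hv
    exact (mem_ballE_comap G σ e n a).1 (mem_wd.1 hx a ha)

/-- Hypothesis `hequiv` of `rule_exists`. -/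
theorem mG_comap (σ : Equiv.Perm ℕ) (G : SimpleGraph ℕ) (e : Sym2 ℕ) (n : ℕ) (h : Sym2 ℕ → ℝ) :
    mG (G.comap σ) e n (h ∘ Sym2.map σ) = mG G (Sym2.map σ e) n h := by
  have h1 := mGw_equiv wd G σ (wd_comap G σ) e n (h ∘ Sym2.map σ)
  have h2 : (h ∘ Sym2.map σ) ∘ (symE σ).symm = h := by
    funext f
    simp only [Function.comp]
    have : Sym2.map σ ((symE σ).symm f) = f := (symE σ).apply_symm_apply f
    rw [this]
  rw [h2] at h1
  exact h1.symm

/-! ### Measurability -/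

theorem measurableSet_mem_ballE (e : Sym2 ℕ) (n w : ℕ) :
    MeasurableSet {t : ℕ → ℕ → Bool | w ∈ ballE (graphOfTable t) e n} := by
  have : {t : ℕ → ℕ → Bool | w ∈ ballE (graphOfTable t) e n}
      = ⋃ v ∈ e.toFinset, {t : ℕ → ℕ → Bool | w ∈ PN.ball (graphOfTable t) v n} := by
    ext t
    simp [mem_ballE]
  rw [this]
  exact Finset.measurableSet_biUnion _ fun v _ => PN.measurableSet_mem_ball measurableSet_adj v n w

theorem measurableSet_wd_eq (e : Sym2 ℕ) (n : ℕ) (W : Finset (Sym2 ℕ)) :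
    MeasurableSet {t : ℕ → ℕ → Bool | wd (graphOfTable t) e n = W} := by
  have h := PN.measurable_comp_finset (f := fun t : ℕ → ℕ → Bool => ballE (graphOfTable t) e n)
    (measurableSet_mem_ballE e n) (fun B => decide (B.sym2 = W))
  have : {t : ℕ → ℕ → Bool | wd (graphOfTable t) e n = W}
      = (fun t : ℕ → ℕ → Bool => decide ((ballE (graphOfTable t) e n).sym2 = W)) ⁻¹' {true} := by
    ext t
    simp [wd]
  rw [this]
  exact h (measurableSet_singleton true)

/-- Hypothesis `hm` of `rule_exists`. -/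
theorem measurable_mG (e : Sym2 ℕ) (n : ℕ) :
    Measurable fun q : (ℕ → ℕ → Bool) × (Sym2 ℕ → ℝ) => mG (graphOfTable q.1) e n q.2 :=
  measurable_mGw wd measurableSet_wd_eq e n

end UstMean

end Crest.Agent.Lib.SRF
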