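/- Row 168, for S0254: a limit law from convergent cylinder masses, and passage of the Lipschitz
bound of the tilted means to the limit. -/
import Crest.Agent.Lib.SRF.Defs

set_option autoImplicit false

namespace Crest.Agent.Lib.SRF

open MeasureTheory Filter Topology
open scoped Classical

variable {E : Type*}

theorem isClopen_cyl (W S : Finset E) :
    IsClopen {ω : E → Bool | ∀ i ∈ W, (ω i = true ↔ i ∈ S)} := by
  have : {ω : E → Bool | ∀ i ∈ W, (ω i = true ↔ i ∈ S)}
      = ⋂ i ∈ W, (fun ω : E → Bool => ω i) ⁻¹' {b | b = true ↔ i ∈ S} := by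
    ext ω; simp
  rw [this]
  refine Set.Finite.isClopen_biInter W.finite_toSet fun i _ => ?_
  exact (isClopen_discrete _).preimage (continuous_apply i)

/-- **Limit law.** If the cylinder masses of the probability measures `μ n` on configurations over a
countable set converge, there is a probability measure with exactly the limit cylinder masses. -/
theorem exists_weak_limit [Countable E] (μ : ℕ → Measure (E → Bool))
    [∀ n, IsProbabilityMeasure (μ n)] (L : Finset E → Finset E → ℝ)
    (hL : ∀ W S, Tendsto (fun n => (μ n {ω | ∀ i ∈ W, (ω i = true ↔ i ∈ S)}).toReal) atTop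
      (𝓝 (L W S))) :
    ∃ ν : Measure (E → Bool), IsProbabilityMeasure ν ∧
      ∀ W S, (ν {ω | ∀ i ∈ W, (ω i = true ↔ i ∈ S)}).toReal = L W S := by
  let μs : ℕ → ProbabilityMeasure (E → Bool) := fun n => ⟨μ n, inferInstance⟩
  let F : Ultrafilter (ProbabilityMeasure (E → Bool)) := (hyperfilter ℕ).map μs
  let ν : ProbabilityMeasure (E → Bool) := F.lim
  have hν : Tendsto μs (hyperfilter ℕ : Filter ℕ) (𝓝 ν) := F.le_nhds_lim
  refine ⟨(ν : Measure (E → Bool)), inferInstance, fun W S => ?_⟩
  have h1 := ProbabilityMeasure.tendsto_measure_of_null_frontier_of_tendsto' hν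
    (E := {ω : E → Bool | ∀ i ∈ W, (ω i = true ↔ i ∈ S)})
    (by rw [(isClopen_cyl W S).frontier_eq]; simp)
  have h2 : Tendsto (fun n => (μ n {ω | ∀ i ∈ W, (ω i = true ↔ i ∈ S)}).toReal)
      (hyperfilter ℕ : Filter ℕ) (𝓝 (L W S)) := by
    refine (hL W S).mono_left ?_
    rw [Nat.cofinite_eq_atTop.symm]
    exact hyperfilter_le_cofinite
  have h3 : Tendsto (fun n => (μ n {ω | ∀ i ∈ W, (ω i = true ↔ i ∈ S)}).toReal)
      (hyperfilter ℕ : Filter ℕ)
      (𝓝 (((ν : Measure (E → Bool)) {ω | ∀ i ∈ W, (ω i = true ↔ i ∈ S)}).toReal)) := by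
    exact (ENNReal.tendsto_toReal (measure_ne_top _ _)).comp h1
  exact tendsto_nhds_unique h3 h2

/-- The tilted mean is continuous in the coefficients at a family with positive partition function. -/
theorem tendsto_tiltMean {ι' : Type*} {l : Filter ι'} {c : ι' → Finset E → ℝ} {c₀ : Finset E → ℝ}
    {W : Finset E} (hc : ∀ S ∈ W.powerset, Tendsto (fun n => c n S) l (𝓝 (c₀ S)))
    (e : E) (h : E → ℝ) (hne : tiltZ c₀ W h ≠ 0) :
    Tendsto (fun n => tiltMean (c n) W e h) l (𝓝 (tiltMean c₀ W e h)) := by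
  unfold tiltMean
  refine Tendsto.div ?_ ?_ hne
  · unfold tiltN
    refine tendsto_finsetSum _ fun S hS => ?_
    by_cases heS : e ∈ S
    · simp only [heS, if_true]
      exact (hc S hS).mul_const _
    · simp only [heS, if_false]
      exact tendsto_const_nhds
  · unfold tiltZ
    exact tendsto_finsetSum _ fun S hS => (hc S hS).mul_const _

/-- The partition function of a nonnegative family of positive total mass is positive. -/
theorem tiltZ_pos_of {c : Finset E → ℝ} {W : Finset E} (hc : ∀ S ∈ W.powerset, 0 ≤ c S)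
    (hpos : 0 < ∑ S ∈ W.powerset, c S) (h : E → ℝ) : 0 < tiltZ c W h := by
  have h1 : ∃ S ∈ W.powerset, 0 < c S := by
    by_contra hcon
    push Not at hcon
    have : ∑ S ∈ W.powerset, c S ≤ 0 := Finset.sum_nonpos hcon
    linarith
  obtain ⟨S, hS, hp⟩ := h1
  exact Finset.sum_pos' (fun T hT => mul_nonneg (hc T hT) (Real.exp_pos _).le)
    ⟨S, hS, mul_pos hp (Real.exp_pos _)⟩

/-- The Lipschitz bound of the tilted means passes to limits of coefficient families. -/
theorem tiltMean_lip_of_tendsto {ι' : Type*} {l : Filter ι'} [l.NeBot] {c : ι' → Finset E → ℝ}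
    {c₀ : Finset E → ℝ} {W : Finset E} (hc : ∀ S ∈ W.powerset, Tendsto (fun n => c n S) l (𝓝 (c₀ S)))
    (hc₀ : ∀ S ∈ W.powerset, 0 ≤ c₀ S) (hpos : 0 < ∑ S ∈ W.powerset, c₀ S) (e : E) (h h' : E → ℝ)
    (r : ℝ) (hlip : ∀ n, |tiltMean (c n) W e h - tiltMean (c n) W e h'| ≤ r / 2) :
    |tiltMean c₀ W e h - tiltMean c₀ W e h'| ≤ r / 2 := by
  have h1 := tendsto_tiltMean hc e h (tiltZ_pos_of hc₀ hpos h).ne'
  have h2 := tendsto_tiltMean hc e h' (tiltZ_pos_of hc₀ hpos h').ne'
  exact le_of_tendsto ((h1.sub h2).abs) (Eventually.of_forall hlip)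

end Crest.Agent.Lib.SRF
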