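/- Row 168, S0254, Mod LIM: the free uniform spanning forest as limit of the uniform spanning trees of finite
connected pieces: limits of the edge-inclusion probabilities (`pG`), the uniform measure on trees, inclusion-exclusion,
the limit law, the `Windows` structure. -/
import Crest.Agent.Lib.SRF.UstMono
import Crest.Agent.Lib.SRF.WeakLimit
import Crest.Agent.Lib.SRF.Bridge
import Crest.Agent.Lib.SRF.PairNoise
import Crest.Agent.Lib.SRF.UstWin

set_option autoImplicit false

namespace Crest.Agent.Lib.SRF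

open MeasureTheory Filter Topology Crest.ProbabilityR.SpanningTrees
open scoped Classical ENNReal

open UstMean

namespace LIM

/-- Spanning trees of a piece. -/
noncomputable def treeSet (G : SimpleGraph ℕ) (S : Finset ℕ) : Finset (Finset (Sym2 ℕ)) :=
  (edgesIn G S).powerset.filter (fun A => IsSpanningTreeOn G S A)

theorem ustContains_eq_card (G : SimpleGraph ℕ) (S : Finset ℕ) (F : Finset (Sym2 ℕ)) :
    ustContains G S F = (((treeSet G S).filter (fun A => F ⊆ A)).card : ℝ) / ((treeSet G S).card : ℝ) := by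
  unfold ustContains treeSet
  rw [Finset.filter_filter]
  congr!


variable {G : SimpleGraph ℕ}

theorem ustContains_nonneg (S : Finset ℕ) (F : Finset (Sym2 ℕ)) : 0 ≤ ustContains G S F := by
  unfold ustContains
  positivity

theorem ustContains_le_one (S : Finset ℕ) (F : Finset (Sym2 ℕ)) : ustContains G S F ≤ 1 := by
  unfold ustContains
  refine div_le_one_of_le₀ ?_ (by positivity)
  refine Nat.cast_le.2 (Finset.card_le_card ?_)
  intro A hA
  simp only [Finset.mem_filter] at hA ⊢
  exact ⟨hA.1, hA.2.1⟩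

theorem ustContains_eq_zero_of_not_subset {S : Finset ℕ} {F : Finset (Sym2 ℕ)}
    (h : ¬ ((F : Set (Sym2 ℕ)) ⊆ G.edgeSet)) : ustContains G S F = 0 := by
  rw [ustContains_eq_card, div_eq_zero_iff]
  left
  rw [Nat.cast_eq_zero, Finset.card_eq_zero, Finset.filter_eq_empty_iff]
  intro A hA hFA
  apply h
  intro e he
  have h1 := Finset.mem_powerset.1 (Finset.mem_filter.1 hA).1 (hFA he)
  exact (mem_edgesIn.1 h1).2

/-- The function under the `iInf` -/
noncomputable def pv (G : SimpleGraph ℕ) (F : Finset (Sym2 ℕ)) (S : Finset ℕ) : ℝ :=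
  if IsPiece G S F then ustContains G S F else 1

theorem pv_nonneg (F : Finset (Sym2 ℕ)) (S : Finset ℕ) : 0 ≤ pv G F S := by
  unfold pv
  split_ifs
  · exact ustContains_nonneg _ _
  · norm_num

theorem bddBelow_pv (F : Finset (Sym2 ℕ)) : BddBelow (Set.range (pv G F)) :=
  ⟨0, by rintro _ ⟨S, rfl⟩; exact pv_nonneg F S⟩

theorem pG_eq (F : Finset (Sym2 ℕ)) : pG G F = ⨅ S, pv G F S := rfl

theorem pG_nonneg (F : Finset (Sym2 ℕ)) : 0 ≤ pG G F := by
  rw [pG_eq]
  exact Real.iInf_nonneg (pv_nonneg F)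

theorem pG_le_one (F : Finset (Sym2 ℕ)) : pG G F ≤ 1 := by
  rw [pG_eq]
  refine ciInf_le_of_le (bddBelow_pv F) ∅ ?_
  unfold pv
  split_ifs
  · exact ustContains_le_one _ _
  · exact le_rfl

end LIM

open LIM

/-- **The limit along exhaustions.** -/
theorem tendsto_ust {G : SimpleGraph ℕ} (S : ℕ → Finset ℕ) (hmono : Monotone S) (hex : ∀ v : ℕ, ∃ n, v ∈ S n)
    (hconn : ∀ n, (G.induce (S n : Set ℕ)).Connected) (F : Finset (Sym2 ℕ)) :
    Tendsto (fun n => ustContains G (S n) F) atTop (𝓝 (pG G F)) := by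
  -- eventually the piece contains every finite set
  have hsub : ∀ X : Finset ℕ, ∀ᶠ n in atTop, X ⊆ S n := by
    intro X
    induction X using Finset.induction_on with
    | empty => exact Eventually.of_forall fun n => Finset.empty_subset _
    | insert a X _ ih =>
      obtain ⟨n0, hn0⟩ := hex a
      filter_upwards [ih, eventually_ge_atTop n0] with n h1 h2
      exact Finset.insert_subset (hmono h2 hn0) h1
  have hF : ∀ᶠ n in atTop, ∀ e ∈ F, ∀ v ∈ e, v ∈ S n := by
    have := hsub (F.biUnion fun e => e.toFinset)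
    filter_upwards [this] with n hn e he v hv
    exact hn (Finset.mem_biUnion.2 ⟨e, he, by simpa using hv⟩)
  have hlower : ∀ᶠ n in atTop, pG G F ≤ ustContains G (S n) F := by
    filter_upwards [hF] with n hn
    have := ciInf_le (bddBelow_pv (G := G) F) (S n)
    rw [← pG_eq] at this
    refine this.trans (le_of_eq ?_)
    unfold pv
    rw [if_pos (show IsPiece G (S n) F from ⟨hconn n, hn⟩)]
  by_cases hedge : (F : Set (Sym2 ℕ)) ⊆ G.edgeSet
  · refine tendsto_order.2 ⟨fun a ha => hlower.mono fun n hn => lt_of_lt_of_le ha hn, fun b hb => ?_⟩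
    rw [pG_eq] at hb
    obtain ⟨S', hS'⟩ := exists_lt_of_ciInf_lt hb
    unfold pv at hS'
    split_ifs at hS' with hc
    · obtain ⟨hc1, hc2⟩ := hc
      filter_upwards [hsub S'] with n hn
      refine lt_of_le_of_lt ?_ hS'
      refine ustContains_anti hc1 (hconn n) hn ?_
      intro e he
      exact mem_edgesIn.2 ⟨hc2 e he, hedge he⟩
    · exact Eventually.of_forall fun n => lt_of_le_of_lt (ustContains_le_one _ _) hS'
  · have h0 : ∀ n, ustContains G (S n) F = 0 := fun n => ustContains_eq_zero_of_not_subset hedge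
    have h1 : pG G F = 0 := by
      refine le_antisymm ?_ (pG_nonneg F)
      obtain ⟨n, hn⟩ := hlower.exists
      rwa [h0] at hn
    simp only [h0, h1]
    exact tendsto_const_nhds

/-! ### The uniform measure on spanning trees -/

/-- Indicator of an edge set. -/
noncomputable def indic (A : Finset (Sym2 ℕ)) : Sym2 ℕ → Bool := fun e => decide (e ∈ A)

/-- Uniform measure on the spanning trees of a piece. -/
noncomputable def treeMeas (G : SimpleGraph ℕ) (S : Finset ℕ) : Measure (Sym2 ℕ → Bool) :=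
  (((treeSet G S).card : ℝ≥0∞)⁻¹) • ∑ A ∈ treeSet G S, Measure.dirac (indic A)

theorem treeSet_nonempty {G : SimpleGraph ℕ} {S : Finset ℕ} (hconn : (G.induce (S : Set ℕ)).Connected) :
    (treeSet G S).Nonempty := by
  have h := (isSRCoef_tree hconn).pos
  by_contra hcon
  rw [Finset.not_nonempty_iff_eq_empty] at hcon
  have h0 : ∑ A ∈ (edgesIn G S).powerset, treeCoef G S A = 0 := by
    refine Finset.sum_eq_zero fun A hA => ?_
    unfold treeCoef
    rw [if_neg]
    intro hT
    have : A ∈ treeSet G S := Finset.mem_filter.2 ⟨hA, hT⟩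
    rw [hcon] at this
    simp at this
  rw [h0] at h
  exact lt_irrefl _ h

theorem treeMeas_apply (G : SimpleGraph ℕ) (S : Finset ℕ) {B : Set (Sym2 ℕ → Bool)} (hB : MeasurableSet B) :
    treeMeas G S B = ((treeSet G S).card : ℝ≥0∞)⁻¹ *
      (((treeSet G S).filter (fun A => indic A ∈ B)).card : ℝ≥0∞) := by
  unfold treeMeas
  rw [Measure.smul_apply, smul_eq_mul, Measure.finsetSum_apply]
  congr 1
  rw [Finset.card_filter]
  push_cast
  refine Finset.sum_congr rfl fun A _ => ?_
  rw [Measure.dirac_apply' _ hB]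
  by_cases h : indic A ∈ B <;> simp [h]

instance treeMeas_prob {G : SimpleGraph ℕ} {S : Finset ℕ} [h : Fact (G.induce (S : Set ℕ)).Connected] :
    IsProbabilityMeasure (treeMeas G S) := by
  refine ⟨?_⟩
  rw [treeMeas_apply G S MeasurableSet.univ]
  have hne := (treeSet_nonempty h.out).card_pos
  have huniv : ∀ A ∈ treeSet G S, indic A ∈ (Set.univ : Set (Sym2 ℕ → Bool)) := fun A _ => Set.mem_univ _
  have hcard : ∀ inst : DecidablePred (fun A => indic A ∈ (Set.univ : Set (Sym2 ℕ → Bool))),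
      (@Finset.filter _ _ inst (treeSet G S)).card = (treeSet G S).card :=
    fun inst => congrArg _ (Finset.filter_true_of_mem huniv)
  rw [hcard]
  refine ENNReal.inv_mul_cancel ?_ (ENNReal.natCast_ne_top _)
  exact_mod_cast hne.ne'

theorem isProb_treeMeas {G : SimpleGraph ℕ} {S : Finset ℕ} (h : (G.induce (S : Set ℕ)).Connected) :
    IsProbabilityMeasure (treeMeas G S) := by
  have : Fact (G.induce (S : Set ℕ)).Connected := ⟨h⟩
  infer_instance

theorem mass_treeMeas (G : SimpleGraph ℕ) (S : Finset ℕ) (W T : Finset (Sym2 ℕ)) :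
    mass (treeMeas G S) W T = (((treeSet G S).filter (fun A => ∀ i ∈ W, (i ∈ A ↔ i ∈ T))).card : ℝ) /
      ((treeSet G S).card : ℝ) := by
  unfold mass
  rw [treeMeas_apply G S (Crest.Agent.SRF.measurableSet_cyl W T)]
  rw [ENNReal.toReal_mul, ENNReal.toReal_inv, ENNReal.toReal_natCast, ENNReal.toReal_natCast]
  rw [div_eq_inv_mul]
  congr 2
  congr 1
  ext A
  simp [indic]

/-- The cylinder depends only on the trace of `T` on `W`. -/
theorem mass_inter (ν : Measure (Sym2 ℕ → Bool)) (W T : Finset (Sym2 ℕ)) : mass ν W T = mass ν W (T ∩ W) := by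
  unfold mass
  congr 2
  ext ω
  simp only [Set.mem_ofPred_eq, Finset.mem_inter]
  refine forall₂_congr fun i hi => ?_
  simp [hi]

theorem inclusion_exclusion (W T A : Finset (Sym2 ℕ)) (hT : T ⊆ W) :
    (if ∀ i ∈ W, (i ∈ A ↔ i ∈ T) then (1 : ℝ) else 0) =
      ∑ X ∈ (W \ T).powerset, (-1 : ℝ) ^ X.card * (if T ∪ X ⊆ A then 1 else 0) := by
  by_cases hTA : T ⊆ A
  · -- reduce to the subsets of `(W \ T) ∩ A`
    have hsum : ∑ X ∈ (W \ T).powerset, (-1 : ℝ) ^ X.card * (if T ∪ X ⊆ A then 1 else 0) =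
        ∑ X ∈ ((W \ T) ∩ A).powerset, (-1 : ℝ) ^ X.card := by
      have : ((W \ T) ∩ A).powerset = (W \ T).powerset.filter (fun X => T ∪ X ⊆ A) := by
        ext X
        simp only [Finset.mem_powerset, Finset.mem_filter, Finset.union_subset_iff, Finset.subset_inter_iff]
        tauto
      rw [this, Finset.sum_filter]
      refine Finset.sum_congr rfl fun X _ => ?_
      by_cases h : T ∪ X ⊆ A <;> simp [h]
    rw [hsum]
    have hcast : ∑ X ∈ ((W \ T) ∩ A).powerset, (-1 : ℝ) ^ X.card =
        ((∑ X ∈ ((W \ T) ∩ A).powerset, (-1 : ℤ) ^ X.card : ℤ) : ℝ) := by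
      push_cast; rfl
    rw [hcast, Finset.sum_powerset_neg_one_pow_card]
    by_cases hemp : (W \ T) ∩ A = ∅
    · have : ∀ i ∈ W, (i ∈ A ↔ i ∈ T) := by
        intro i hi
        refine ⟨fun hiA => ?_, fun h => hTA h⟩
        by_contra hiT
        have : i ∈ (W \ T) ∩ A := by simp [hi, hiT, hiA]
        rw [hemp] at this
        simp at this
      rw [if_pos this, hemp]
      simp
    · have : ¬ ∀ i ∈ W, (i ∈ A ↔ i ∈ T) := by
        intro hall
        apply hemp
        ext i
        simp only [Finset.mem_inter, Finset.mem_sdiff, Finset.notMem_empty, iff_false]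
        rintro ⟨⟨hi, hiT⟩, hiA⟩
        exact hiT ((hall i hi).1 hiA)
      rw [if_neg this, if_neg hemp]
      simp
  · have h1 : ¬ ∀ i ∈ W, (i ∈ A ↔ i ∈ T) := by
      intro hall
      apply hTA
      intro i hi
      exact (hall i (hT hi)).2 hi
    rw [if_neg h1]
    symm
    refine Finset.sum_eq_zero fun X _ => ?_
    rw [if_neg, mul_zero]
    intro h
    exact hTA (Finset.union_subset_left h)

/-- Inclusion-exclusion for the masses of the uniform measure on trees. -/
theorem mass_treeMeas_eq (G : SimpleGraph ℕ) (S : Finset ℕ) (W T : Finset (Sym2 ℕ)) (hT : T ⊆ W) :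
    mass (treeMeas G S) W T = ∑ X ∈ (W \ T).powerset, (-1 : ℝ) ^ X.card * ustContains G S (T ∪ X) := by
  rw [mass_treeMeas]
  simp_rw [ustContains_eq_card, mul_div_assoc']
  rw [← Finset.sum_div]
  congr 1
  rw [Finset.card_filter]
  push_cast
  simp_rw [inclusion_exclusion W T _ hT]
  rw [Finset.sum_comm]
  refine Finset.sum_congr rfl fun X _ => ?_
  rw [← Finset.mul_sum, Finset.card_filter]
  push_cast
  congr!

theorem tendsto_mass {G : SimpleGraph ℕ} (S : ℕ → Finset ℕ) (hmono : Monotone S) (hex : ∀ v : ℕ, ∃ n, v ∈ S n)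
    (hconn : ∀ n, (G.induce (S n : Set ℕ)).Connected) (W T : Finset (Sym2 ℕ)) :
    Tendsto (fun n => mass (treeMeas G (S n)) W T) atTop (𝓝 (cG G W (T ∩ W))) := by
  have h1 : ∀ n, mass (treeMeas G (S n)) W T =
      ∑ X ∈ (W \ (T ∩ W)).powerset, (-1 : ℝ) ^ X.card * ustContains G (S n) ((T ∩ W) ∪ X) := by
    intro n
    rw [mass_inter, mass_treeMeas_eq G (S n) W (T ∩ W) Finset.inter_subset_right]
  simp_rw [h1]
  unfold cG
  refine tendsto_finsetSum _ fun X _ => ?_
  exact (tendsto_ust S hmono hex hconn _).const_mul _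

/-! ### Stability of the marginals of the uniform measure on trees -/

/-- The generating polynomial of the marginal on `W` is the tree polynomial with variables `1` off `W`. -/
theorem genPoly_marg (G : SimpleGraph ℕ) (S : Finset ℕ) (W : Finset (Sym2 ℕ)) (z : Sym2 ℕ → ℂ) :
    ∑ T ∈ W.powerset, ((mass (treeMeas G S) W T : ℝ) : ℂ) * ∏ i ∈ T, z i =
      (((treeSet G S).card : ℝ) : ℂ)⁻¹ * treePoly G S (fun e => if e ∈ W then z e else 1) := by
  have hpoly : treePoly G S (fun e => if e ∈ W then z e else 1) =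
      ∑ A ∈ treeSet G S, ∏ e ∈ A ∩ W, z e := by
    unfold treePoly treeSet
    refine Finset.sum_congr (by congr) fun A _ => ?_
    rw [Finset.prod_ite_mem]
  rw [hpoly, Finset.mul_sum]
  have hone : ∀ T ∈ W.powerset, ((mass (treeMeas G S) W T : ℝ) : ℂ) * ∏ i ∈ T, z i =
      ∑ A ∈ treeSet G S, (((treeSet G S).card : ℝ) : ℂ)⁻¹ *
        (if A ∩ W = T then ∏ e ∈ A ∩ W, z e else 0) := by
    intro T hT
    have hT' := Finset.mem_powerset.1 hT
    have hiff : ∀ A : Finset (Sym2 ℕ), (∀ i ∈ W, (i ∈ A ↔ i ∈ T)) ↔ A ∩ W = T := by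
      intro A
      constructor
      · intro h
        ext i
        simp only [Finset.mem_inter]
        constructor
        · rintro ⟨h1, h2⟩
          exact (h i h2).1 h1
        · intro h1
          exact ⟨(h i (hT' h1)).2 h1, hT' h1⟩
      · rintro rfl i hi
        simp [hi]
    rw [mass_treeMeas]
    have hc : (((treeSet G S).filter (fun A => ∀ i ∈ W, (i ∈ A ↔ i ∈ T))).card : ℝ) =
        ∑ A ∈ treeSet G S, if A ∩ W = T then (1 : ℝ) else 0 := by
      rw [Finset.card_filter]
      push_cast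
      refine Finset.sum_congr rfl fun A _ => ?_
      by_cases h : A ∩ W = T
      · rw [if_pos h, if_pos ((hiff A).2 h)]
      · rw [if_neg h, if_neg (fun h' => h ((hiff A).1 h'))]
    rw [hc, ← Finset.mul_sum, Complex.ofReal_div, Complex.ofReal_sum, div_eq_inv_mul, mul_assoc, Finset.sum_mul]
    congr 1
    refine Finset.sum_congr rfl fun A _ => ?_
    by_cases h : A ∩ W = T
    · simp [h]
    · simp [h]
  rw [Finset.sum_congr rfl hone, Finset.sum_comm]
  refine Finset.sum_congr rfl fun A _ => ?_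
  rw [← Finset.mul_sum]
  congr 1
  rw [Finset.sum_ite_eq]
  rw [if_pos (Finset.mem_powerset.2 Finset.inter_subset_right)]

theorem stable_marg {G : SimpleGraph ℕ} {S : Finset ℕ} (hconn : (G.induce (S : Set ℕ)).Connected)
    (W : Finset (Sym2 ℕ)) : StableCoef (mass (treeMeas G S) W) W := by
  intro z hz
  rw [genPoly_marg]
  have hcard : (((treeSet G S).card : ℝ) : ℂ)⁻¹ ≠ 0 := by
    have := (treeSet_nonempty hconn).card_pos
    refine inv_ne_zero ?_
    exact_mod_cast this.ne'
  refine mul_ne_zero hcard (treePoly_ne_zero hconn _ ?_)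
  intro e _
  by_cases he : e ∈ W
  · simp only [he, if_true]
    exact Or.inl (hz e he)
  · simp only [he, if_false]
    exact Or.inr ⟨by simp, by simp⟩

theorem lim_mass_nonneg (ν : Measure (Sym2 ℕ → Bool)) (W T : Finset (Sym2 ℕ)) : 0 ≤ mass ν W T := by
  unfold mass
  exact ENNReal.toReal_nonneg

theorem lim_sum_mass (ν : Measure (Sym2 ℕ → Bool)) [IsProbabilityMeasure ν] (W : Finset (Sym2 ℕ)) :
    ∑ T ∈ W.powerset, mass ν W T = 1 :=
  Crest.Agent.SRF.sum_margCoef ν W

/-- Tilted means only see the coefficients on the powerset. -/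
theorem tiltMean_congr_coef {c c' : Finset (Sym2 ℕ) → ℝ} {W : Finset (Sym2 ℕ)}
    (h : ∀ T ∈ W.powerset, c T = c' T) (e : Sym2 ℕ) (x : Sym2 ℕ → ℝ) : tiltMean c W e x = tiltMean c' W e x := by
  unfold tiltMean tiltN tiltZ
  congr 1
  · refine Finset.sum_congr rfl fun T hT => ?_
    rw [h T hT]
  · refine Finset.sum_congr rfl fun T hT => ?_
    rw [h T hT]

/-- **The limit law and its windows**, along a given exhaustion. -/
theorem windows_of_exhaustion {G : SimpleGraph ℕ} (hG : G.Connected) (hf : ∀ v, (G.neighborSet v).Finite)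
    (S : ℕ → Finset ℕ) (hmono : Monotone S) (hex : ∀ v : ℕ, ∃ n, v ∈ S n)
    (hconn : ∀ n, (G.induce (S n : Set ℕ)).Connected) :
    ∃ ν : Measure (Sym2 ℕ → Bool), IsProbabilityMeasure ν ∧ Windows ν (wd G) (mG G) ∧
      ∀ F : Finset (Sym2 ℕ), (ν {ω | ∀ e ∈ F, ω e = true}).toReal = pG G F := by
  have : ∀ n, IsProbabilityMeasure (treeMeas G (S n)) := fun n => isProb_treeMeas (hconn n)
  obtain ⟨ν, hprob, hmass⟩ := exists_weak_limit (E := Sym2 ℕ) (fun n => treeMeas G (S n))
    (fun W T => cG G W (T ∩ W)) (fun W T => tendsto_mass S hmono hex hconn W T)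
  have hmass' : ∀ W T, T ∈ W.powerset → mass ν W T = cG G W T := by
    intro W T hT
    have h1 := hmass W T
    rw [Finset.inter_eq_left.2 (Finset.mem_powerset.1 hT)] at h1
    exact h1
  have hmean : ∀ e n x, mG G e n x = tiltMean (mass ν (wd G e n)) (wd G e n) e x := by
    intro e n x
    show tiltMean (cG G (wd G e n)) (wd G e n) e x = _
    exact tiltMean_congr_coef (fun T hT => (hmass' _ T hT).symm) e x
  refine ⟨ν, hprob, ⟨wd_mono G, wd_exhaust hG hf, hmean, ?_⟩, ?_⟩
  · intro e n x x' r hr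
    rw [hmean, hmean]
    have hW : (wd G e n).Nonempty := ⟨e, self_mem_wd G e n⟩
    refine tiltMean_lip_of_tendsto (c := fun k => mass (treeMeas G (S k)) (wd G e n)) (l := atTop)
      (c₀ := mass ν (wd G e n)) ?_ (fun T _ => lim_mass_nonneg ν _ T) ?_ e x x' r ?_
    · intro T hT
      have h1 := tendsto_mass S hmono hex hconn (wd G e n) T
      rwa [Finset.inter_eq_left.2 (Finset.mem_powerset.1 hT), ← hmass' _ T hT] at h1
    · rw [lim_sum_mass]
      norm_num
    · intro k
      refine tiltMean_lip_of_stable (fun T _ => lim_mass_nonneg _ _ T) ?_ (stable_marg (hconn k) _) hW e x x' r hr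
      rw [lim_sum_mass]
      norm_num
  · intro F
    have h1 := hmass F F
    have h2 : {ω : Sym2 ℕ → Bool | ∀ e ∈ F, ω e = true} = {ω | ∀ i ∈ F, (ω i = true ↔ i ∈ F)} := by
      ext ω
      simp only [Set.mem_ofPred_eq]
      refine forall₂_congr fun i hi => ?_
      simp [hi]
    rw [h2, h1]
    unfold cG
    simp

/-- Balls are connected. -/
theorem ball_connected {G : SimpleGraph ℕ} (hf : ∀ v, (G.neighborSet v).Finite) (u n : ℕ) :
    (G.induce (PN.ball G u n : Set ℕ)).Connected := by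
  have hu : ∀ n, u ∈ PN.ball G u n := fun n => PN.ball_mono (Nat.zero_le n) (PN.mem_ball_zero.2 rfl)
  have key : ∀ n w (hw : w ∈ PN.ball G u n),
      (G.induce (PN.ball G u n : Set ℕ)).Reachable ⟨u, hu n⟩ ⟨w, hw⟩ := by
    intro n
    induction n with
    | zero =>
      intro w hw
      have : w = u := PN.mem_ball_zero.1 hw
      subst this
      exact SimpleGraph.Reachable.refl _
    | succ n ih =>
      intro w hw
      have hsub : (PN.ball G u n : Set ℕ) ⊆ (PN.ball G u (n + 1) : Set ℕ) :=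
        fun x hx => PN.ball_mono (Nat.le_succ n) hx
      have hlift : ∀ y (hy : y ∈ PN.ball G u n),
          (G.induce (PN.ball G u (n + 1) : Set ℕ)).Reachable ⟨u, hu (n + 1)⟩ ⟨y, PN.ball_mono (Nat.le_succ n) hy⟩ := by
        intro y hy
        exact (ih y hy).map (SimpleGraph.induceHomOfLE G hsub).toHom
      rcases PN.mem_ball_succ.1 hw with h1 | ⟨y, hy, hyw⟩
      · exact hlift w h1
      · refine (hlift y hy).trans (SimpleGraph.Adj.reachable ?_)
        have := (PN.mem_nb.1 hyw).2
        simpa using this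
  have : Nonempty (PN.ball G u n : Set ℕ) := ⟨⟨u, hu n⟩⟩
  refine ⟨fun a b => ?_⟩
  exact (key n a.1 a.2).symm.trans (key n b.1 b.2)

/-- Hypothesis `hν` of `rule_exists`. -/
theorem windows_nuG {G : SimpleGraph ℕ} (hG : G.Connected) (hf : ∀ v, (G.neighborSet v).Finite) :
    ∃ (ν : Measure (Sym2 ℕ → Bool)) (W : Sym2 ℕ → ℕ → Finset (Sym2 ℕ)), IsProbabilityMeasure ν ∧
      Windows ν W (mG G) ∧ ∀ F : Finset (Sym2 ℕ), (ν {ω | ∀ e ∈ F, ω e = true}).toReal = pG G F := by
  obtain ⟨ν, h1, h2, h3⟩ := windows_of_exhaustion hG hf (fun n => PN.ball G 0 n) PN.ball_mono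
    (fun v => PN.exists_mem_ball hG hf 0 v) (fun n => ball_connected hf 0 n)
  exact ⟨ν, wd G, h1, h2, h3⟩

end Crest.Agent.Lib.SRF
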